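import Mathlib

/-! The group von Neumann algebra. -/

namespace Vale.Agent.P086

/-- The Hilbert space `ℓ²(X)`. -/
abbrev l2 (X : Type*) : Type _ := lp (fun _ : X => ℂ) 2

theorem comp_le {X : Type*} {φ : X → X} (hφ : Function.Injective φ) (ξ : l2 X) (s : Finset X) :
    ∑ x ∈ s, ‖ξ (φ x)‖ ^ (2 : ENNReal).toReal ≤ ‖ξ‖ ^ (2 : ENNReal).toReal := by
  simpa using lp.sum_rpow_le_norm_rpow (by simp) ξ (s.map ⟨φ, hφ⟩)

/-- The bounded operator `ξ ↦ ξ ∘ φ` on `ℓ²(X)`, for an injective map `φ`. -/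
noncomputable def comp {X : Type*} (φ : X → X) (hφ : Function.Injective φ) : l2 X →L[ℂ] l2 X :=
  LinearMap.mkContinuous
    { toFun := fun ξ => ⟨fun x => ξ (φ x), memℓp_gen' (comp_le hφ ξ)⟩
      map_add' := fun _ _ => rfl
      map_smul' := fun _ _ => rfl } 1
    fun ξ => lp.norm_le_of_forall_sum_le (by simp) (by simp) (by rw [one_mul]; exact comp_le hφ ξ)

/-- The left regular representation: `(λ(g) ξ)(h) = ξ(g⁻¹ h)`. -/
noncomputable def lreg {G : Type*} [Group G] (g : G) : l2 G →L[ℂ] l2 G :=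
  comp (fun h => g⁻¹ * h) (mul_right_injective _)

/-- The group von Neumann algebra `L(G) = λ(G)''`. -/
noncomputable def groupVN (G : Type*) [Group G] : StarSubalgebra ℂ (l2 G →L[ℂ] l2 G) :=
  StarSubalgebra.centralizer ℂ
    (StarSubalgebra.centralizer ℂ (Set.range (lreg (G := G))) : Set (l2 G →L[ℂ] l2 G))

end Vale.Agent.P086
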