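import Vale.Agent.P086.Iter
import Vale.Agent.P086.Defs

/-! Concrete models. -/

namespace Vale.Agent.P086

open Vale.Agent.P104 Vale.Agent.P085 Filter Topology StarSubalgebra
open scoped InnerProductSpace CStarAlgebra

section Bic

variable {K : Type*} [NormedAddCommGroup K] [InnerProductSpace ℂ K] [CompleteSpace K]

/-- The bicommutant. -/
noncomputable abbrev bic (S : Set (K →L[ℂ] K)) : StarSubalgebra ℂ (K →L[ℂ] K) :=
  centralizer ℂ (centralizer ℂ S : Set (K →L[ℂ] K))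

instance (S : Set (K →L[ℂ] K)) : IsClosed (centralizer ℂ S : Set (K →L[ℂ] K)) :=
  Set.isClosed_centralizer _

/-- Evaluation at a vector. -/
noncomputable def evΛ (M : StarSubalgebra ℂ (K →L[ℂ] K)) (Ω : K) : M →ₗ[ℂ] K where
  toFun a := a.1 Ω
  map_add' _ _ := rfl
  map_smul' _ _ := rfl

/-- The vector state. -/
noncomputable def evτ (M : StarSubalgebra ℂ (K →L[ℂ] K)) (Ω : K) : M →ₗ[ℂ] ℂ :=
  (innerSL ℂ Ω).toLinearMap ∘ₗ evΛ M Ω

theorem bic_comm {S : Set (K →L[ℂ] K)} {a b : K →L[ℂ] K} (ha : a ∈ bic S)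
    (hb : b ∈ centralizer ℂ S) (ξ : K) : a (b ξ) = b (a ξ) :=
  congrArg (· ξ) (((mem_centralizer_iff ℂ).1 ha b hb).1).symm

theorem std_bic {S : Set (K →L[ℂ] K)} {Ω : K} (h1 : ‖Ω‖ = 1)
    (rev : ∀ s ∈ S, ∃ r ∈ centralizer ℂ S, r Ω = s Ω ∧ star r Ω = star s Ω)
    (cyc : ∀ ξ, (∀ m ∈ StarAlgebra.adjoin ℂ S, ⟪m Ω, ξ⟫_ℂ = 0) → ξ = 0) :
    ∃ h : Std (evτ (bic S) Ω) (evΛ (bic S) Ω) (bic S).subtype,
      ∀ a, a ∈ W h.toTr (Subtype.val ⁻¹' S) := by
  have sub : StarAlgebra.adjoin ℂ S ≤ bic S := StarAlgebra.adjoin_le_centralizer_centralizer ℂ S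
  have rv : ∀ m ∈ StarAlgebra.adjoin ℂ S, ∃ r ∈ centralizer ℂ S, r Ω = m Ω ∧ star r Ω = star m Ω := by
    intro m hm
    induction hm using StarAlgebra.adjoin_induction with
    | mem x hx => exact rev x hx
    | algebraMap c => exact ⟨_, algebraMap_mem _ c, rfl, rfl⟩
    | add x y _ _ hx hy =>
      obtain ⟨r, r1, r2, r3⟩ := hx
      obtain ⟨s, s1, s2, s3⟩ := hy
      exact ⟨r + s, add_mem r1 s1, by simp [r2, s2], by simp [r3, s3]⟩
    | mul x y xm ym hx hy =>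
      obtain ⟨r, r1, r2, r3⟩ := hx
      obtain ⟨s, s1, s2, s3⟩ := hy
      refine ⟨s * r, mul_mem s1 r1, ?_, ?_⟩
      · rw [ContinuousLinearMap.mul_apply, ContinuousLinearMap.mul_apply, r2, ← s2,
          bic_comm (sub xm) s1]
      · rw [star_mul, star_mul, ContinuousLinearMap.mul_apply, ContinuousLinearMap.mul_apply, s3,
          ← r3, bic_comm (star_mem (sub ym)) (star_mem r1)]
    | star x _ hx =>
      obtain ⟨r, r1, r2, r3⟩ := hx
      exact ⟨star r, star_mem r1, r3, by simpa using r2⟩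
  have den : Dense {v | ∃ m ∈ StarAlgebra.adjoin ℂ S, m Ω = v} := by
    have := (Submodule.dense_iff_topologicalClosure_eq_top
      (s := (evΛ (StarAlgebra.adjoin ℂ S) Ω).range)).2 (Submodule.topologicalClosure_eq_top_iff.2
        (eq_bot_iff.2 fun ξ hξ => cyc ξ fun m hm => hξ _ ⟨⟨m, hm⟩, rfl⟩))
    exact this.mono (by rintro _ ⟨m, rfl⟩; exact ⟨m, m.2, rfl⟩)
  have t1 : ∀ a ∈ bic S, ∀ m ∈ StarAlgebra.adjoin ℂ S, ⟪star a Ω, m Ω⟫_ℂ = ⟪star m Ω, a Ω⟫_ℂ :=
    fun a ha m hm => by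
      obtain ⟨r, r1, r2, r3⟩ := rv m hm
      rw [← r2, ← r3, inner_star_left, inner_star_left, bic_comm ha r1]
  have t2 : ∀ m ∈ StarAlgebra.adjoin ℂ S, ‖star m Ω‖ = ‖m Ω‖ := fun m hm => by
    have := t1 _ (sub (star_mem hm)) m hm
    rw [star_star, inner_self_eq_norm_sq_to_K, inner_self_eq_norm_sq_to_K] at this
    exact (sq_eq_sq₀ (norm_nonneg _) (norm_nonneg _)).1 (by exact_mod_cast this.symm)
  have t3 : ∀ a ∈ bic S, ‖star a Ω‖ ≤ ‖a Ω‖ := fun a ha => by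
    have : ‖⟪star a Ω, star a Ω⟫_ℂ‖ ≤ ‖star a Ω‖ * ‖a Ω‖ :=
      closure_minimal (t := {ξ | ‖⟪star a Ω, ξ⟫_ℂ‖ ≤ ‖ξ‖ * ‖a Ω‖}) (by
        rintro _ ⟨m, hm, rfl⟩
        rw [Set.mem_setOf_eq, t1 a ha m hm, ← t2 m hm]
        exact norm_inner_le_norm _ _) (isClosed_le (by fun_prop) (by fun_prop)) (den _)
    rw [inner_self_eq_norm_sq_to_K] at this
    simp only [norm_pow, Complex.coe_algebraMap, Complex.norm_real, norm_norm] at this
    nlinarith [norm_nonneg (star a Ω), norm_nonneg (a Ω)]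
  have t4 : ∀ a ∈ bic S, ∀ b ∈ bic S, ⟪star a Ω, b Ω⟫_ℂ = ⟪star b Ω, a Ω⟫_ℂ := fun a ha b hb => by
    refine sub_eq_zero.1 (norm_le_zero_iff.1 (le_of_forall_pos_le_add fun ε hε => ?_))
    obtain ⟨_, ⟨m, hm, rfl⟩, d⟩ := Metric.mem_closure_iff.1 (den (b Ω)) (ε / (2 * ‖a Ω‖ + 1))
      (by positivity)
    rw [dist_eq_norm, lt_div_iff₀ (by positivity)] at d
    have c1 := norm_inner_le_norm (𝕜 := ℂ) (star a Ω) (b Ω - m Ω)
    have c2 := norm_inner_le_norm (𝕜 := ℂ) (star b Ω - star m Ω) (a Ω)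
    have c3 := t3 _ (sub_mem hb (sub hm))
    rw [star_sub, ContinuousLinearMap.sub_apply, ContinuousLinearMap.sub_apply] at c3
    rw [inner_sub_right, t1 a ha m hm] at c1
    rw [inner_sub_left] at c2
    have := norm_sub_le_of_le c1 c2
    rw [sub_sub_sub_cancel_right] at this
    nlinarith [t3 a ha, norm_nonneg (a Ω), norm_nonneg (b Ω - m Ω),
      mul_le_mul_of_nonneg_right (t3 a ha) (norm_nonneg (b Ω - m Ω)),
      mul_le_mul_of_nonneg_right c3 (norm_nonneg (a Ω))]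
  have tr : Tr (evτ (bic S) Ω) (evΛ (bic S) Ω) := ⟨fun a b => by
    simpa [evτ, evΛ, inner_star_left] using t4 _ a.2 _ b.2,
    fun a b => (inner_star_right a.1 Ω (b.1 Ω)).symm⟩
  refine ⟨⟨⟨tr, fun a ha => Subtype.ext (ContinuousLinearMap.ext_on (s := {v | ∃ m ∈
    StarAlgebra.adjoin ℂ S, m Ω = v}) (den.mono Submodule.subset_span) ?_), ?_, fun u C hu hc => ?_⟩,
    fun _ _ => rfl, den.mono (by rintro _ ⟨m, hm, rfl⟩; exact ⟨⟨m, sub hm⟩, rfl⟩)⟩, fun a ε hε => ?_⟩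
  · rintro _ ⟨m, hm, rfl⟩
    obtain ⟨r, r1, r2, -⟩ := rv m hm
    rw [← r2, bic_comm a.2 r1, show a.1 Ω = 0 from ha, map_zero]
    rfl
  · simp [evτ, evΛ, h1]
  · obtain ⟨w, hw⟩ := exists_strong_limit atTop (fun n => (u n).1) C (.of_forall hu) fun z => by
      refine cauchySeq_iff_tendsto_dist_atTop_0.2 ?_
      have := strong_of_closure (l := atTop) (v := fun p : ℕ × ℕ => (u p.1).1 - (u p.2).1) (w := 0)
        (fun p => norm_sub_le_of_le (hu p.1) (hu p.2)) (by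
          rintro _ ⟨m, hm, rfl⟩
          obtain ⟨r, r1, r2, -⟩ := rv m hm
          have := (r.continuous.tendsto 0).comp (tendsto_zero_iff_norm_tendsto_zero.2 (by
            simpa only [dist_eq_norm] using cauchySeq_iff_tendsto_dist_atTop_0.1 hc))
          simpa [← r2, bic_comm (u _).2 r1, Function.comp_def, evΛ] using this) (den z)
      simpa [dist_eq_norm] using this.norm
    have wm : w ∈ bic S := (mem_centralizer_iff ℂ).2 fun g hg => by
      have : ∀ g ∈ centralizer ℂ S, g * w = w * g := fun g hg => ContinuousLinearMap.ext fun z =>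
        tendsto_nhds_unique ((g.continuous.tendsto _).comp (hw z))
          ((hw (g z)).congr fun n => bic_comm (u n).2 hg z)
      exact ⟨this g hg, this _ (star_mem hg)⟩
    refine ⟨⟨w, wm⟩, w.opNorm_le_bound ((norm_nonneg _).trans (hu 0)) fun z =>
      le_of_tendsto' (hw z).norm fun n => (u n).1.le_of_opNorm_le (hu n) z, ?_⟩
    simpa [evΛ, norm_sub_rev] using tendsto_iff_norm_sub_tendsto_zero.1 (hw Ω)
  · obtain ⟨_, ⟨m, hm, rfl⟩, d⟩ := Metric.mem_closure_iff.1 (den (a.1 Ω)) ε hε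
    obtain ⟨n, hn, rfl⟩ := StarAlgebra.adjoin_le (S := (StarAlgebra.adjoin ℂ
      (Subtype.val ⁻¹' S : Set (bic S))).map (bic S).subtype) (fun x hx => ⟨⟨x, sub
        (StarAlgebra.subset_adjoin _ _ hx)⟩, StarAlgebra.subset_adjoin _ _ hx, rfl⟩) hm
    exact ⟨n, adj_Cl hn, by simpa [evΛ, dist_eq_norm] using d⟩

end Bic

variable {X : Type*} [DecidableEq X] {φ : X → X} {hφ : Function.Injective φ}

/-- The basis vectors. -/
noncomputable def bv (x : X) : l2 X := lp.single 2 x 1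

theorem inner_bv (x : X) (ξ : l2 X) : ⟪bv x, ξ⟫_ℂ = ξ x := by simp [bv, lp.inner_single_left]

theorem bv_apply (x y : X) : bv x y = if y = x then 1 else 0 := by
  simp [bv, lp.single_apply, Pi.single_apply]

theorem norm_bv (x : X) : ‖bv x‖ = 1 := by simp [bv]

omit [DecidableEq X] in
theorem comp_apply (ξ : l2 X) (x : X) : comp φ hφ ξ x = ξ (φ x) := rfl

theorem star_bv (x : X) : star (comp φ hφ) (bv x) = bv (φ x) :=
  ext_inner_right ℂ fun ξ => by rw [inner_star_left, inner_bv, inner_bv, comp_apply]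

theorem star_in (ξ : l2 X) (x : X) : star (comp φ hφ) ξ (φ x) = ξ x := by
  rw [← inner_bv, inner_star_right, ← inner_bv]
  congr 1
  ext y
  simp [comp_apply, bv_apply, hφ.eq_iff]

theorem star_out (ξ : l2 X) {y : X} (hy : ∀ x, φ x ≠ y) : star (comp φ hφ) ξ y = 0 := by
  have : comp φ hφ (bv y) = 0 := by
    ext x
    simp [comp_apply, bv_apply, hy]
  rw [← inner_bv, inner_star_right, this, inner_zero_left]

theorem cyc_of {P : StarSubalgebra ℂ (l2 X →L[ℂ] l2 X)} {Ω : l2 X} (h : ∀ x, ∃ m ∈ P, m Ω = bv x)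
    (ξ : l2 X) (hξ : ∀ m ∈ P, ⟪m Ω, ξ⟫_ℂ = 0) : ξ = 0 := lp.ext (funext fun x => by
  obtain ⟨m, hm, e⟩ := h x
  rw [← inner_bv, ← e, hξ m hm]
  rfl)

section Fock

variable {ι : Type} [DecidableEq ι]

/-- Left annihilation. -/
noncomputable def an (i : ι) : l2 (List ι) →L[ℂ] l2 (List ι) := comp (i :: ·) List.cons_injective

/-- Right annihilation. -/
noncomputable def bn (i : ι) : l2 (List ι) →L[ℂ] l2 (List ι) :=
  comp (· ++ [i]) (List.append_left_injective _)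

theorem an0 (i : ι) (ξ : l2 (List ι)) : star (an i) ξ [] = 0 := star_out ξ (by simp)

theorem bn0 (i : ι) (ξ : l2 (List ι)) : star (bn i) ξ [] = 0 := star_out ξ (by simp)

theorem an1 (i k : ι) (ξ : l2 (List ι)) (v : List ι) :
    star (an i) ξ (k :: v) = if k = i then ξ v else 0 := by
  split_ifs with h
  exacts [h ▸ star_in ξ v, star_out ξ (by simp [Ne.symm h])]

theorem bn1 (i k : ι) (ξ : l2 (List ι)) (v : List ι) :
    star (bn i) ξ (v ++ [k]) = if k = i then ξ v else 0 := by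
  split_ifs with h
  exacts [h ▸ star_in ξ v, star_out ξ (by simp [Ne.symm h])]

theorem an_comm (i j : ι) :
    (star (an i) + an i) * (star (bn j) + bn j) = (star (bn j) + bn j) * (star (an i) + an i) := by
  have a : an i * bn j = bn j * an i := rfl
  have b : star (an i) * star (bn j) = star (bn j) * star (an i) := by
    rw [← star_mul, ← star_mul, a]
  have c : star (an i) * bn j + an i * star (bn j) = star (bn j) * an i + bn j * star (an i) := by
    ext ξ w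
    change star (an i) (bn j ξ) w + star (bn j) ξ (i :: w) =
      star (bn j) (an i ξ) w + star (an i) ξ (w ++ [j])
    rcases eq_or_ne w [] with rfl | hw
    · have := bn1 j i ξ []
      rw [List.nil_append] at this
      simp [an0, bn0, an1, this, eq_comm]
    rw [add_comm]
    congr 1
    · obtain ⟨v, k, rfl⟩ := (List.eq_nil_or_concat' w).resolve_left hw
      rw [← List.cons_append, bn1, bn1]
      rfl
    · obtain ⟨k, v, rfl⟩ := List.exists_cons_of_ne_nil hw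
      rw [List.cons_append, an1, an1]
      rfl
  simp only [mul_add, add_mul, a, b]
  linear_combination (norm := abel) c

theorem fock (ι : Type) [DecidableEq ι] : ∃ (M : StarSubalgebra ℂ (l2 (List ι) →L[ℂ] l2 (List ι)))
    (_ : IsClosed (M : Set (l2 (List ι) →L[ℂ] l2 (List ι)))) (τ : M →ₗ[ℂ] ℂ)
    (Λ : M →ₗ[ℂ] l2 (List ι)) (h : Std τ Λ M.subtype) (x : ι → M), Fk τ Λ M.subtype ⊥ x ∧
      ∀ a, a ∈ W h.toTr (Set.range x) := by
  have a0 : ∀ i : ι, an i (bv []) = 0 := fun i => by ext w; simp [an, comp_apply, bv_apply]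
  have b0 : ∀ i : ι, bn i (bv []) = 0 := fun i => by ext w; simp [bn, comp_apply, bv_apply]
  have a1 : ∀ (i j : ι) ξ, an i (star (an j) ξ) = if i = j then ξ else 0 := fun i j ξ => by
    ext w
    refine (an1 j i ξ w).trans ?_
    split_ifs <;> rfl
  obtain ⟨h, hW⟩ := std_bic (S := Set.range fun i : ι => star (an i) + an i) (norm_bv []) (by
    rintro _ ⟨i, rfl⟩
    refine ⟨star (bn i) + bn i, (mem_centralizer_iff ℂ).2 ?_, ?_⟩
    · rintro _ ⟨j, rfl⟩
      simp [an_comm, add_comm (an j)]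
    · have e1 : star (an i) (bv []) = bv [i] := star_bv _
      have e2 : star (bn i) (bv []) = bv [i] := star_bv _
      simp [a0, b0, e1, e2]) (cyc_of fun w => by
    suffices ∀ w : List ι, (∃ m ∈ StarAlgebra.adjoin ℂ (Set.range fun i : ι => star (an i) + an i),
      m (bv []) = bv w) ∧ ∀ i, ∃ m ∈ StarAlgebra.adjoin ℂ (Set.range fun i : ι => star (an i) + an i),
      m (bv []) = an i (bv w) from (this w).1
    intro w
    induction w with
    | nil => exact ⟨⟨1, one_mem _, rfl⟩, fun i => ⟨0, zero_mem _, (a0 i).symm⟩⟩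
    | cons k v ih =>
      obtain ⟨⟨m, m1, m2⟩, ih⟩ := ih
      obtain ⟨n, n1, n2⟩ := ih k
      have e : bv (k :: v) = star (an k) (bv v) := (star_bv _).symm
      refine ⟨⟨(star (an k) + an k) * m - n, sub_mem (mul_mem
        (StarAlgebra.subset_adjoin _ _ ⟨k, rfl⟩) m1) n1, by simp [m2, n2, e]⟩, fun i => ?_⟩
      rw [e, a1]
      split_ifs
      exacts [⟨m, m1, m2⟩, ⟨0, zero_mem _, rfl⟩])
  refine ⟨_, inferInstance, _, _, h, fun i => ⟨_, StarAlgebra.adjoin_le_centralizer_centralizer ℂ _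
    (StarAlgebra.subset_adjoin _ _ ⟨i, rfl⟩)⟩, ⟨fun i => star (an i), ⟨?_, ?_, ?_⟩,
      fun i => by simp⟩, fun a => W_mono ?_ (hW a)⟩
  · rintro i _ ⟨r, rfl⟩
    simp [evΛ, Algebra.algebraMap_eq_smul_one, a0]
  · rintro i _ ⟨r, rfl⟩ ξ
    simp [Algebra.algebraMap_eq_smul_one, a1, h.one]
  · rintro i j e _ ⟨r, rfl⟩ ξ
    simp [Algebra.algebraMap_eq_smul_one, a1, e]
  · rintro a ⟨i, hi⟩
    exact ⟨i, Subtype.ext hi⟩

end Fock

section Group

variable {Γ : Type*} [Group Γ] [DecidableEq Γ]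

theorem star_lreg (g : Γ) : star (lreg g) = lreg g⁻¹ := by
  ext ξ w
  have := star_in (φ := fun h => g⁻¹ * h) (hφ := mul_right_injective _) ξ (g * w)
  simpa [lreg, comp_apply] using this

theorem lreg_bv (g : Γ) : lreg g (bv 1) = bv g := by
  ext w
  simp [lreg, comp_apply, bv_apply, inv_mul_eq_one, eq_comm]

omit [DecidableEq Γ] in
theorem lreg_mul (g h : Γ) : lreg (g * h) = lreg g * lreg h := by
  ext ξ w
  simp [lreg, comp_apply, mul_assoc]

theorem iso_of_HG {ι A H : Type*} [DecidableEq ι] [CStarAlgebra A] [NormedAddCommGroup H]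
    [InnerProductSpace ℂ H] {τ : A →ₗ[ℂ] ℂ} {Λ : A →ₗ[ℂ] H} (h : TA τ Λ) {a : ι → A}
    (ha : HG h.toTr a) : Nonempty (groupVN (FreeGroup ι) ≃⋆ₐ[ℂ] A) := by
  obtain ⟨h', hW⟩ := std_bic (S := Set.range (lreg (G := FreeGroup ι))) (norm_bv 1) (by
    rintro _ ⟨g, rfl⟩
    refine ⟨comp (· * g⁻¹) (mul_left_injective _), (mem_centralizer_iff ℂ).2 ?_, ?_, ?_⟩
    · rintro _ ⟨j, rfl⟩
      rw [star_lreg]
      constructor <;> ext ξ w <;> simp [lreg, comp_apply, mul_assoc]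
    · ext w
      simp [lreg_bv, comp_apply, bv_apply, mul_inv_eq_one]
    · rw [star_bv, star_lreg, lreg_bv, one_mul]) (cyc_of fun g =>
      ⟨_, StarAlgebra.subset_adjoin _ _ ⟨g, rfl⟩, lreg_bv g⟩)
  let u : FreeGroup ι →* unitary A := FreeGroup.lift fun i => ⟨a i, ha.1 i⟩
  let Φ : FreeGroup ι → bic (Set.range (lreg (G := FreeGroup ι))) × A := fun g =>
    (⟨lreg g, StarAlgebra.adjoin_le_centralizer_centralizer ℂ _
      (StarAlgebra.subset_adjoin _ _ ⟨g, rfl⟩)⟩, u g)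
  have Φ1 : ∀ g k, Φ g * Φ k = Φ (g * k) := fun g k =>
    Prod.ext (Subtype.ext (lreg_mul g k).symm) (by simp [Φ])
  have Φ2 : ∀ g, star (Φ g) = Φ g⁻¹ := fun g =>
    Prod.ext (Subtype.ext (star_lreg g)) (by simp [Φ, ← Unitary.star_eq_inv])
  have Φ3 : Φ 1 = 1 := Prod.ext (Subtype.ext (by ext ξ w; simp [Φ, lreg, comp_apply])) (by simp [Φ])
  have e : ∀ L, (u (FreeGroup.mk L) : A) = ev a L := fun L => by
    rw [FreeGroup.lift_mk, ev, SubmonoidClass.coe_list_prod, List.map_map]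
    congr 2
    ext ⟨i, _ | _⟩ <;> simp [ub, ← Unitary.star_eq_inv]
  refine (exists_equiv h'.toTA h (S := Set.range Φ) (fun z hz => ?_)
    (fun x => W_mono (by rintro x ⟨g, hg⟩; exact ⟨_, ⟨g, rfl⟩, Subtype.ext hg⟩) (hW x))
    (fun y => W_mono (by rintro _ ⟨i, rfl⟩; exact ⟨_, ⟨.of i, rfl⟩, by simp [Φ, u]⟩) (ha.2.1 y))).elim
    fun α _ => ⟨α⟩
  have m : z ∈ Submodule.span ℂ (Set.range Φ) := by
    refine adj_ind (P := (· ∈ Submodule.span ℂ (Set.range Φ))) ?_ (fun r => ?_)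
      (fun _ _ => add_mem) (fun x y hx hy => ?_) hz
    · rintro _ ⟨g, rfl⟩
      exact ⟨Submodule.subset_span ⟨g, rfl⟩, Submodule.subset_span ⟨_, (Φ2 g).symm⟩⟩
    · rw [Algebra.algebraMap_eq_smul_one]
      exact Submodule.smul_mem _ _ (Submodule.subset_span ⟨1, Φ3⟩)
    · have := Submodule.mul_mem_mul hx hy
      rw [Submodule.span_mul_span] at this
      refine Submodule.span_mono ?_ this
      rintro _ ⟨_, ⟨g, rfl⟩, _, ⟨k, rfl⟩, rfl⟩
      exact ⟨_, (Φ1 g k).symm⟩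
  refine Submodule.span_le (p := LinearMap.eqLocus (evτ _ (bv 1) ∘ₗ .fst ℂ _ A)
    (τ ∘ₗ .snd ℂ _ A)).2 ?_ m
  rintro _ ⟨g, rfl⟩
  change ⟪bv 1, lreg g (bv 1)⟫_ℂ = τ (u g)
  rw [lreg_bv, inner_bv, bv_apply]
  split_ifs with c
  · simp [← c, h.one]
  · rw [← g.mk_toWord, e, ha.2.2 _ FreeGroup.isReduced_toWord]
    exact fun c' => c (FreeGroup.toWord_eq_nil_iff.1 c').symm

end Group

theorem iso_four_five :
    Nonempty (groupVN (FreeGroup (Fin 4)) ≃⋆ₐ[ℂ] groupVN (FreeGroup (Fin 5))) := by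
  obtain ⟨M, _, τ, Λ, h, x, c, top⟩ := fock (Fin 5)
  obtain ⟨⟨a, ha⟩, b, hb⟩ := exists_HG h c top
  obtain ⟨α⟩ := iso_of_HG h.toTA ha
  obtain ⟨β⟩ := iso_of_HG h.toTA hb
  exact ⟨β.trans α.symm⟩

end Vale.Agent.P086
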