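import Vale.Agent.P086.Conc

/-! Transport to an arbitrary Hilbert basis. -/

namespace Vale.Agent.P086

open StarSubalgebra

theorem cent_map {A B : Type*} [Ring A] [StarRing A] [Algebra ℂ A] [StarModule ℂ A] [Ring B]
    [StarRing B] [Algebra ℂ B] [StarModule ℂ B] (Φ : A ≃⋆ₐ[ℂ] B) {S : Set A} {T : Set B}
    (h : ∀ x, x ∈ S ↔ Φ x ∈ T) (x : A) : x ∈ centralizer ℂ S ↔ Φ x ∈ centralizer ℂ T := by
  simp only [mem_centralizer_iff, (EquivLike.surjective Φ).forall, ← h, ← map_star, ← map_mul,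
    EmbeddingLike.apply_eq_iff_eq]

theorem sub_equiv {A B : Type*} [Ring A] [StarRing A] [Algebra ℂ A] [StarModule ℂ A] [Ring B]
    [StarRing B] [Algebra ℂ B] [StarModule ℂ B] (Φ : A ≃⋆ₐ[ℂ] B) {P : StarSubalgebra ℂ A}
    {Q : StarSubalgebra ℂ B} (h : ∀ x, x ∈ P ↔ Φ x ∈ Q) : Nonempty (P ≃⋆ₐ[ℂ] Q) :=
  ⟨.ofBijective (((Φ : A →⋆ₐ[ℂ] B).comp P.subtype).codRestrict Q fun x => (h x).1 x.2)
    ⟨fun _ _ e => Subtype.ext (Φ.injective (congrArg Subtype.val e)), fun y =>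
      ⟨⟨Φ.symm y, (h _).2 (by simp)⟩, Subtype.ext (Φ.apply_symm_apply y)⟩⟩⟩

theorem basis_iso {G H : Type*} [Group G] [NormedAddCommGroup H] [InnerProductSpace ℂ H]
    [CompleteSpace H] (b : HilbertBasis G ℂ H) :
    (∀ g, ∃ u : H →L[ℂ] H, ∀ h, u (b h) = b (g * h)) ∧
    Nonempty (centralizer ℂ (SetLike.coe (centralizer ℂ
      {u : H →L[ℂ] H | ∃ g, ∀ h, u (b h) = b (g * h)})) ≃⋆ₐ[ℂ] groupVN G) := by
  classical
  have e : ∀ g h, b.repr.symm.conjStarAlgEquiv (lreg g) (b h) = b (g * h) := fun g h => by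
    have : lreg g (bv h) = bv (g * h) := by
      ext w
      simp [lreg, comp_apply, bv_apply, inv_mul_eq_iff_eq_mul]
    rw [LinearIsometryEquiv.conjStarAlgEquiv_apply_apply, LinearIsometryEquiv.symm_symm,
      b.repr_self, ← b.repr_symm_single]
    exact congrArg _ this
  refine ⟨fun g => ⟨_, e g⟩, sub_equiv b.repr.conjStarAlgEquiv (cent_map _ (cent_map _ fun u =>
    exists_congr fun g => ?_))⟩
  rw [eq_comm, ← StarAlgEquiv.eq_symm_apply, LinearIsometryEquiv.symm_conjStarAlgEquiv]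
  refine ⟨fun h => ContinuousLinearMap.ext_on (s := Set.range b)
    (Submodule.dense_iff_topologicalClosure_eq_top.2 b.dense_span) ?_, fun h k => h ▸ e g k⟩
  rintro _ ⟨k, rfl⟩
  rw [h, e]

end Vale.Agent.P086
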