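import Vale.Agent.P086.W
import Vale.Agent.P085.Dense

/-! Creation operators free from a subalgebra. -/

namespace Vale.Agent.P086

open Vale.Agent.P104 Vale.Agent.P085 Filter Topology
open scoped InnerProductSpace CStarAlgebra

variable {A H : Type*} [CStarAlgebra A] [NormedAddCommGroup H] [InnerProductSpace ℂ H]
  [CompleteSpace H] {τ : A →ₗ[ℂ] ℂ} {Λ : A →ₗ[ℂ] H} {π : A →⋆ₐ[ℂ] (H →L[ℂ] H)}

/-- A tracial algebra in its standard representation. -/
structure Std (τ : A →ₗ[ℂ] ℂ) (Λ : A →ₗ[ℂ] H) (π : A →⋆ₐ[ℂ] (H →L[ℂ] H)) : Prop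
    extends TA τ Λ where
  act : ∀ a b, π a (Λ b) = Λ (a * b)
  dense : DenseRange Λ

/-- Creation operators free from `D`. -/
structure Cre (τ : A →ₗ[ℂ] ℂ) (Λ : A →ₗ[ℂ] H) (π : A →⋆ₐ[ℂ] (H →L[ℂ] H)) {ι : Type*}
    (l : ι → H →L[ℂ] H) (D : StarSubalgebra ℂ A) : Prop where
  vac : ∀ i, ∀ d ∈ D, star (l i) (Λ d) = 0
  ip1 : ∀ i, ∀ d ∈ D, ∀ ξ, star (l i) (π d (l i ξ)) = τ d • ξ
  ip0 : ∀ i j, i ≠ j → ∀ d ∈ D, ∀ ξ, star (l i) (π d (l j ξ)) = 0

theorem Cre.mono {ι : Type*} {l : ι → H →L[ℂ] H} {D D' : StarSubalgebra ℂ A} (c : Cre τ Λ π l D)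
    (h : D' ≤ D) : Cre τ Λ π l D' :=
  ⟨fun i d hd => c.vac i d (h hd), fun i d hd => c.ip1 i d (h hd), fun i j e d hd => c.ip0 i j e d (h hd)⟩

/-- Pairs of vectors built by the same words. -/
inductive Pr (Λ : A →ₗ[ℂ] H) (π : A →⋆ₐ[ℂ] (H →L[ℂ] H)) {ι : Type*} (l : ι → H →L[ℂ] H)
    (K : Set ι) (D : StarSubalgebra ℂ A) (ζ : H) : H → H → Prop
  | base (d : A) : d ∈ D → Pr Λ π l K D ζ (Λ d) (π d ζ)
  | step (d : A) (k : ι) (v w : H) : d ∈ D → k ∈ K → Pr Λ π l K D ζ v w →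
      Pr Λ π l K D ζ (π d (l k v)) (π d (l k w))
  | add (v w v' w' : H) : Pr Λ π l K D ζ v w → Pr Λ π l K D ζ v' w' →
      Pr Λ π l K D ζ (v + v') (w + w')
  | smul (c : ℂ) (v w : H) : Pr Λ π l K D ζ v w → Pr Λ π l K D ζ (c • v) (c • w)

theorem Std.tau (h : Std τ Λ π) (a : A) : ⟪Λ 1, Λ a⟫_ℂ = τ a := by simp [h.inner]

theorem Std.mul (_ : Std τ Λ π) (a b : A) (ξ : H) : π a (π b ξ) = π (a * b) ξ := by simp

theorem Std.strong (h : Std τ Λ π) {p : ℕ → A} {a : A} {C : ℝ} (hp : ∀ n, ‖p n‖ ≤ C)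
    (ha : Tendsto (fun n => ‖Λ (a - p n)‖) atTop (𝓝 0)) (ζ : H) :
    Tendsto (fun n => π (p n) ζ) atTop (𝓝 (π a ζ)) := by
  refine strong_of_closure (fun n => (NonUnitalStarAlgHom.norm_apply_le π _).trans (hp n))
    (S := Set.range Λ) ?_ (h.dense ζ)
  rintro _ ⟨b, rfl⟩
  rw [tendsto_iff_norm_sub_tendsto_zero]
  refine squeeze_zero (fun _ => norm_nonneg _) (fun n => ?_) (by simpa using ha.mul_const ‖b‖)
  rw [h.act, h.act, ← map_sub, ← map_sub, ← sub_mul, sym Λ a]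
  exact mr h.toTr _ _

theorem Cre.pair (h : Std τ Λ π) {ι : Type*} {l : ι → H →L[ℂ] H} {D : StarSubalgebra ℂ A}
    (c : Cre τ Λ π l D) {K : Set ι} {x : ι → A} (hx : ∀ k ∈ K, π (x k) = l k + star (l k)) {ζ η : H}
    (hζ : ∀ k ∈ K, ∀ d ∈ D, star (l k) (π d ζ) = 0) {T : H →L[ℂ] H}
    (q1 : ∀ d ∈ D, T (π d ζ) = τ d • η) (q2 : ∀ d ∈ D, ∀ k ∈ K, ∀ ξ, T (π d (l k ξ)) = 0) {n : A}
    (hn : n ∈ W h.toTr (D ∪ x '' K)) : T (π n ζ) = τ n • η := by
  have b1 := Pr.base (Λ := Λ) (π := π) (l := l) (K := K) (ζ := ζ) 1 (one_mem D)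
  have z : Pr Λ π l K D ζ 0 0 := by simpa using b1.smul 0
  have i1 : ∀ d ∈ D, ∀ v w, Pr Λ π l K D ζ v w → Pr Λ π l K D ζ (π d v) (π d w) := by
    intro d hd v w p
    induction p with
    | base e he => rw [h.act, h.mul]; exact .base _ (mul_mem hd he)
    | step e k v w he hk p _ => rw [h.mul, h.mul]; exact .step _ _ _ _ (mul_mem hd he) hk p
    | add v w v' w' _ _ a b => rw [map_add, map_add]; exact a.add _ _ _ _ b
    | smul c v w _ a => rw [map_smul, map_smul]; exact a.smul _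
  have i2 : ∀ k ∈ K, ∀ v w, Pr Λ π l K D ζ v w →
      Pr Λ π l K D ζ (star (l k) v) (star (l k) w) := by
    intro k hk v w p
    induction p with
    | base e he => rw [c.vac k e he, hζ k hk e he]; exact z
    | step e j v w he hj p _ =>
      rcases eq_or_ne k j with rfl | kj
      · rw [c.ip1 k e he, c.ip1 k e he]; exact p.smul _
      · rw [c.ip0 k j kj e he, c.ip0 k j kj e he]; exact z
    | add v w v' w' _ _ a b => rw [map_add, map_add]; exact a.add _ _ _ _ b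
    | smul c v w _ a => rw [map_smul, map_smul]; exact a.smul _
  have i3 : ∀ k ∈ K, ∀ v w, Pr Λ π l K D ζ v w → Pr Λ π l K D ζ (π (x k) v) (π (x k) w) := by
    intro k hk v w p
    simpa [hx k hk] using (p.step 1 k v w (one_mem D) hk).add _ _ _ _ (i2 k hk v w p)
  have i4 : ∀ v w, Pr Λ π l K D ζ v w → T w = ⟪Λ 1, v⟫_ℂ • η := by
    intro v w p
    induction p with
    | base e he => rw [q1 e he, h.tau]
    | step e j v w he hj p _ =>
      rw [q2 e he j hj, ← inner_star_left, ← inner_star_left, ← map_star, h.act, mul_one,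
        c.vac j _ (star_mem he), inner_zero_left, zero_smul]
    | add v w v' w' _ _ a b => rw [map_add, inner_add_right, add_smul, a, b]
    | smul c v w _ a => rw [map_smul, inner_smul_right, mul_smul, a]
  have i5 : ∀ n ∈ StarAlgebra.adjoin ℂ (D ∪ x '' K), T (π n ζ) = ⟪Λ 1, π n (Λ 1)⟫_ℂ • η := by
    intro n hn
    have := adj_ind (P := fun n => ∀ v w, Pr Λ π l K D ζ v w → Pr Λ π l K D ζ (π n v) (π n w))
      ?_ (fun r => i1 _ (algebraMap_mem D r)) (fun a b ha hb v w p => by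
        simpa using (ha v w p).add _ _ _ _ (hb v w p)) (fun a b ha hb v w p => by
        simpa using ha _ _ (hb v w p)) hn _ _ b1
    · simpa using i4 _ _ this
    rintro s (hs | ⟨k, hk, rfl⟩)
    · exact ⟨i1 s hs, i1 _ (star_mem hs)⟩
    · refine ⟨i3 k hk, ?_⟩
      rw [map_star, hx k hk, star_add, star_star, add_comm, ← hx k hk]
      exact i3 k hk
  have i6 : ∀ n ∈ Cl (D ∪ x '' K), T (π n ζ) = ⟪Λ 1, π n (Λ 1)⟫_ℂ • η := fun n hn =>
    closure_minimal (t := {n | T (π n ζ) = ⟪Λ 1, π n (Λ 1)⟫_ℂ • η}) i5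
      (isClosed_eq (by fun_prop) (by fun_prop)) hn
  obtain ⟨p, p1, p2⟩ := seq_W hn
  have s := h.strong (fun k => (p1 k).2) p2
  rw [← h.tau, ← mul_one n, ← h.act, mul_one]
  exact tendsto_nhds_unique ((T.continuous.tendsto _).comp (s ζ))
    (((tendsto_const_nhds.inner (s _)).smul_const η).congr fun k => (i6 _ (p1 k).1).symm)

theorem Cre.up (h : Std τ Λ π) {ι κ : Type*} {l : ι → H →L[ℂ] H} {D : StarSubalgebra ℂ A}
    (c : Cre τ Λ π l D) {K : Set ι} {x : ι → A} (hx : ∀ k ∈ K, π (x k) = l k + star (l k))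
    {e : κ → ι} (he : Function.Injective e) (hK : ∀ j, e j ∉ K) :
    Cre τ Λ π (fun j => l (e j)) (W h.toTr (D ∪ x '' K)) := by
  have ne : ∀ j, ∀ k ∈ K, e j ≠ k := fun j k hk g => hK j (g ▸ hk)
  refine ⟨fun i d hd => ?_, fun i d hd ξ => ?_, fun i j ij d hd ξ => ?_⟩
  · have := c.pair h hx (ζ := Λ 1) (η := 0) (fun k _ d hd => by rw [h.act, mul_one, c.vac k d hd])
      (fun d hd => by rw [h.act, mul_one, c.vac (e i) d hd, smul_zero])
      (fun d hd k hk => c.ip0 _ _ (ne i k hk) d hd) hd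
    rwa [h.act, mul_one, smul_zero] at this
  · exact c.pair h hx (fun k hk d hd => c.ip0 _ _ (ne i k hk).symm d hd ξ)
      (fun d hd => c.ip1 _ d hd ξ) (fun d hd k hk => c.ip0 _ _ (ne i k hk) d hd) hd
  · simpa using c.pair h hx (η := 0) (fun k hk d hd => c.ip0 _ _ (ne j k hk).symm d hd ξ)
      (fun d hd => by rw [c.ip0 _ _ (he.ne ij) d hd, smul_zero])
      (fun d hd k hk => c.ip0 _ _ (ne i k hk) d hd) hd

theorem Cre.ker (h : Std τ Λ π) {ι : Type*} {l : ι → H →L[ℂ] H} {D : StarSubalgebra ℂ A}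
    (c : Cre τ Λ π l D) {x : A} {i : ι} (hx : π x = l i + star (l i)) {η : H}
    (hη : star (l i) η = 0) {y : A} (hy : y ∈ W h.toTr {x}) :
    π y η - l i (star (l i) (π y η)) = τ y • η := by
  have s : ∀ d ∈ (⊥ : StarSubalgebra ℂ A), ∃ r : ℂ, (∀ ξ, π d ξ = r • ξ) ∧ τ d = r := by
    rintro _ ⟨r, rfl⟩
    exact ⟨r, fun ξ => by simp [Algebra.algebraMap_eq_smul_one],
      by simp [Algebra.algebraMap_eq_smul_one, h.one]⟩
  refine (c.mono bot_le).pair h (K := {i}) (x := fun _ => x) (fun k hk => hk ▸ hx)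
    (T := 1 - l i * star (l i)) (fun k hk d hd => ?_) (fun d hd => ?_) (fun d hd k hk ξ => ?_)
    (W_mono (by simp) hy)
  · obtain ⟨r, r1, -⟩ := s d hd
    rw [r1, map_smul, hk, hη, smul_zero]
  · obtain ⟨r, r1, r2⟩ := s d hd
    simp [r1, r2, hη]
  · obtain ⟨r, r1, -⟩ := s d hd
    have := c.ip1 i 1 (one_mem _) ξ
    simp only [map_one, ContinuousLinearMap.one_apply, h.one, one_smul] at this
    simp [r1, show k = i from hk, this]

end Vale.Agent.P086
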