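import Vale.Agent.P086.Haar

/-! Haar unitaries free from a subalgebra. -/

namespace Vale.Agent.P086

open Vale.Agent.P104 Vale.Agent.P085 Filter Topology
open scoped InnerProductSpace CStarAlgebra

/-- Words in `u`, its adjoint and `D`, centered at each change of sign. -/
inductive Red {C : Type*} [Mul C] [Star C] (Z : C → Prop) (u : C) (D : Set C) : Bool → C → Prop
  | base (b : Bool) (d : C) : d ∈ D → Red Z u D b (ub u b * d)
  | step (b b' : Bool) (d q : C) : d ∈ D → (b ≠ b' → Z d) → Red Z u D b' q →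
      Red Z u D b (ub u b * d * q)

variable {A H : Type*} [CStarAlgebra A] [NormedAddCommGroup H] [InnerProductSpace ℂ H]
  {τ : A →ₗ[ℂ] ℂ} {Λ : A →ₗ[ℂ] H}

/-- A Haar unitary free from `D`. -/
def HF (τ : A →ₗ[ℂ] ℂ) (u : A) (D : StarSubalgebra ℂ A) : Prop :=
  u ∈ unitary A ∧ ∀ b q, Red (τ · = 0) u D b q → ∀ d ∈ D, τ (d * q) = 0

theorem HF.star {u : A} {D : StarSubalgebra ℂ A} (h : HF τ u D) : HF τ (star u) D := by
  have e : ∀ b, ub (Star.star u) b = ub u (!b) := fun b => by cases b <;> simp [ub]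
  have : ∀ b q, Red (τ · = 0) (Star.star u) D b q → Red (τ · = 0) u D (!b) q := fun b q r => by
    induction r with
    | base b d hd => rw [e]; exact .base _ d hd
    | step b b' d q hd hz _ ih => rw [e]; exact .step _ _ d q hd (fun c => hz (by simpa using c)) ih
  exact ⟨Unitary.star_mem h.1, fun b q r => h.2 _ q (this b q r)⟩

theorem HF.mul (t : Tr τ Λ) {u w : A} {D : StarSubalgebra ℂ A} (h : HF τ u D) (hw : w ∈ unitary A)
    (wD : w ∈ D) : HF τ (u * w) D := by
  have cD : ∀ b : Bool, (if b then 1 else Star.star w) ∈ D := fun b => by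
    cases b <;> simp [star_mem wD]
  have eD : ∀ b : Bool, (if b then w else 1) ∈ D := fun b => by cases b <;> simp [wD]
  have e : ∀ b, ub (u * w) b = (if b then 1 else Star.star w) * ub u b * if b then w else 1 :=
    fun b => by cases b <;> simp [ub]
  have : ∀ b q, Red (τ · = 0) (u * w) D b q →
      ∃ q', Red (τ · = 0) u D b q' ∧ q = (if b then 1 else Star.star w) * q' := fun b q r => by
    induction r with
    | base b d hd => exact ⟨_, .base b _ (mul_mem (eD b) hd), by simp only [e, mul_assoc]⟩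
    | step b b' d q hd hz _ ih =>
      obtain ⟨q', r, rfl⟩ := ih
      refine ⟨_, .step b b' _ q' (mul_mem (mul_mem (eD b) hd) (cD b')) (fun c => ?_) r,
        by simp only [e, mul_assoc]⟩
      have := hz c
      cases b <;> cases b' <;> simp at c this ⊢
      · exact this
      · rw [t.tr, ← mul_assoc, hw.1, one_mul, this]
  refine ⟨mul_mem h.1 hw, fun b q r d hd => ?_⟩
  obtain ⟨q', r', rfl⟩ := this b q r
  rw [← mul_assoc]
  exact h.2 b q' r' _ (mul_mem hd (cD b))

theorem HF.mul' (t : Tr τ Λ) {u w : A} {D : StarSubalgebra ℂ A} (h : HF τ u D) (hw : w ∈ unitary A)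
    (wD : w ∈ D) : HF τ (w * u) D := by
  simpa using (h.star.mul t (Unitary.star_mem hw) (star_mem wD)).star

theorem HF.gr (t : τ 1 = 1) {u u' : A} {D : StarSubalgebra ℂ A} (h : HF τ u D) (h' : HF τ u' D) :
    Gr τ τ (StarAlgebra.adjoin ℂ ((fun e => (e, e)) '' D ∪ {(u, u')})) := fun z hz => by
  let R := Red (fun z : A × A => τ z.1 = 0) (u, u') ((fun e => (e, e)) '' D)
  have e : ∀ b, ub (u, u') b = (ub u b, ub u' b) := fun b => by cases b <;> rfl
  have r : ∀ b q, R b q → Red (τ · = 0) u D b q.1 ∧ Red (τ · = 0) u' D b q.2 := fun b q r => by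
    induction r with
    | base b d hd =>
      obtain ⟨d, hd, rfl⟩ := hd
      rw [e]
      exact ⟨.base b d hd, .base b d hd⟩
    | step b b' d q hd hz _ ih =>
      obtain ⟨d, hd, rfl⟩ := hd
      rw [e]
      exact ⟨.step b b' d _ hd hz ih.1, .step b b' d _ hd hz ih.2⟩
  let V := Submodule.span ℂ {w : A × A | ∃ d ∈ D, w = (d, d) ∨ ∃ b q, R b q ∧ w = (d, d) * q}
  have v1 : ∀ d ∈ D, (d, d) ∈ V := fun d hd => Submodule.subset_span ⟨d, hd, .inl rfl⟩
  have v2 : ∀ d ∈ D, ∀ b q, R b q → (d, d) * q ∈ V := fun d hd b q r =>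
    Submodule.subset_span ⟨d, hd, .inr ⟨b, q, r, rfl⟩⟩
  have v3 : ∀ b q, R b q → q ∈ V := fun b q r => one_mul q ▸ v2 1 (one_mem _) b q r
  have k : ∀ s : A × A, (∀ d ∈ D, s * (d, d) ∈ V ∧ ∀ b q, R b q → s * ((d, d) * q) ∈ V) →
      ∀ v ∈ V, s * v ∈ V := fun s hs v hv =>
    Submodule.span_le (p := V.comap (LinearMap.mulLeft ℂ s)).2 (by
      rintro _ ⟨d, hd, rfl | ⟨b, q, r, rfl⟩⟩
      exacts [(hs d hd).1, (hs d hd).2 b q r]) hv
  have k1 : ∀ a ∈ D, ∀ v ∈ V, (a, a) * v ∈ V := fun a ha => k _ fun d hd =>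
    ⟨v1 _ (mul_mem ha hd), fun b q r => mul_assoc (a, a) _ _ ▸ v2 _ (mul_mem ha hd) b q r⟩
  have u1 : ∀ b b', b ≠ b' → ub (u, u') b * ub (u, u') b' = 1 := fun b b' c => by
    cases b <;> cases b' <;> simp [ub, h.1.1, h.1.2, h'.1.1, h'.1.2, Prod.ext_iff] at c ⊢
  have k2 : ∀ b, ∀ v ∈ V, ub (u, u') b * v ∈ V := fun b => k _ fun d hd =>
    ⟨v3 b _ (.base b _ ⟨d, hd, rfl⟩), fun b' q r => by
      by_cases c : b = b'
      · exact mul_assoc (ub (u, u') b) _ _ ▸ v3 b _ (.step b b' _ q ⟨d, hd, rfl⟩ (absurd c) r)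
      have a := v3 b _ (.step b b' _ q ⟨_, sub_mem hd (D.smul_mem (one_mem D) (τ d)), rfl⟩
        (fun _ => by simp [t]) r)
      have a' : ub (u, u') b * q ∈ V := by
        cases r with
        | base _ d hd =>
          obtain ⟨d, hd, rfl⟩ := hd
          rw [← mul_assoc, u1 b b' c, one_mul]
          exact v1 d hd
        | step _ b'' d q hd _ r =>
          obtain ⟨d, hd, rfl⟩ := hd
          rw [mul_assoc, ← mul_assoc, u1 b b' c, one_mul]
          exact v2 d hd _ q r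
      convert add_mem a (V.smul_mem (τ d) a') using 1
      ext <;> simp [mul_sub, sub_mul, mul_assoc]⟩
  have m : ∀ v ∈ V, z * v ∈ V := by
    refine adj_ind (P := fun z => ∀ v ∈ V, z * v ∈ V) ?_
      (fun r v hv => by rw [← Algebra.smul_def]; exact V.smul_mem r hv)
      (fun x y a b v hv => by rw [add_mul]; exact add_mem (a v hv) (b v hv))
      (fun x y a b v hv => by rw [mul_assoc]; exact a _ (b v hv)) hz
    rintro s (⟨b, hb, rfl⟩ | rfl)
    exacts [⟨k1 b hb, k1 _ (star_mem hb)⟩, ⟨k2 true, k2 false⟩]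
  have m1 := m 1 (v1 1 (one_mem _))
  rw [mul_one] at m1
  refine Submodule.span_le (p := LinearMap.eqLocus (τ ∘ₗ .fst ℂ A A) (τ ∘ₗ .snd ℂ A A)).2 ?_ m1
  rintro _ ⟨d, hd, rfl | ⟨b, q, p, rfl⟩⟩
  · rfl
  · exact (h.2 b _ (r b q p).1 d hd).trans (h'.2 b _ (r b q p).2 d hd).symm

theorem Cre.hf [CompleteSpace H] {π : A →⋆ₐ[ℂ] (H →L[ℂ] H)} (h : Std τ Λ π) {ι : Type*}
    {l : ι → H →L[ℂ] H} {D : StarSubalgebra ℂ A} (c : Cre τ Λ π l D) {x : A} {i : ι}
    (hx : π x = l i + star (l i)) : HF τ (G x) D := by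
  have sc := c.sc h hx
  refine ⟨ex_unit 1 sc.sa, fun b q r d hd => ?_⟩
  let P : Bool → Submodule ℂ H := fun b => Submodule.span ℂ
    {v | ∃ k η, star (l i) η = 0 ∧ v = π (ub (G x) b ^ (k + 1)) η}
  have g : G x ∈ W h.toTr {x} := fn_mem inferInstance _ (sub_W rfl)
  have p1 : ∀ b, ∀ v ∈ P b, l i (star (l i) v) = v := fun b v hv =>
    Submodule.span_le (p := LinearMap.eqLocus (l i * star (l i) : H →L[ℂ] H).toLinearMap .id).2 (by
      rintro _ ⟨k, η, hη, rfl⟩
      have := c.ker h hx hη (y := ub (G x) b ^ (k + 1))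
        (pow_mem (by cases b; exacts [star_mem g, g]) _)
      rw [sc.haar, zero_smul, sub_eq_zero] at this
      exact this.symm) hv
  have p2 : ∀ b η, star (l i) η = 0 → π (ub (G x) b) η ∈ P b := fun b η hη =>
    Submodule.subset_span ⟨0, η, hη, by simp⟩
  have p3 : ∀ b, ∀ v ∈ P b, π (ub (G x) b) v ∈ P b := fun b v hv =>
    Submodule.span_le (p := (P b).comap (π (ub (G x) b)).toLinearMap).2 (by
      rintro _ ⟨k, η, hη, rfl⟩
      exact Submodule.subset_span ⟨k + 1, η, hη, by rw [pow_succ' _ (k + 1), ← h.mul]; rfl⟩) hv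
  have p4 : Λ q ∈ P b := by
    induction r with
    | base b d hd => rw [← h.act]; exact p2 b _ (c.vac i d hd)
    | step b b' d q hd hz _ ih =>
      have a := p2 b (π (d - τ d • 1) (Λ q)) (by
        rw [← p1 b' _ ih, c.ip1 i _ (sub_mem hd (D.smul_mem (one_mem D) _))]
        simp [h.one])
      have a' : τ d • π (ub (G x) b) (Λ q) ∈ P b := by
        by_cases e : b = b'
        · exact Submodule.smul_mem _ _ (p3 b _ (e ▸ ih))
        · simp [hz e]
      simpa [h.act, mul_assoc] using add_mem a a'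
  rw [← star_star d, ← h.inner, ← p1 b _ p4, ← inner_star_left, c.vac i _ (star_mem hd),
    inner_zero_left]

/-- Evaluation of a word. -/
def ev {C ι : Type*} [Monoid C] [Star C] (a : ι → C) (L : List (ι × Bool)) : C :=
  (L.map fun p => ub (a p.1) p.2).prod

theorem ev_mem {ι : Type*} {a : ι → A} {D : StarSubalgebra ℂ A} {L : List (ι × Bool)}
    (h : ∀ p ∈ L, a p.1 ∈ D) : ev a L ∈ D := list_prod_mem fun _ hx => by
  obtain ⟨p, hp, rfl⟩ := List.mem_map.1 hx
  unfold ub
  split_ifs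
  exacts [h p hp, star_mem (h p hp)]

theorem words {ι : Type*} {a : ι → A} {D : ι → StarSubalgebra ℂ A} (h : ∀ i, HF τ (a i) (D i))
    (hD : ∀ i j, j ≠ i → a j ∈ D i) (L : List (ι × Bool)) (hL : FreeGroup.IsReduced L)
    (h0 : L ≠ []) : τ (ev a L) = 0 := by
  induction hn : L.length using Nat.strong_induction_on generalizing L with
  | _ n ih =>
  obtain ⟨⟨i, b0⟩, L0, rfl⟩ := List.exists_cons_of_ne_nil h0
  have key : ∀ S, S <:+ (i, b0) :: L0 → ∃ P Q, S = P ++ Q ∧ (∀ p ∈ P, p.1 ≠ i) ∧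
      (Q = [] ∨ ∃ b Q', Q = (i, b) :: Q' ∧ Red (τ · = 0) (a i) (D i) b (ev a Q)) := fun S hS => by
    induction S with
    | nil => exact ⟨[], [], rfl, by simp, .inl rfl⟩
    | cons p S ihS =>
      obtain ⟨P, Q, rfl, h1, h2⟩ := ihS ((List.suffix_cons _ _).trans hS)
      obtain ⟨j, b⟩ := p
      rcases eq_or_ne j i with rfl | ji
      swap
      · exact ⟨(j, b) :: P, Q, rfl, List.forall_mem_cons.2 ⟨ji, h1⟩, h2⟩
      have PD : ev a P ∈ D j := ev_mem fun p hp => hD _ _ (h1 p hp)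
      refine ⟨[], _, rfl, by simp, .inr ⟨b, _, rfl, ?_⟩⟩
      rcases h2 with rfl | ⟨b', Q', rfl, r⟩
      · simpa [ev] using Red.base (Z := (τ · = 0)) (u := a j) b _ PD
      · have red : FreeGroup.IsReduced _ := List.IsChain.suffix hL hS
        have := Red.step b b' _ _ PD (fun c => ih _ ?_ P
          (List.IsChain.left_of_append (List.IsChain.tail red)) ?_ rfl) r
        · simpa [ev, mul_assoc] using this
        · have := hS.length_le
          simp at this hn
          omega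
        · rintro rfl
          exact c ((FreeGroup.isReduced_cons_cons.1 red).1 rfl)
  obtain ⟨P, Q, e, h1, h2⟩ := key _ List.suffix_rfl
  rcases h2 with rfl | ⟨b, Q', rfl, r⟩
  · exact (h1 (i, b0) (by simp [← List.append_nil P ▸ e]) rfl).elim
  · have := (h i).2 b _ r _ (ev_mem fun p hp => hD _ _ (h1 p hp))
    rw [e]
    simpa [ev] using this

end Vale.Agent.P086
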