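import Vale.Agent.P086.Law

/-! The Haar unitary and the sign attached to a semicircular element. -/

namespace Vale.Agent.P086

open Vale.Agent.P104 Vale.Agent.P085 Filter Topology Real
open scoped InnerProductSpace CStarAlgebra ComplexOrder
open Complex (I)

/-- The transport of the semicircle law to the uniform law. -/
noncomputable def Ψ (t : ℝ) : ℝ := 2 * arcsin (t / 2) + sin (2 * arcsin (t / 2))

@[fun_prop] theorem Ψ_cont : Continuous Ψ := by unfold Ψ; fun_prop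

theorem Ψ_neg (t : ℝ) : Ψ (-t) = -Ψ t := by
  simp [Ψ, neg_div, arcsin_neg, add_comm]

theorem φ_mono : StrictMonoOn (fun φ => 2 * φ + sin (2 * φ)) (Set.Icc (-(π / 2)) (π / 2)) := by
  refine strictMonoOn_of_deriv_pos (convex_Icc _ _) (by fun_prop) fun φ hφ => ?_
  rw [interior_Icc] at hφ
  rw [(((hasDerivAt_id' φ).const_mul 2).fun_add ((hasDerivAt_id' φ).const_mul 2).sin).deriv,
    cos_two_mul]
  nlinarith [cos_pos_of_mem_Ioo hφ]

theorem Ψ_mono : StrictMonoOn Ψ (Set.Icc (-2) 2) := fun s hs t ht h =>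
  φ_mono (arcsin_mem_Icc _) (arcsin_mem_Icc _) (strictMonoOn_arcsin
    ⟨by linarith [hs.1], by linarith [hs.2]⟩ ⟨by linarith [ht.1], by linarith [ht.2]⟩ (by linarith))

theorem Ψ_le (t : ℝ) : Ψ t ≤ π := by
  have := φ_mono.monotoneOn (arcsin_mem_Icc (t / 2)) ⟨by linarith [pi_pos], le_rfl⟩
    (arcsin_le_pi_div_two _)
  simpa [mul_div_cancel₀, Ψ] using this

theorem Ψ_ge (t : ℝ) : -π ≤ Ψ t := by linarith [Ψ_le (-t), Ψ_neg t]

theorem Ψ_lt {t : ℝ} (h : t ∈ Set.Ioo (-2 : ℝ) 2) : Ψ t < π :=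
  (Ψ_mono (Set.Ioo_subset_Icc_self h) (by norm_num) h.2).trans_le (Ψ_le 2)

theorem Ψ_gt {t : ℝ} (h : t ∈ Set.Ioo (-2 : ℝ) 2) : -π < Ψ t := by
  linarith [Ψ_lt (t := -t) ⟨by linarith [h.2], by linarith [h.1]⟩, Ψ_neg t]

/-- The one parameter group of phases. -/
noncomputable def ex (s : ℝ) : C(ℝ, ℂ) := ⟨fun t => Complex.exp ((s * Ψ t : ℝ) * I), by fun_prop⟩

theorem ex_apply (s t : ℝ) : ex s t = Complex.exp ((s * Ψ t : ℝ) * I) := rfl

theorem ex_mul (s r : ℝ) : ex s * ex r = ex (s + r) := by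
  ext t
  simp [ex_apply, ← Complex.exp_add, add_mul]

theorem ex_star (s : ℝ) : star (ex s) = ex (-s) := by
  ext t
  simp [ex_apply, ← Complex.exp_conj]

theorem ex_zero : ex 0 = 1 := by
  ext t
  simp [ex_apply]

theorem ex_pow (s : ℝ) (k : ℕ) : ex s ^ k = ex (k * s) := by
  induction k with
  | zero => simp [ex_zero]
  | succ k ih => rw [pow_succ, ih, ex_mul]; push_cast; ring_nf

theorem sI_ex {k : ℤ} (hk : k ≠ 0) : sI (ex k) = 0 := by
  have k0 : (k : ℂ) ≠ 0 := by exact_mod_cast hk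
  have p0 : (π : ℂ) ≠ 0 := by exact_mod_cast pi_pos.ne'
  rw [sI_apply, intervalIntegral.integral_congr (g := fun θ : ℝ => 2 / π * Complex.sin θ ^ 2 *
    Complex.exp (k * (π - 2 * θ + Complex.sin (2 * θ)) * I)) fun θ hθ => ?_,
    intervalIntegral.integral_eq_sub_of_hasDerivAt (f := fun θ : ℝ =>
      Complex.exp (k * (π - 2 * θ + Complex.sin (2 * θ)) * I) * (I / (2 * π * k))) (fun θ _ => ?_)
      (Continuous.intervalIntegrable (by fun_prop) _ _), ← sub_mul]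
  · refine mul_eq_zero_of_left (sub_eq_zero.2 (Complex.exp_eq_exp_iff_exists_int.2 ⟨-k, ?_⟩)) _
    simp
    ring
  · refine HasDerivAt.comp_ofReal (e := fun z : ℂ =>
      Complex.exp (k * (π - 2 * z + Complex.sin (2 * z)) * I) * (I / (2 * π * k))) ?_
    refine (((((((hasDerivAt_id' (θ : ℂ)).const_mul 2).const_sub (π : ℂ)).fun_add
      ((hasDerivAt_id' (θ : ℂ)).const_mul 2).csin).const_mul (k : ℂ)).mul_const I).cexp.mul_const
      (I / (2 * π * k))).congr_deriv ?_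
    rw [Complex.cos_two_mul, Complex.cos_sq']
    field_simp
    rw [Complex.I_sq]
    ring
  · rw [Set.uIcc_of_le pi_pos.le] at hθ
    simp only [ex_apply, Ψ, mul_div_cancel_left₀ _ (two_ne_zero' ℝ), arcsin_eq_pi_div_two_sub_arccos,
      arccos_cos hθ.1 hθ.2, show 2 * (π / 2 - θ) = π - 2 * θ by ring, sin_pi_sub]
    push_cast
    rfl

variable {A : Type*} [CStarAlgebra A] {H : Type*} [NormedAddCommGroup H] [InnerProductSpace ℂ H]
  {τ : A →ₗ[ℂ] ℂ} {Λ : A →ₗ[ℂ] H}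

/-- The unitary attached to a semicircular element. -/
noncomputable def G (x : A) : A := fn (ex 1) x

theorem ex_unit (s : ℝ) {x : A} (hx : IsSelfAdjoint x) : fn (ex s) x ∈ unitary A := by
  constructor <;> simp [fn_eq hx, ← map_star, ← map_mul, ex_star, ex_mul, ex_zero]

theorem G_neg {x : A} (hx : IsSelfAdjoint x) : G (-x) = star (G x) := by
  rw [G, G, fn_neg _ hx, fn_eq hx, fn_eq hx, ← map_star, ex_star]
  congr 1
  ext t
  simp [ex_apply, Ψ_neg]

/-- A unitary or its adjoint. -/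
def ub {C : Type*} [Star C] (u : C) (b : Bool) : C := if b then u else star u

theorem Sc.haar {x : A} (hx : Sc τ x) (b : Bool) (k : ℕ) : τ (ub (G x) b ^ (k + 1)) = 0 := by
  have : ∀ j : ℤ, j ≠ 0 → τ (fh hx.sa (ex j)) = 0 := fun j hj => by
    rw [← fn_eq, hx.law, sI_ex hj]
  cases b
  · simpa [ub, G, fn_eq hx.sa, ← map_star, ← map_pow, ex_star, ex_pow] using this (-(k + 1)) (by omega)
  · simpa [ub, G, fn_eq hx.sa, ← map_pow, ex_pow] using this (k + 1) (by omega)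

theorem Sc.mem_W (h : Tr τ Λ) {x : A} (hx : Sc τ x) : x ∈ W h {G x} := by
  have i : Set.InjOn (ex 2⁻¹) (Set.Icc (-2) 2) := fun s hs t ht e => by
    have := congrArg Complex.im e
    simp only [ex_apply, Complex.exp_ofReal_mul_I_im] at this
    have := injOn_sin ⟨by linarith [Ψ_ge s], by linarith [Ψ_le s]⟩
      ⟨by linarith [Ψ_ge t], by linarith [Ψ_le t]⟩ this
    exact Ψ_mono.injOn hs ht (by linarith)
  refine W_sub (S := {fn (ex 2⁻¹) x}) (fun _ e => e ▸ ?_) (Cl_W (mem_of_inj i hx.sa hx.le))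
  have p : ∀ (n : ℕ) (s : ℝ), 0 < max (1 / (n + 1 : ℝ)) s := fun n s =>
    lt_max_of_lt_left Nat.one_div_pos_of_nat
  let k : ℕ → C(ℝ, ℂ) := fun n => ⟨fun t => ((2 * max (1 / (n + 1 : ℝ)) √((1 + t) / 2))⁻¹ : ℝ),
    Complex.continuous_ofReal.comp (.inv₀ (by fun_prop) fun t => (mul_pos two_pos (p n _)).ne')⟩
  let f : ℕ → C(ℝ, ℂ) := fun n => ex 2⁻¹ - (1 + ex 1) * (k n).comp ⟨fun t => (ex 1 t).re, by fun_prop⟩
  have e : ∀ n t, f n t =
      ex 2⁻¹ t * (1 - cos (Ψ t / 2) / max (1 / (n + 1 : ℝ)) (cos (Ψ t / 2)) : ℝ) := fun n t => by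
    have a : 1 + ex 1 t = ex 2⁻¹ t * (2 * cos (Ψ t / 2) : ℝ) := by
      simp only [ex_apply, Complex.ofReal_mul, Complex.ofReal_cos, Complex.ofReal_ofNat,
        Complex.two_cos, mul_add, ← Complex.exp_add]
      push_cast
      rw [add_comm]
      congr 1
      · congr 1; ring
      · rw [eq_comm, ← Complex.exp_zero]
        congr 1; ring
    have b : (ex 1 t).re = cos (Ψ t) := by rw [ex_apply, Complex.exp_ofReal_mul_I_re, one_mul]
    change ex 2⁻¹ t - (1 + ex 1 t) * ((2 * max (1 / (n + 1 : ℝ)) √((1 + (ex 1 t).re) / 2))⁻¹ : ℝ) = _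
    rw [a, b, ← cos_half (Ψ_ge t) (Ψ_le t), mul_assoc, ← Complex.ofReal_mul, ← div_eq_mul_inv,
      mul_div_mul_left _ _ two_ne_zero]
    push_cast
    ring
  have l := hx.lim h (l := atTop) (f := f) (c := 1) (fun n t _ => by
    have c0 : 0 ≤ cos (Ψ t / 2) :=
      cos_nonneg_of_mem_Icc ⟨by linarith [Ψ_ge t], by linarith [Ψ_le t]⟩
    rw [e, norm_mul, ex_apply, Complex.norm_exp_ofReal_mul_I, one_mul, Complex.norm_real,
      norm_of_nonneg (sub_nonneg.2 ((div_le_one (p n _)).2 (le_max_right _ _)))]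
    exact sub_le_self _ (div_nonneg c0 (p n _).le)) fun t ht _ => by
    have c0 : 0 < cos (Ψ t / 2) :=
      cos_pos_of_mem_Ioo ⟨by linarith [Ψ_gt ht], by linarith [Ψ_lt ht]⟩
    filter_upwards [tendsto_one_div_add_atTop_nhds_zero_nat.eventually (gt_mem_nhds c0)] with n hn
    rw [e, max_eq_right hn.le, div_self c0.ne']
    simp
  refine W_lc h _ _ fun ε hε => ?_
  obtain ⟨n, hn⟩ := (l.eventually (gt_mem_nhds hε)).exists
  refine ⟨(1 + G x) * fn (k n) (G x), mul_mem (add_mem (one_mem _) (sub_W rfl))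
    (fn_mem inferInstance _ (sub_W rfl)), ?_⟩
  rw [G, fn_comp _ _ hx.sa]
  simpa [f, fn_eq hx.sa] using hn

theorem univF (h : Tr τ Λ) {δ : ℝ} (hδ : 0 < δ) : ∃ (F : A → A) (κ : ℝ), 0 < κ ∧
    (∀ u, F u ∈ StarAlgebra.adjoin ℂ {u}) ∧
    ∀ x u, Sc τ x → u ∈ unitary A → ‖Λ (G x - u)‖ ≤ κ → ‖Λ (x - F u)‖ < δ := by
  by_cases c : ∃ x, Sc τ x
  swap
  · exact ⟨fun _ => 0, 1, one_pos, fun _ => zero_mem _, fun x _ hx => (c ⟨x, hx⟩).elim⟩
  obtain ⟨x0, h0⟩ := c
  obtain ⟨p, p1, p2⟩ := mem_W' (h0.mem_W h) (half_pos hδ)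
  obtain ⟨f, F, K, L, rfl, L0, f1, f2, f3, f4⟩ : ∃ (f : C(ℝ, ℂ)) (F : A → A) (K L : ℝ),
      p = fn f x0 ∧ 0 ≤ L ∧ (∀ x, IsSelfAdjoint x → F (G x) = fn f x) ∧
      (∀ u, F u ∈ StarAlgebra.adjoin ℂ {u}) ∧ (∀ u ∈ unitary A, ‖F u‖ ≤ K) ∧
      ∀ u ∈ unitary A, ∀ v ∈ unitary A, ‖Λ (F u - F v)‖ ≤ L * ‖Λ (u - v)‖ := by
    clear p2
    induction p1 using StarAlgebra.adjoin_induction with
    | mem x hx => exact ⟨ex 1, id, 1, 1, hx, zero_le_one, fun _ _ => rfl,
        fun u => StarAlgebra.self_mem_adjoin_singleton ℂ u, fun u => norm_unit_le, by simp⟩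
    | algebraMap r => exact ⟨algebraMap ℂ _ r, fun _ => algebraMap ℂ A r, _, 0,
        by rw [fn_eq h0.sa, AlgHomClass.commutes], le_rfl,
        fun x hx => by rw [fn_eq hx, AlgHomClass.commutes], fun _ => algebraMap_mem _ _,
        fun _ _ => le_rfl, by simp⟩
    | add x y _ _ hx hy =>
      obtain ⟨f, F, K, L, rfl, L0, f1, f2, f3, f4⟩ := hx
      obtain ⟨g, F', K', L', rfl, L0', g1, g2, g3, g4⟩ := hy
      refine ⟨f + g, F + F', K + K', L + L', by simp [fn_eq h0.sa], by positivity,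
        fun x hx => by simp [f1 x hx, g1 x hx, fn_eq hx], fun u => add_mem (f2 u) (g2 u),
        fun u hu => norm_add_le_of_le (f3 u hu) (g3 u hu), fun u hu v hv => ?_⟩
      rw [Pi.add_apply, Pi.add_apply, add_sub_add_comm, map_add, add_mul]
      exact norm_add_le_of_le (f4 u hu v hv) (g4 u hu v hv)
    | mul x y _ _ hx hy =>
      obtain ⟨f, F, K, L, rfl, L0, f1, f2, f3, f4⟩ := hx
      obtain ⟨g, F', K', L', rfl, L0', g1, g2, g3, g4⟩ := hy
      have K0 := (norm_nonneg _).trans (f3 1 (one_mem _))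
      have K0' := (norm_nonneg _).trans (g3 1 (one_mem _))
      refine ⟨f * g, F * F', K * K', L * K' + K * L', by simp [fn_eq h0.sa], by positivity,
        fun x hx => by simp [f1 x hx, g1 x hx, fn_eq hx], fun u => mul_mem (f2 u) (g2 u),
        fun u hu => norm_mul_le_of_le (f3 u hu) (g3 u hu), fun u hu v hv => ?_⟩
      rw [Pi.mul_apply, Pi.mul_apply, show F u * F' u - F v * F' v =
        (F u - F v) * F' u + F v * (F' u - F' v) by noncomm_ring, map_add]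
      refine (norm_add_le_of_le ((mr h _ _).trans (mul_le_mul (f4 u hu v hv) (g3 u hu)
        (norm_nonneg _) (by positivity))) ((ml h _ _).trans (mul_le_mul (f3 v hv) (g4 u hu v hv)
        (norm_nonneg _) K0))).trans_eq (by ring)
    | star x _ hx =>
      obtain ⟨f, F, K, L, rfl, L0, f1, f2, f3, f4⟩ := hx
      exact ⟨star f, fun u => star (F u), K, L, by simp [fn_eq h0.sa, map_star], L0,
        fun x hx => by simp [f1 x hx, fn_eq hx, map_star], fun u => star_mem (f2 u),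
        fun u hu => (norm_star _).trans_le (f3 u hu), fun u hu v hv => by
          rw [← star_sub, h.norm_star]; exact f4 u hu v hv⟩
  have e : ∀ x, Sc τ x → ‖Λ (x - fn f x)‖ ^ 2 = (sI (star (idf - f) * (idf - f))).re := fun x hx => by
    rw [← hx.nsq h, fn_eq hx.sa (_ - _), map_sub (fh _), ← fn_eq, ← fn_eq, fn_id hx.sa]
  refine ⟨F, δ / 2 / (L + 1), by positivity, f2, fun x u hx hu hκ => ?_⟩
  have a := (sq_eq_sq₀ (norm_nonneg _) (norm_nonneg _)).1 ((e x hx).trans (e x0 h0).symm)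
  have b := f4 _ (ex_unit 1 hx.sa) u hu
  rw [le_div_iff₀ (by positivity)] at hκ
  have t := tri Λ x (F (G x)) (F u)
  rw [f1 x hx.sa] at t
  rw [← G, f1 x hx.sa] at b
  nlinarith [norm_nonneg (Λ (G x - u))]

theorem G_inj (h : TA τ Λ) {x y : A} (hx : Sc τ x) (hy : Sc τ y) (e : G x = G y) : x = y :=
  h.eq_of fun ε hε => by
    obtain ⟨F, κ, κ0, -, f⟩ := univF h.toTr (half_pos hε)
    have a := f x (G y) hx (ex_unit 1 hy.sa) (by simp [e, κ0.le])
    have b := f y (G y) hy (ex_unit 1 hy.sa) (by simp [κ0.le])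
    have t := tri Λ x (F (G y)) y
    rw [sym Λ (F _)] at t
    linarith

theorem Sc.sgn (h : TA τ Λ) {x : A} (hx : Sc τ x) : ∃ σ ∈ W h.toTr {x}, star σ = σ ∧ σ * σ = 1 ∧
    τ σ = 0 ∧ ∀ α : A ≃⋆ₐ[ℂ] A, Au τ ∅ α → α x = -x → α σ = -σ := by
  let s : ℕ → C(ℝ, ℂ) := fun n => ⟨fun t => (clip (n * t) : ℝ), by fun_prop⟩
  have s0 : ∀ n t, s n t = (clip (n * t) : ℝ) := fun _ _ => rfl
  have cn : ∀ t, clip (-t) = -clip t := fun t => by simp [clip_eq]
  have s1 : ∀ n t, ‖s n t‖ ≤ 1 := fun n t => by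
    rw [s0, Complex.norm_real, norm_eq_abs, abs_le]
    rcases clip_cases (n * t) with a | a | a <;> constructor <;> linarith [a.1, a.2]
  have s2 : ∀ t : ℝ, t ≠ 0 → ∃ c : ℂ, c * c = 1 ∧ ∀ᶠ n in atTop, s n t = c := fun t ht => by
    have : ∀ t : ℝ, 0 < t → ∀ᶠ n : ℕ in atTop, clip (n * t) = 1 := fun t ht =>
      ((tendsto_natCast_atTop_atTop.atTop_mul_const ht).eventually_ge_atTop 1).mono fun n hn => by
        rw [clip, min_eq_left hn, max_eq_right (by norm_num)]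
    rcases ht.lt_or_gt with a | a
    · exact ⟨-1, by simp, (this (-t) (neg_pos.2 a)).mono fun n hn => by
        rw [mul_neg, cn, neg_eq_iff_eq_neg] at hn
        simp [s0, hn]⟩
    · exact ⟨1, by simp, (this t a).mono fun n hn => by simp [s0, hn]⟩
  have s3 : ∀ n, (s n).comp ⟨fun t => -t, by fun_prop⟩ = -s n := fun n => by
    ext t
    simp [s0, cn]
  have s4 : ∀ n, star (fn (s n) x) = fn (s n) x := fun n => by
    rw [fn_eq hx.sa, ← map_star]
    congr 1
    ext t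
    simp [s0]
  have n1 := fun n => norm_fn hx.le fun t _ => s1 n t
  obtain ⟨σ, σ1, hσ⟩ := h.cpl (fun n => fn (s n) x) 1 n1 (by
    refine cauchySeq_iff_tendsto_dist_atTop_0.2 ?_
    have := hx.lim h.toTr (l := atTop) (f := fun p : ℕ × ℕ => s p.1 - s p.2) (c := 1 + 1)
      (fun n t _ => norm_sub_le_of_le (s1 _ _) (s1 _ _)) fun t _ ht => by
        obtain ⟨c, -, hc⟩ := s2 t ht
        rw [← prod_atTop_atTop_eq]
        exact (hc.prod_mk hc).mono fun p hp => by simp [hp.1, hp.2]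
    simpa [fn_eq hx.sa, dist_eq_norm] using this)
  have eq : ∀ {a b : A} {g : ℕ → ℝ}, Tendsto g atTop (𝓝 0) → (∀ n, ‖Λ (a - b)‖ ≤ g n) → a = b :=
    fun hg H => h.eq_of fun ε hε =>
      (hg.eventually (gt_mem_nhds hε)).exists.elim fun n hn => (H n).trans_lt hn
  have σ2 : ∀ α : A ≃⋆ₐ[ℂ] A, Au τ ∅ α → α x = -x → α σ = -σ := fun α hα e =>
    eq (by simpa using hσ.add hσ) fun n => by
      have a := hα.norm h.toTr (σ - fn (s n) x)
      rw [map_sub α, map_fn α _ hx.sa, e, fn_neg _ hx.sa, s3, fn_eq hx.sa, map_neg, ← fn_eq] at a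
      refine (tri Λ _ (-fn (s n) x) _).trans ?_
      rw [a, neg_sub_neg, map_sub]
  refine ⟨σ, W_lc _ _ _ fun ε hε => (hσ.eventually (gt_mem_nhds hε)).exists.elim fun n hn =>
    ⟨_, fn_mem inferInstance _ (sub_W rfl), hn⟩, eq (by simpa using hσ.add hσ) fun n => ?_,
    eq (by simpa using (hσ.add hσ).add (hx.lim h.toTr (f := fun n => s n * s n - 1) (c := 1 * 1 + 1)
      (fun n t _ => norm_sub_le_of_le (norm_mul_le_of_le (s1 _ _) (s1 _ _)) norm_one.le)
      fun t _ ht => (s2 t ht).elim fun c hc => hc.2.mono fun n hn => by simp [hn, hc.1]))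
      fun n => ?_, ?_, σ2⟩
  · refine (tri Λ _ (fn (s n) x) _).trans ?_
    rw [← s4, ← star_sub, h.toTr.norm_star, s4, sym Λ (fn _ _), map_sub]
  · rw [show σ * σ - 1 = (σ - fn (s n) x) * σ + fn (s n) x * (σ - fn (s n) x) +
      (fn (s n) x * fn (s n) x - 1) by noncomm_ring, map_add, map_add]
    refine norm_add₃_le.trans (add_le_add (add_le_add ?_ ?_) (by simp [fn_eq hx.sa]))
    · exact (mr h.toTr _ _).trans ((mul_le_of_le_one_right (norm_nonneg _) σ1).trans_eq (by simp))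
    · exact (ml h.toTr _ _).trans ((mul_le_of_le_one_left (norm_nonneg _) (n1 n)).trans_eq (by simp))
  · refine norm_le_zero_iff.1 (ge_of_tendsto' hσ fun n => ?_)
    have a := sI_neg (s n)
    rw [s3, map_neg, ← hx.law, neg_eq_self] at a
    simpa [a, h.n1] using tr_le h.toTr (σ - fn (s n) x)

/-- The normalized generator of the roots. -/
noncomputable def rt (d : ℕ) : C(ℝ, ℂ) := ⟨fun t => (d / π * sin (Ψ t / d) : ℝ), by fun_prop⟩

theorem rt_apply (d : ℕ) (t : ℝ) : rt d t = (d / π * sin (Ψ t / d) : ℝ) := rfl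

theorem rt_neg (d : ℕ) {x : A} (hx : IsSelfAdjoint x) : fn (rt d) (-x) = -fn (rt d) x := by
  rw [fn_neg _ hx, fn_eq hx, fn_eq hx, ← map_neg]
  congr 1
  ext t
  simp [rt_apply, Ψ_neg, neg_div]

theorem rt_spec {d : ℕ} (hd : 0 < d) {x : A} (hx : Sc τ x) :
    star (fn (rt d) x) = fn (rt d) x ∧ ‖fn (rt d) x‖ ≤ 1 := by
  refine ⟨?_, norm_fn hx.le fun t _ => ?_⟩
  · rw [fn_eq hx.sa, ← map_star]
    congr 1
    ext t
    simp only [ContinuousMap.star_apply, rt_apply, Complex.star_def, Complex.conj_ofReal]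
  · have : (0 : ℝ) < d := by exact_mod_cast hd
    rw [rt_apply, Complex.norm_real, norm_eq_abs, abs_mul, abs_of_pos (by positivity)]
    refine (mul_le_mul_of_nonneg_left abs_sin_le_abs (by positivity)).trans ?_
    rw [abs_div, abs_of_pos this, div_mul_div_comm, mul_comm, mul_div_mul_right _ _ this.ne',
      div_le_one pi_pos, abs_le]
    exact ⟨Ψ_ge t, Ψ_le t⟩

variable [PartialOrder A] [StarOrderedRing A]

theorem un_rt {d : ℕ} (hd : 2 ≤ d) {x : A} (hx : IsSelfAdjoint x) :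
    un ((π / d : ℝ) • fn (rt d) x) = fn (ex (d : ℝ)⁻¹) x := by
  have d2 : (2 : ℝ) ≤ d := by exact_mod_cast hd
  let c : C(ℝ, ℂ) := ⟨fun t => (cos (Ψ t / d) : ℝ), by fun_prop⟩
  have c0 : ∀ t, c t = (cos (Ψ t / d) : ℝ) := fun _ => rfl
  have e : ∀ t, (((π / d : ℝ) : ℂ) • rt d) t = (sin (Ψ t / d) : ℝ) := fun t => by
    rw [ContinuousMap.smul_apply, rt_apply, smul_eq_mul, ← Complex.ofReal_mul]
    congr 1
    field_simp
  rw [un, CFC.sqrt_unique (b := fn c x) ?_ (cfc_nonneg fun z _ => ?_)]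
  · rw [← Complex.coe_smul, fn_eq hx, fn_eq hx, fn_eq hx, ← map_smul, ← map_smul, ← map_add]
    congr 1
    ext t
    rw [ContinuousMap.add_apply, ContinuousMap.smul_apply, e, c0, ex_apply, Complex.exp_mul_I,
      inv_mul_eq_div, Complex.ofReal_cos, Complex.ofReal_sin, smul_eq_mul, mul_comm]
  · rw [← Complex.coe_smul, fn_eq hx, fn_eq hx, ← map_smul, ← map_mul, ← map_pow,
      ← map_one (fh hx), ← map_sub]
    congr 1
    ext t
    rw [ContinuousMap.sub_apply, ContinuousMap.pow_apply, e, ContinuousMap.mul_apply, c0, ← sq,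
      ContinuousMap.one_apply]
    exact_mod_cast cos_sq' _
  · rw [c0, Complex.zero_le_real]
    refine cos_nonneg_of_mem_Icc ⟨?_, ?_⟩
    · rw [le_div_iff₀ (by positivity)]
      nlinarith [Ψ_ge z.re, pi_pos]
    · rw [div_le_iff₀ (by positivity)]
      nlinarith [Ψ_le z.re, pi_pos]

theorem one_sub_sq {a : A} (ha : star a = a) (h1 : ‖a‖ ≤ 1) : 0 ≤ 1 - a ^ 2 := by
  have a0 : 0 ≤ a ^ 2 := by simpa [sq, ha] using star_mul_self_nonneg a
  rw [sub_nonneg, ← CStarAlgebra.norm_le_one_iff_of_nonneg _ a0, sq]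
  exact (norm_mul_le _ _).trans (mul_le_one₀ h1 (norm_nonneg _) h1)

theorem map_un (α : A ≃⋆ₐ[ℂ] A) {a : A} (ha : star a = a) (h1 : ‖a‖ ≤ 1) :
    α (un a) = un (α a) := by
  rw [un, un, map_add, map_smul, CFC.sqrt_unique (a := 1 - α a ^ 2) (b := α (CFC.sqrt (1 - a ^ 2)))
    (by rw [← map_mul, CFC.sqrt_mul_sqrt_self _ (one_sub_sq ha h1)]; simp)
    (map_nonneg α (CFC.sqrt_nonneg _))]

theorem un_mem {P : StarSubalgebra ℂ A} (hP : IsClosed (P : Set A)) {a : A} (ha : star a = a)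
    (h1 : ‖a‖ ≤ 1) (h : a ∈ P) : un a ∈ P := by
  rw [un, CFC.sqrt_eq_real_sqrt _ (one_sub_sq ha h1)]
  exact add_mem (cfcₙ_mem (𝕜' := ℂ) _ (sub_mem (one_mem _) (pow_mem h 2))) (P.smul_mem h _)

end Vale.Agent.P086
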