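import Vale.Agent.P086.Shot2

/-! Iteration and the generic point. -/

namespace Vale.Agent.P086

open Vale.Agent.P104 Vale.Agent.P085 Filter Topology Finset
open scoped InnerProductSpace CStarAlgebra

variable {A H : Type*} [CStarAlgebra A] [NormedAddCommGroup H] [InnerProductSpace ℂ H]
  {τ : A →ₗ[ℂ] ℂ} {Λ : A →ₗ[ℂ] H}

/-- The targets are captured by a small perturbation of the slots. -/
def Cap (h : Tr τ Λ) (F : Set A) (D : StarSubalgebra ℂ A) {ι : Type*} (x : ι → A) (S T : Finset ι)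
    (ε η : ℝ) : Prop :=
  ∃ β, Au τ (F ∪ D) β ∧ (∀ j, j ∉ S → j ∉ T → β (x j) = x j) ∧
    (∀ σ ∈ S, ‖Λ (β (x σ) - x σ)‖ < η) ∧
    ∀ t ∈ T, ∃ p ∈ W h (D ∪ (fun i => β (x i)) '' S), ‖Λ (x t - p)‖ < ε

theorem Cap.split [CompleteSpace H] (h : TA τ Λ) {F : Set A} {D : StarSubalgebra ℂ A} {ι : Type*} {x : ι → A}
    {S T : Finset ι} {ε η : ℝ} {σ ρ : A} (a : AC σ ρ) (h1 : σ ∈ D) (h2 : ρ ∈ D)
    (c : Cap h.toTr (F ∪ StarAlgebra.adjoin ℂ {σ, ρ}) (cm D σ ρ)
      (fun p : ι × Fin 4 => ent σ ρ p.2 (x p.1)) (S ×ˢ univ) (T ×ˢ univ) ε η) :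
    Cap h.toTr F D x S T ε η := by
  obtain ⟨β, b1, b2, b3, b4⟩ := c
  have s1 : β σ = σ := b1.2 _ (.inl (.inr (StarAlgebra.subset_adjoin _ _ (by simp))))
  have s2 : β ρ = ρ := b1.2 _ (.inl (.inr (StarAlgebra.subset_adjoin _ _ (by simp))))
  have e : ∀ k y, β (ent σ ρ k y) = ent σ ρ k (β y) := fun k y => by rw [map_ent, s1, s2]
  have f : ∀ y, (∀ k, β (ent σ ρ k y) = ent σ ρ k y) → β y = y := fun y hy => by
    rw [← a.sum (β y), ← a.sum y]
    simp only [← e, hy, a.sum]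
  refine ⟨β, ⟨b1.1, fun d hd => hd.elim (fun hd => b1.2 d (.inl (.inl hd))) fun hd => f d fun k =>
    b1.2 _ (.inr (a.mem_cm.2 ⟨ent_mem h1 h2 k hd, a.comm k d⟩))⟩,
    fun j c1 c2 => f _ fun k => b2 (j, k) (by simp [c1]) (by simp [c2]), fun s hs => ?_,
    fun t ht => ?_⟩
  · rw [← a.sum (_ - _)]
    exact a.pars h.toTr (fun k => a.comm k _) fun k => by
      rw [ent_sub, ← e]; exact b3 (s, k) (by simp [hs])
  · choose p p1 p2 using fun k => b4 (t, k) (by simp [ht])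
    have d1 : σ ∈ W h.toTr (D ∪ (fun i => β (x i)) '' S) := sub_W (.inl h1)
    have d2 : ρ ∈ W h.toTr (D ∪ (fun i => β (x i)) '' S) := sub_W (.inl h2)
    have p3 : ∀ k, p k ∈ cm (W h.toTr (D ∪ (fun i => β (x i)) '' S)) σ ρ := fun k => by
      refine W_cm h a (W_sub ?_) ?_ (p1 k)
      · rintro _ (hd | ⟨i, hi, rfl⟩)
        · exact sub_W (.inl hd.1)
        · simp only [e]
          exact ent_mem d1 d2 _ (sub_W (.inr ⟨i.1, (mem_product.1 hi).1, rfl⟩))
      · rintro _ (hd | ⟨i, hi, rfl⟩)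
        · exact (a.mem_cm.1 hd).2
        · simp only [e]
          exact a.comm _ _
    refine ⟨(2⁻¹ : ℂ) • ∑ k, pb σ ρ k * p k, StarSubalgebra.smul_mem _ (sum_mem fun k _ =>
      mul_mem (pb_mem d1 d2 k) (p3 k).1) _, ?_⟩
    rw [← a.sum (x t), ← smul_sub, ← sum_sub_distrib]
    simp only [← mul_sub]
    refine a.pars h.toTr (fun k => ?_) p2
    obtain ⟨-, c1, c2⟩ := a.mem_cm.1 (p3 k)
    simp only [mul_sub, sub_mul, a.comm, c1, c2, and_self]

theorem Cap.seq {h : Tr τ Λ} {F : Set A} {D : StarSubalgebra ℂ A} {ι : Type*} [DecidableEq ι]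
    {x : ι → A} {S T : Finset ι} {ε : ℝ} (hST : Disjoint S T)
    (c : ∀ t ∈ T, ∀ η > 0, Cap h F D x S {t} ε η) {η : ℝ} (η0 : 0 < η) : Cap h F D x S T ε η := by
  induction T using Finset.induction_on generalizing η with
  | empty => exact ⟨_, .refl _, fun _ _ _ => rfl, fun _ _ => by simpa using η0, by simp⟩
  | insert t T ht ih =>
    rw [disjoint_insert_right] at hST
    obtain ⟨α, a1, a2, a3, a4⟩ := ih hST.2 (fun s hs => c s (mem_insert_of_mem hs)) (half_pos η0)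
    choose β b1 b2 b3 b4 using fun n : ℕ => c t (mem_insert_self _ _) _ (Nat.one_div_pos_of_nat (n := n))
    choose! p p1 p2 using a4
    have l : W h (D ∪ (fun i => α (x i)) '' S) ≤
        Lim h atTop fun n => D ∪ (fun i => ((β n).trans α) (x i)) '' S := by
      refine W_le (Lim_lc _ _ _) ?_
      rintro _ (hd | ⟨s, hs, rfl⟩)
      · exact lim_of_tendsto h (fun _ => sub_W (.inl hd)) (by simp)
      · refine lim_of_tendsto h (fun _ => sub_W (.inr ⟨s, hs, rfl⟩)) (squeeze_zero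
          (fun _ => norm_nonneg _) (fun n => ?_) tendsto_one_div_add_atTop_nhds_zero_nat)
        beta_reduce
        rw [StarAlgEquiv.trans_apply, ← map_sub α, a1.norm h, sym]
        exact (b3 n s hs).le
    obtain ⟨n, n1, n2⟩ := (((eventually_all_finset T).2 fun s hs => l (p1 s hs) _
      (sub_pos.2 (p2 s hs))).and (tendsto_one_div_add_atTop_nhds_zero_nat.eventually
        (gt_mem_nhds (half_pos η0)))).exists
    refine ⟨_, (b1 n).trans a1, fun j c1 c2 => ?_, fun s hs => ?_, fun s hs => ?_⟩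
    · rw [mem_insert, not_or] at c2
      rw [StarAlgEquiv.trans_apply, b2 n j c1 (by simpa using c2.1), a2 j c1 c2.2]
    · have := tri Λ (α (β n (x s))) (α (x s)) (x s)
      rw [← map_sub α, a1.norm h] at this
      exact this.trans_lt (by linarith [a3 s hs, b3 n s hs])
    rcases mem_insert.1 hs with rfl | hs'
    · obtain ⟨q, q1, q2⟩ := b4 n s (mem_singleton_self _)
      refine ⟨α q, a1.map_W h ?_ q1, by rwa [← a2 s hST.1 ht, ← map_sub α, a1.norm h]⟩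
      rintro _ (hd | ⟨i, hi, rfl⟩)
      exacts [(a1.2 _ (.inr hd)).symm ▸ sub_W (.inl hd), sub_W (.inr ⟨i, hi, rfl⟩)]
    · obtain ⟨q, q1, q2⟩ := n1 s hs'
      exact ⟨q, Cl_W q1, by linarith [tri Λ (x s) (p s) q]⟩

variable [CompleteSpace H] {π : A →⋆ₐ[ℂ] (H →L[ℂ] H)} {h : Std τ Λ π}

/-- Capture holds in all models of the given size. -/
def All (h : Std τ Λ π) (a b : ℕ) (ε η : ℝ) : Prop :=
  ∀ (ι : Type) [Fintype ι] [DecidableEq ι] (F : Set A) (D : StarSubalgebra ℂ A) (x : ι → A)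
    (S T : Finset ι), Mod h F D x → Div h D → Disjoint S T → S.card = a → T.card = b →
    Cap h.toTr F D x S T ε η

theorem All.pow {a b : ℕ} {ε η : ℝ} (n : ℕ) (c : All h (4 ^ n * a) (4 ^ n * b) ε η) :
    All h a b ε η := by
  induction n with
  | zero => simpa using c
  | succ n ih =>
    refine ih fun ι _ _ F D x S T m hD hST h1 h2 => ?_
    obtain ⟨σ, s1, ρ, s2, ac, hD'⟩ := hD.step
    exact Cap.split h.toTA ac s1 s2 (c _ _ _ _ _ _ (m.split ac s1 s2) hD'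
      (disjoint_product.2 (.inl hST)) (by simp [h1]; ring) (by simp [h2]; ring))

theorem All.shot {ε : ℝ} (ε0 : 0 < ε) : ∃ k, ∀ η > 0, All h (4 ^ k) 1 ε η := by
  obtain ⟨F1, κ, κ0, f1, f2⟩ := univF h.toTr ε0
  obtain ⟨k, hk⟩ := pow_unbounded_of_one_lt (2 * Real.pi ^ 2 / κ ^ 2 + Real.pi) (by norm_num : (1 : ℝ) < 4)
  refine ⟨k + 1, fun η η0 => ?_⟩
  obtain ⟨F2, κ', κ1, -, f3⟩ := univF h.toTr (half_pos η0)
  obtain ⟨b, hb⟩ := pow_unbounded_of_one_lt (Real.pi ^ 2 / κ' ^ 2) (by norm_num : (1 : ℝ) < 4)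
  obtain ⟨i, hi⟩ := pow_unbounded_of_one_lt (4 ^ b * (2 * 4 ^ k * 4 ^ b)) (by norm_num : (1 : ℕ) < 4)
  refine All.pow (i + b) fun ι _ _ F D x S T m _ hST h1 h2 => ?_
  have p0 := Real.pi_pos
  have k1 : (1 : ℝ) ≤ 4 ^ k := one_le_pow₀ (by norm_num)
  have b1 : (1 : ℝ) ≤ 4 ^ b := one_le_pow₀ (by norm_num)
  have q0 : 0 ≤ 2 * Real.pi ^ 2 / κ ^ 2 := by positivity
  obtain ⟨β, c1, c2, c3, c4⟩ := m.shot hST (k := 4 ^ i) (B := 4 ^ b) (d := 2 * 4 ^ k * 4 ^ b)
    (by positivity) (by rw [h2, pow_add, mul_one]) (by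
      rw [h1]
      exact (Nat.mul_le_mul_left _ (Nat.add_le_add_left hi.le _)).trans_eq (by ring))
    (by exact_mod_cast (by nlinarith : (2 : ℝ) ≤ 2 * 4 ^ k * 4 ^ b)) rfl (by
      push_cast
      rw [← mul_div_assoc, div_le_one (by positivity)]
      nlinarith)
  push_cast at c3 c4
  have sc := m.fk.sc h
  refine ⟨β, c1, c2, fun s hs => ?_, fun t ht => ?_⟩
  · have u := ex_unit 1 (sc s).sa
    have a1 := f3 _ _ (sc s) u (by simp [G, κ1.le])
    have a2 := f3 _ _ ((sc s).map c1) u (by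
      refine le_of_sq_le_sq (le_trans ?_ ((c3 s hs).trans ?_)) κ1.le
      · rw [G, G, map_fn β _ (sc s).sa]
      · rw [div_lt_iff₀ (by positivity)] at hb
        field_simp
        nlinarith [mul_le_mul k1 k1 zero_le_one (by positivity), mul_pos (pow_pos κ1 2) (one_pos.trans_le b1)])
    have := tri Λ (β (x s)) (F2 (fn (ex 1) (x s))) (x s)
    rw [sym Λ (F2 _)] at this
    linarith
  · obtain ⟨p, p1, p2, p3⟩ := c4 t ht
    refine ⟨F1 p, StarAlgebra.adjoin_le (by rintro _ rfl; exact W_mono Set.subset_union_right p2) (f1 p),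
      f2 _ _ (sc t) p1 (le_of_sq_le_sq (p3.trans ?_) κ0.le)⟩
    have : 2 * Real.pi ^ 2 / κ ^ 2 < 4 ^ k := by linarith
    rw [div_lt_iff₀ (by positivity)] at this
    field_simp
    nlinarith [mul_le_mul_of_nonneg_left b1 (sq_nonneg Real.pi),
      mul_le_mul_of_nonneg_right this.le (zero_le_one.trans b1)]

theorem All.one {ε η : ℝ} (ε0 : 0 < ε) (η0 : 0 < η) : All h 1 1 ε η := by
  obtain ⟨k, hk⟩ := All.shot (h := h) ε0
  exact All.pow k fun ι _ _ F D x S T m hD hST h1 _ => Cap.seq hST (fun t ht η η0 =>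
    hk η η0 ι F D x S {t} m hD (hST.mono_right (by simpa using ht)) (by simpa using h1) rfl) η0

theorem generic {D : StarSubalgebra ℂ A} {x : Bool → A} (m : Mod h ∅ D x) (hD : Div h D)
    (top : ∀ a, a ∈ W h.toTr (D ∪ Set.range x)) : ∃ (y : A) (R : StarSubalgebra ℂ (A × A)),
      IsClosed (R : Set (A × A)) ∧ Gr τ τ R ∧ (∀ d ∈ D, (d, d) ∈ R) ∧ (x true, y) ∈ R ∧
      ‖y‖ ≤ 2 ∧ ∀ a, a ∈ W h.toTr (D ∪ {y}) := by
  let X := closure {v | ∃ β, Au τ (∅ ∪ D) β ∧ Λ (β (x true)) = v}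
  have : CompleteSpace X := isClosed_closure.completeSpace_coe
  let U : ℕ → Set X := fun n => {v | ∃ r > 0, ∀ y, dist (Λ y) v < r → ∀ b,
    ∃ p ∈ Cl (D ∪ {y}), ‖Λ (x b - p)‖ < 1 / (n + 1)}
  have U1 : ∀ n, IsOpen (U n) := fun n => Metric.isOpen_iff.2 fun v ⟨r, r0, hr⟩ =>
    ⟨r / 2, half_pos r0, fun w hw => ⟨r / 2, half_pos r0, fun y hy => hr y (by
      have : dist w.1 v.1 < r / 2 := hw
      linarith [dist_triangle (Λ y) w.1 v.1])⟩⟩
  choose β b1 _ b3 b4 using fun n : ℕ => All.one (h := h) (Nat.one_div_pos_of_nat (n := n))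
    (Nat.one_div_pos_of_nat (n := n)) Bool ∅ D x {true} {false} m hD (by simp) rfl rfl
  have U2 : ∀ n, Dense (U n) := fun n => Metric.dense_iff.2 fun v r r0 => by
    obtain ⟨_, ⟨α, a1, rfl⟩, a2⟩ := Metric.mem_closure_iff.1 v.2 _ (half_pos r0)
    have t1 : Tendsto (fun k => ‖Λ (α (x true) - α (β k (x true)))‖) atTop (𝓝 0) :=
      squeeze_zero (fun _ => norm_nonneg _) (fun k => by
        rw [← map_sub α, a1.norm h.toTr, sym]
        exact (b3 k true (by simp)).le) tendsto_one_div_add_atTop_nhds_zero_nat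
    have l : W h.toTr (D ∪ Set.range fun b => α (x b)) ≤
        Lim h.toTr atTop fun k => D ∪ {α (β k (x true))} := by
      refine W_le (Lim_lc _ _ _) ?_
      rintro _ (hd | ⟨_ | _, rfl⟩)
      · exact lim_of_tendsto h.toTr (fun _ => sub_W (.inl hd)) (by simp)
      · choose p p1 p2 using fun k => b4 k false (by simp)
        refine lim_of_tendsto h.toTr (y := fun k => α (p k)) (fun k => a1.map_W h.toTr ?_ (p1 k))
          (squeeze_zero (fun _ => norm_nonneg _) (fun k => by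
            rw [← map_sub α, a1.norm h.toTr]
            exact (p2 k).le) tendsto_one_div_add_atTop_nhds_zero_nat)
        rintro _ (hd | ⟨i, hi, rfl⟩)
        · exact (a1.2 _ (.inr hd)).symm ▸ sub_W (.inl hd)
        · exact sub_W (.inr (by rw [mem_singleton.1 hi]; rfl))
      · exact lim_of_tendsto h.toTr (fun _ => sub_W (.inr rfl)) t1
    have l2 : ∀ a, a ∈ W h.toTr (D ∪ Set.range fun b => α (x b)) := fun a => by
      rw [← α.apply_symm_apply a]
      refine a1.map_W h.toTr ?_ (top _)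
      rintro _ (hd | ⟨i, rfl⟩)
      exacts [(a1.2 _ (.inr hd)).symm ▸ sub_W (.inl hd), sub_W (.inr ⟨i, rfl⟩)]
    obtain ⟨k, k1, k2⟩ := ((eventually_all.2 fun b => l (l2 (x b)) _
      (Nat.one_div_pos_of_nat (n := n))).and (t1.eventually (gt_mem_nhds (half_pos r0)))).exists
    refine ⟨⟨_, subset_closure ⟨_, (b1 k).trans a1, rfl⟩⟩, ?_, ?_⟩
    · change dist (Λ (α (β k (x true)))) v.1 < r
      rw [map_sub, ← dist_eq_norm] at k2
      linarith [dist_triangle_left (Λ (α (β k (x true)))) v.1 (Λ (α (x true))), dist_comm v.1 (Λ (α (x true)))]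
    beta_reduce at k1
    generalize hy : α (β k (x true)) = y at k1
    have l3 : W h.toTr (D ∪ {y}) ≤ Lim h.toTr (comap Λ (𝓝 (Λ y))) fun y => D ∪ {y} := by
      refine W_le (Lim_lc _ _ _) ?_
      rintro _ (hd | rfl)
      · exact lim_of_tendsto h.toTr (fun _ => sub_W (.inl hd)) (by simp [tendsto_const_nhds])
      · refine lim_of_tendsto h.toTr (fun _ => sub_W (.inr rfl)) ?_
        simpa only [map_sub, ← dist_eq_norm, dist_comm] using
          tendsto_iff_dist_tendsto_zero.1 (tendsto_comap (f := Λ))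
    choose p p1 p2 using k1
    obtain ⟨s, hs, s1⟩ := mem_comap.1 (eventually_all.2 fun b => l3 (Cl_W (p1 b)) _ (sub_pos.2 (p2 b)))
    obtain ⟨r, r0, hr⟩ := Metric.mem_nhds_iff.1 hs
    refine ⟨r, r0, fun z hz b => ?_⟩
    obtain ⟨q, q1, q2⟩ := s1 (hr (show dist (Λ z) (Λ y) < r from hy ▸ hz)) b
    exact ⟨q, q1, by linarith [tri Λ (x b) (p b) q]⟩
  have : Nonempty X := ⟨⟨_, subset_closure ⟨_, .refl _, rfl⟩⟩⟩
  obtain ⟨v, hv⟩ := (dense_iInter_of_isOpen U1 U2).nonempty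
  obtain ⟨w, w1, w2⟩ := mem_closure_iff_seq_limit.1 v.2
  choose α a1 a2 using w1
  obtain ⟨y, y2, hy⟩ := h.cpl (fun k => α k (x true)) 2 (fun k => ((m.fk.sc h true).map (a1 k)).le)
    (by simpa only [a2] using w2.cauchySeq)
  have yv : Λ y = v := by
    refine tendsto_nhds_unique ?_ w2
    rw [tendsto_iff_norm_sub_tendsto_zero]
    simpa only [← a2, ← map_sub, sym Λ y] using hy
  refine ⟨y, Lim (pTr h.toTr h.toTr) atTop fun k => (fun d => (d, d)) '' D ∪ {(x true, α k (x true))},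
    (Lim_lc _ _ _).isClosed (pTr h.toTr h.toTr), Gr.lim h.toTr h.toTr fun k z hz => ?_, fun d hd =>
      lim_of_tendsto _ (fun _ => sub_W (.inl ⟨d, hd, rfl⟩)) (by simp), lim_of_tendsto _
      (fun _ => sub_W (.inr rfl)) (squeeze_zero (fun _ => norm_nonneg _) (fun k => pΛ_le _)
        (by simpa using hy)), y2, fun a => W_sub ?_ (top a)⟩
  · have : α k z.1 = z.2 := StarAlgebra.adjoin_le (S := StarAlgHom.equalizer
      ((α k : A →⋆ₐ[ℂ] A).comp (StarAlgHom.fst ℂ A A)) (StarAlgHom.snd ℂ A A)) (by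
        rintro _ (⟨d, hd, rfl⟩ | rfl)
        exacts [(a1 k).2 d (.inr hd), rfl]) hz
    rw [← this, (a1 k).1]
  · rintro _ (hd | ⟨b, rfl⟩)
    · exact sub_W (.inl hd)
    intro ε hε
    obtain ⟨n, hn⟩ := exists_nat_one_div_lt hε
    obtain ⟨r, r0, hr⟩ := Set.mem_iInter.1 hv n
    exact (hr y (by simpa [yv] using r0) b).imp fun p hp => ⟨hp.1, hp.2.trans hn⟩

/-- A generating family of unitaries with the moments of free generators. -/
def HG (h : Tr τ Λ) {ι : Type*} (a : ι → A) : Prop :=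
  (∀ i, a i ∈ unitary A) ∧ (∀ y, y ∈ W h (Set.range a)) ∧
    ∀ L, FreeGroup.IsReduced L → L ≠ [] → τ (ev a L) = 0

theorem Fk.words {ι : Type*} {D : StarSubalgebra ℂ A} {x : ι → A} (h : Std τ Λ π)
    (c : Fk τ Λ π D x) : ∀ L, FreeGroup.IsReduced L → L ≠ [] → τ (ev (fun i => G (x i)) L) = 0 :=
  P086.words (c.hf h) fun _ j e => G_mem _ (.inr ⟨j, e, rfl⟩)

omit [CompleteSpace H] in
theorem W_G (h : Tr τ Λ) {ι : Type*} {x : ι → A} (hx : ∀ i, Sc τ (x i)) :
    W h (Set.range x) ≤ W h (Set.range fun i => G (x i)) := W_sub (by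
  rintro _ ⟨i, rfl⟩
  exact W_mono (by simp) ((hx i).mem_W h))

theorem exists_HG (h : Std τ Λ π) {x : Fin 5 → A} (c : Fk τ Λ π ⊥ x)
    (top : ∀ a, a ∈ W h.toTr (Set.range x)) :
    (∃ a : Fin 5 → A, HG h.toTr a) ∧ ∃ a : Fin 4 → A, HG h.toTr a := by
  have sc := c.sc h
  refine ⟨⟨_, fun i => ex_unit 1 (sc i).sa, fun y => W_G _ sc (top y), c.words h⟩, ?_⟩
  let e : Bool → Fin 5 := fun b => if b then 3 else 4
  have f := c.up h (K := {0, 1, 2}) (e := e) (by decide) (by rintro (_ | _) <;> simp [e])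
  have p : ∀ i ∈ ({0, 1, 2} : Set (Fin 5)),
      x i ∈ W h.toTr ((⊥ : StarSubalgebra ℂ A) ∪ x '' {0, 1, 2}) := fun i hi => sub_W (.inr ⟨i, hi, rfl⟩)
  have hD : Div h (W h.toTr ((⊥ : StarSubalgebra ℂ A) ∪ x '' {0, 1, 2})) :=
    ⟨⊥, _, c.comp (e := Fin.castLE (by norm_num : 3 ≤ 5)) (Fin.castLE_injective _),
      W_mono (Set.union_subset_union_right _ (by
        rintro _ ⟨i, rfl⟩
        exact ⟨_, by fin_cases i <;> simp, rfl⟩))⟩
  have q : ∀ P : StarSubalgebra ℂ A, LC Λ P → (∀ i ∈ ({0, 1, 2} : Set (Fin 5)), x i ∈ P) →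
      W h.toTr ((⊥ : StarSubalgebra ℂ A) ∪ x '' {0, 1, 2}) ≤ P := fun P h1 h2 => W_le h1 (by
    rintro _ (hd | ⟨i, hi, rfl⟩)
    exacts [(bot_le : ⊥ ≤ P) hd, h2 i hi])
  generalize W h.toTr ((⊥ : StarSubalgebra ℂ A) ∪ x '' {0, 1, 2}) = D at *
  have top' : ∀ a, a ∈ W h.toTr (D ∪ Set.range fun b => x (e b)) := fun a => W_sub (by
    rintro _ ⟨i, rfl⟩
    fin_cases i
    exacts [sub_W (.inl (p _ (by simp))), sub_W (.inl (p _ (by simp))), sub_W (.inl (p _ (by simp))),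
      sub_W (.inr ⟨true, rfl⟩), sub_W (.inr ⟨false, rfl⟩)]) (top a)
  have top2 : W h.toTr (D ∪ Set.range fun b => x (e b)) = ⊤ := eq_top_iff.2 fun a _ => top' a
  obtain ⟨y, R, r1, r2, r3, r4, r5, r6⟩ := generic ⟨f, top2 ▸ .top h.toTA⟩ hD top'
  let z : Fin 4 → A × A := ![(x 0, x 0), (x 1, x 1), (x 2, x 2), (x 3, y)]
  have z1 : ∀ i, z i ∈ R := fun i => by
    fin_cases i
    exacts [r3 _ (p _ (by simp)), r3 _ (p _ (by simp)), r3 _ (p _ (by simp)), r4]
  have z2 : ∀ i, (z i).1 = x i.castSucc := fun i => by fin_cases i <;> rfl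
  have z3 : ∀ i, IsSelfAdjoint (z i) := fun i => by
    have a : star (z i).1 = (z i).1 := z2 i ▸ (sc _).sa
    have := r2.norm h.toTr h.toTr (sub_mem (star_mem (z1 i)) (z1 i))
    rw [Prod.fst_sub, Prod.fst_star, a, sub_self, map_zero, norm_zero, eq_comm, norm_eq_zero] at this
    exact Prod.ext a (sub_eq_zero.1 (h.inj _ this))
  have z4 : ∀ f i, (fn f (z i)).1 = fn f (x i.castSucc) ∧ (fn f (z i)).2 = fn f (z i).2 := fun f i =>
    ⟨z2 i ▸ map_fn (StarAlgHom.fst ℂ A A) f (z3 i), map_fn (StarAlgHom.snd ℂ A A) f (z3 i)⟩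
  have z5 : ∀ i, Sc τ (z i).2 := fun i => ⟨congrArg Prod.snd (z3 i), by
    fin_cases i
    exacts [(sc _).le, (sc _).le, (sc _).le, r5], fun f => by
      rw [← (z4 f i).2, ← r2 _ (fn_mem r1 f (z1 i)), (z4 f i).1, (sc _).law]⟩
  have ev' : ∀ L, ev (fun i => G (z i)) L =
      (ev (fun i => G (x i.castSucc)) L, ev (fun i => G (z i).2) L) := fun L => by
    induction L with
    | nil => rfl
    | cons p L ih =>
      simp only [ev, List.map_cons, List.prod_cons] at ih ⊢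
      rw [ih]
      rcases p with ⟨i, _ | _⟩ <;> simp [ub, G, Prod.ext_iff, z4]
  refine ⟨_, fun i => ex_unit 1 (z5 i).sa, fun a => W_G _ z5 (W_sub ?_ (r6 a)), fun L h1 h2 => ?_⟩
  · rintro _ (hd | rfl)
    · refine q _ (W_lc _ _) ?_ hd
      rintro _ (rfl | rfl | rfl)
      exacts [sub_W ⟨0, rfl⟩, sub_W ⟨1, rfl⟩, sub_W ⟨2, rfl⟩]
    · exact sub_W ⟨3, rfl⟩
  · have := r2 _ (ev_mem (a := fun i => G (z i)) (L := L) fun p _ => fn_mem r1 _ (z1 p.1))
    rw [ev'] at this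
    exact this.symm.trans ((c.comp (Fin.castSucc_injective 4)).words h L h1 h2)

end Vale.Agent.P086
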