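import Vale.Agent.P086.Fock

/-! The semicircle law. -/

namespace Vale.Agent.P086

open Vale.Agent.P104 Vale.Agent.P085 Filter Topology Real
open scoped InnerProductSpace CStarAlgebra

variable {A : Type*} [CStarAlgebra A]

/-- Functional calculus with bundled functions. -/
noncomputable def fn (f : C(ℝ, ℂ)) (x : A) : A := cfc (fun z : ℂ => f z.re) x

/-- The functional calculus as a homomorphism. -/
noncomputable def fh {x : A} (hx : IsSelfAdjoint x) : C(ℝ, ℂ) →⋆ₐ[ℂ] A :=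
  (cfcHom (R := ℂ) hx.isStarNormal).comp
    (ContinuousMap.compStarAlgHom' ℂ ℂ ⟨fun z : spectrum ℂ x => z.1.re, by fun_prop⟩)

theorem fn_eq {x : A} (hx : IsSelfAdjoint x) (f : C(ℝ, ℂ)) : fn f x = fh hx f :=
  cfc_apply (fun z : ℂ => f z.re) x hx.isStarNormal

/-- The identity function. -/
noncomputable def idf : C(ℝ, ℂ) := ⟨fun t => t, by fun_prop⟩

theorem fn_id {x : A} (hx : IsSelfAdjoint x) : fn idf x = x :=
  (cfc_congr fun _ hz => (hx.mem_spectrum_eq_re hz).symm).trans (cfc_id' ℂ x hx.isStarNormal)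

theorem spec_mem {x : A} (hx : ‖x‖ ≤ 2) {z : ℂ} (hz : z ∈ spectrum ℂ x) :
    z.re ∈ Set.Icc (-2 : ℝ) 2 := by
  rcases subsingleton_or_nontrivial A with _ | _
  · simp [spectrum.of_subsingleton] at hz
  · exact abs_le.1 ((Complex.abs_re_le_norm z).trans ((spectrum.norm_le_norm_of_mem hz).trans hx))

theorem norm_fn {x : A} (hx : ‖x‖ ≤ 2) {f : C(ℝ, ℂ)} {c : ℝ}
    (h : ∀ t ∈ Set.Icc (-2 : ℝ) 2, ‖f t‖ ≤ c) : ‖fn f x‖ ≤ c :=
  norm_cfc_le ((norm_nonneg _).trans (h 0 (by norm_num))) fun _ hz => h _ (spec_mem hx hz)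

theorem fn_mem {P : StarSubalgebra ℂ A} (hP : IsClosed (P : Set A)) (f : C(ℝ, ℂ)) {x : A}
    (hx : x ∈ P) : fn f x ∈ P := cfc_mem (𝕜' := ℂ) _ hx

theorem map_fn {B F : Type*} [CStarAlgebra B] [FunLike F A B] [AlgHomClass F ℂ A B]
    [StarHomClass F A B] (φ : F) (f : C(ℝ, ℂ)) {x : A} (hx : IsSelfAdjoint x) :
    φ (fn f x) = fn f (φ x) :=
  StarAlgHomClass.map_cfc (S := ℂ) φ _ x (by fun_prop) (map_continuous φ) hx.isStarNormal
    (hx.map φ).isStarNormal

theorem fn_comp (k g : C(ℝ, ℂ)) {x : A} (hx : IsSelfAdjoint x) :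
    fn k (fn g x) = fn (k.comp ⟨fun t => (g t).re, by fun_prop⟩) x :=
  (cfc_comp' (fun z : ℂ => k z.re) (fun z : ℂ => g z.re) x (by fun_prop) (by fun_prop)
    hx.isStarNormal).symm

theorem fn_neg (f : C(ℝ, ℂ)) {x : A} (hx : IsSelfAdjoint x) :
    fn f (-x) = fn (f.comp ⟨fun t => -t, by fun_prop⟩) x :=
  (cfc_comp_neg (fun z : ℂ => f z.re) x (by fun_prop) hx.isStarNormal).symm

theorem mem_of_inj {g : C(ℝ, ℂ)} (hg : Set.InjOn g (Set.Icc (-2) 2)) {x : A} (hx : IsSelfAdjoint x)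
    (h2 : ‖x‖ ≤ 2) : x ∈ Cl {fn g x} := by
  have i : Set.InjOn (fun z : ℂ => g z.re) (spectrum ℂ x) := fun z hz w hw e => by
    rw [hx.mem_spectrum_eq_re hz, hx.mem_spectrum_eq_re hw, hg (spec_mem h2 hz) (spec_mem h2 hw) e]
  have c : ContinuousOn (Function.invFunOn (fun z : ℂ => g z.re) (spectrum ℂ x))
      ((fun z : ℂ => g z.re) '' spectrum ℂ x) := by
    refine continuousOn_iff_isClosed.2 fun t ht => ⟨(fun z : ℂ => g z.re) '' (spectrum ℂ x ∩ t),
      (((spectrum.isCompact x).inter_right ht).image (by fun_prop)).isClosed, ?_⟩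
    ext w
    constructor
    · rintro ⟨a, z, hz, rfl⟩
      exact ⟨⟨z, ⟨hz, by rwa [Set.mem_preimage, i.leftInvOn_invFunOn hz] at a⟩, rfl⟩, z, hz, rfl⟩
    · rintro ⟨⟨z, hz, rfl⟩, b⟩
      exact ⟨by rw [Set.mem_preimage, i.leftInvOn_invFunOn hz.1]; exact hz.2, b⟩
  have := cfc_comp' _ _ x c (by fun_prop) hx.isStarNormal
  rw [cfc_congr (g := fun z => z) fun z hz => i.leftInvOn_invFunOn hz,
    cfc_id' ℂ x hx.isStarNormal] at this
  have cl := Cl_closed {fn g x}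
  have k := cfc_mem (𝕜' := ℂ) (Function.invFunOn (fun z : ℂ => g z.re) (spectrum ℂ x))
    (mem_Cl (rfl : fn g x ∈ {fn g x}))
  rwa [fn, ← this] at k

/-- Integration against the semicircle law. -/
noncomputable def sI : C(ℝ, ℂ) →ₗ[ℂ] ℂ where
  toFun f := ∫ θ in (0 : ℝ)..π, (2 / π * sin θ ^ 2 : ℝ) * f (2 * cos θ)
  map_add' f g := by
    rw [← intervalIntegral.integral_add (Continuous.intervalIntegrable (by fun_prop) _ _)
      (Continuous.intervalIntegrable (by fun_prop) _ _)]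
    simp [mul_add]
  map_smul' c f := by
    rw [RingHom.id_apply, ← intervalIntegral.integral_smul]
    simp [mul_left_comm]

theorem sI_apply (f : C(ℝ, ℂ)) :
    sI f = ∫ θ in (0 : ℝ)..π, (2 / π * sin θ ^ 2 : ℝ) * f (2 * cos θ) := rfl

theorem cos_mem (θ : ℝ) : 2 * cos θ ∈ Set.Icc (-2 : ℝ) 2 :=
  ⟨by linarith [neg_one_le_cos θ], by linarith [cos_le_one θ]⟩

theorem sI_bd {f : C(ℝ, ℂ)} {c : ℝ} (h : ∀ t ∈ Set.Icc (-2 : ℝ) 2, ‖f t‖ ≤ c) (θ : ℝ) :
    ‖((2 / π * sin θ ^ 2 : ℝ) : ℂ) * f (2 * cos θ)‖ ≤ 2 / π * c := by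
  rw [norm_mul, Complex.norm_real, norm_of_nonneg (by positivity)]
  exact mul_le_mul (mul_le_of_le_one_right (by positivity) (sin_sq_le_one θ)) (h _ (cos_mem θ))
    (norm_nonneg _) (by positivity)

theorem sI_le {f : C(ℝ, ℂ)} {c : ℝ} (h : ∀ t ∈ Set.Icc (-2 : ℝ) 2, ‖f t‖ ≤ c) : ‖sI f‖ ≤ 2 * c := by
  refine (intervalIntegral.norm_integral_le_of_norm_le_const fun θ _ => sI_bd h θ).trans_eq ?_
  rw [sub_zero, abs_of_pos pi_pos]
  field_simp

theorem sI_neg (f : C(ℝ, ℂ)) : sI (f.comp ⟨fun t => -t, by fun_prop⟩) = sI f := by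
  have := intervalIntegral.integral_comp_sub_left (a := 0) (b := π)
    (fun θ => ((2 / π * sin θ ^ 2 : ℝ) : ℂ) * f (2 * cos θ)) π
  simp only [sub_self, sub_zero, sin_pi_sub, cos_pi_sub, mul_neg] at this
  exact this

theorem sI_lim {ι : Type*} {l : Filter ι} [l.IsCountablyGenerated] {f : ι → C(ℝ, ℂ)} {c : ℝ}
    (h : ∀ n, ∀ t ∈ Set.Icc (-2 : ℝ) 2, ‖f n t‖ ≤ c)
    (h0 : ∀ t ∈ Set.Ioo (-2 : ℝ) 2, t ≠ 0 → ∀ᶠ n in l, f n t = 0) :
    Tendsto (fun n => sI (f n)) l (𝓝 0) := by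
  have := intervalIntegral.tendsto_integral_filter_of_dominated_convergence (μ := MeasureTheory.volume)
    (a := 0) (b := π) (l := l) (f := fun _ => (0 : ℂ))
    (F := fun n θ => ((2 / π * sin θ ^ 2 : ℝ) : ℂ) * f n (2 * cos θ)) (fun _ => 2 / π * c)
    (.of_forall fun n => Continuous.aestronglyMeasurable (by fun_prop))
    (.of_forall fun n => .of_forall fun θ _ => sI_bd (h n) θ) (by simp) ?_
  · rw [intervalIntegral.integral_zero] at this
    exact this
  filter_upwards [MeasureTheory.Measure.ae_ne _ π, MeasureTheory.Measure.ae_ne _ (π / 2)]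
    with θ a b hθ
  rw [Set.uIoc_of_le pi_pos.le] at hθ
  have s := sin_pos_of_pos_of_lt_pi hθ.1 (lt_of_le_of_ne hθ.2 a)
  have c1 : cos θ ^ 2 < 1 := by nlinarith [sin_sq_add_cos_sq θ]
  refine tendsto_const_nhds.congr' ((h0 (2 * cos θ) ⟨by nlinarith, by nlinarith⟩ fun e => b ?_).mono
    fun n hn => by simp [hn])
  exact injOn_cos ⟨hθ.1.le, hθ.2⟩ ⟨by positivity, by linarith [pi_pos]⟩ (by simpa using e)

theorem cheb (k j : ℕ) {m : ℕ → ℕ → ℂ} (h0 : ∀ j, m 0 j = if j = 0 then 1 else 0)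
    (h1 : ∀ k, m (k + 1) 0 = m k 1) (h2 : ∀ k j, m (k + 1) (j + 1) = m k (j + 2) + m k j) :
    m k j = ∫ θ in (0 : ℝ)..π, (2 / π * (sin ((j + 1) * θ) * sin θ * (2 * cos θ) ^ k) : ℝ) := by
  induction k generalizing j with
  | zero =>
    rw [h0, intervalIntegral.integral_const_mul]
    split_ifs with hj
    · simp only [hj, Nat.cast_zero, zero_add, one_mul, pow_zero, mul_one, ← sq, integral_sin_sq]
      norm_cast
      simp [pi_pos.ne']
    · have j0 : (j : ℝ) ≠ 0 := by exact_mod_cast hj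
      have j2 : (j : ℝ) + 2 ≠ 0 := by positivity
      rw [intervalIntegral.integral_eq_sub_of_hasDerivAt
        (f := fun θ => (sin (j * θ) / j - sin ((j + 2) * θ) / (j + 2)) / 2) (fun θ _ => ?_)
        (Continuous.intervalIntegrable (by fun_prop) _ _)]
      · have := sin_nat_mul_pi (j + 2)
        push_cast at this
        simp [this]
      · convert (((((hasDerivAt_id θ).const_mul (j : ℝ)).sin.div_const j).sub
          (((hasDerivAt_id θ).const_mul ((j : ℝ) + 2)).sin.div_const (j + 2))).div_const 2) using 1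
        · rfl
        · rfl
        have a := cos_add ((j + 1) * θ) θ
        have b := cos_sub ((j + 1) * θ) θ
        rw [show (j + 1) * θ + θ = (j + 2) * θ by ring] at a
        rw [show (j + 1) * θ - θ = j * θ by ring] at b
        simp only [id, a, b]
        field_simp
        ring
  | succ k ih =>
    rcases j with _ | j
    · rw [h1, ih]
      congr 2
      ext θ
      norm_num [one_add_one_eq_two, sin_two_mul]
      ring_nf
    · rw [h2, ih, ih, ← Complex.ofReal_add,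
        ← intervalIntegral.integral_add (Continuous.intervalIntegrable (by fun_prop) _ _)
        (Continuous.intervalIntegrable (by fun_prop) _ _)]
      congr 2
      ext θ
      have a := sin_add ((j + 2) * θ) θ
      have b := sin_sub ((j + 2) * θ) θ
      rw [show (j + 2) * θ + θ = (j + 2 + 1) * θ by ring] at a
      rw [show (j + 2) * θ - θ = (j + 1) * θ by ring] at b
      push_cast
      rw [a, b, show ((j : ℝ) + 1 + 1) = j + 2 by ring]
      ring

/-- Semicircular elements. -/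
structure Sc (τ : A →ₗ[ℂ] ℂ) (x : A) : Prop where
  sa : IsSelfAdjoint x
  le : ‖x‖ ≤ 2
  law : ∀ f, τ (fn f x) = sI f

variable {H : Type*} [NormedAddCommGroup H] [InnerProductSpace ℂ H]
  {τ : A →ₗ[ℂ] ℂ} {Λ : A →ₗ[ℂ] H}

theorem Sc.neg {x : A} (h : Sc τ x) : Sc τ (-x) :=
  ⟨h.sa.neg, by simpa using h.le, fun f => by rw [fn_neg f h.sa, h.law, sI_neg]⟩

theorem Sc.map {x : A} (h : Sc τ x) {F : Set A} {α : A ≃⋆ₐ[ℂ] A} (hα : Au τ F α) : Sc τ (α x) :=
  ⟨h.sa.map α, (NonUnitalStarAlgHom.norm_apply_le α x).trans h.le, fun f => by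
    rw [← map_fn α f h.sa, hα.1, h.law]⟩

theorem Sc.nsq (h : Tr τ Λ) {x : A} (hx : Sc τ x) (f : C(ℝ, ℂ)) :
    ‖Λ (fn f x)‖ ^ 2 = (sI (star f * f)).re := by
  rw [h.nsq, ← hx.law, fn_eq hx.sa, fn_eq hx.sa, map_mul (fh _), map_star (fh _)]

theorem Sc.lim (h : Tr τ Λ) {x : A} (hx : Sc τ x) {ι : Type*} {l : Filter ι}
    [l.IsCountablyGenerated] {f : ι → C(ℝ, ℂ)} {c : ℝ}
    (hc : ∀ n, ∀ t ∈ Set.Icc (-2 : ℝ) 2, ‖f n t‖ ≤ c)
    (h0 : ∀ t ∈ Set.Ioo (-2 : ℝ) 2, t ≠ 0 → ∀ᶠ n in l, f n t = 0) :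
    Tendsto (fun n => ‖Λ (fn (f n) x)‖) l (𝓝 0) := by
  have := ((Complex.continuous_re.tendsto _).comp (sI_lim (f := fun n => star (f n) * f n)
    (c := c * c) (fun n t ht => by
      simpa using mul_self_le_mul_self (norm_nonneg _) (hc n t ht))
    fun t a b => (h0 t a b).mono fun n hn => by simp [hn])).sqrt
  simpa [← hx.nsq h] using this

theorem sc_of [CompleteSpace H] {ϖ : A →⋆ₐ[ℂ] (H →L[ℂ] H)} (h : Std τ Λ ϖ) {l : H →L[ℂ] H}
    (iso : ∀ ξ, star l (l ξ) = ξ) (v : star l (Λ 1) = 0) {x : A} (hx : ϖ x = l + star l) :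
    Sc τ x := by
  have inj : Function.Injective ϖ := (injective_iff_map_eq_zero ϖ).2 fun a ha => h.inj a (by
    rw [← mul_one a, ← h.act, ha]; rfl)
  have sa : IsSelfAdjoint x := inj (by rw [map_star, hx, star_add, star_star, add_comm])
  have n1 : ‖l‖ ≤ 1 := by
    have : star l * l = 1 := by ext ξ; exact iso ξ
    rw [← sq_le_one_iff₀ (norm_nonneg _), sq, ← CStarRing.norm_star_mul_self, this]
    exact ContinuousLinearMap.norm_id_le
  have le : ‖x‖ ≤ 2 := by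
    rw [← NonUnitalStarAlgHom.norm_map ϖ inj, hx]
    exact (norm_add_le_of_le n1 ((norm_star _).trans_le n1)).trans_eq one_add_one_eq_two
  have s : ∀ k ξ, ⟪ξ, Λ (x ^ (k + 1))⟫_ℂ = ⟪l ξ + star l ξ, Λ (x ^ k)⟫_ℂ := fun k ξ => by
    rw [pow_succ', ← h.act, ← inner_star_left, ← map_star, sa.star_eq, hx]
    rfl
  have m : ∀ k, τ (x ^ k) = sI (idf ^ k) := fun k => by
    have := cheb k 0 (m := fun k j => ⟪(l ^ j) (Λ 1), Λ (x ^ k)⟫_ℂ) (fun j => ?_)
      (fun k => by simp [s, v]) (fun k j => by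
        simp only [s, inner_add_left, pow_succ' l, ContinuousLinearMap.mul_apply, iso])
    · rw [← intervalIntegral.integral_ofReal] at this
      simpa [h.tau, sI_apply, idf, sq, mul_assoc] using this
    rcases j with _ | j
    · simp [h.n1]
    · simp [pow_succ', ← inner_star_right, v]
  refine ⟨sa, le, fun f => sub_eq_zero.1 (norm_le_zero_iff.1 (le_of_forall_pos_le_add fun ε hε => ?_))⟩
  obtain ⟨p, hp⟩ := exists_polynomial_near_of_continuousOn (-2) 2 (fun t => (f t).re) (by fun_prop)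
    (ε / 6) (by positivity)
  obtain ⟨q, hq⟩ := exists_polynomial_near_of_continuousOn (-2) 2 (fun t => (f t).im) (by fun_prop)
    (ε / 6) (by positivity)
  have e : ∀ p : Polynomial ℝ, ∃ g : C(ℝ, ℂ), τ (fn g x) = sI g ∧ ∀ t, g t = (p.eval t : ℝ) :=
    fun p => ⟨∑ k ∈ Finset.range (p.natDegree + 1), (p.coeff k : ℂ) • idf ^ k, by
      simp [fn_eq sa, ← m, (fn_eq sa _).symm.trans (fn_id sa)], fun t => by
      simp [Polynomial.eval_eq_sum_range, idf]⟩
  obtain ⟨a, a1, a2⟩ := e p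
  obtain ⟨b, b1, b2⟩ := e q
  have bd : ∀ t ∈ Set.Icc (-2 : ℝ) 2, ‖(f - (a + Complex.I • b)) t‖ ≤ ε / 3 := fun t ht => by
    refine (Complex.norm_le_abs_re_add_abs_im _).trans ?_
    have := hp t ht
    have := hq t ht
    simp [a2, b2, abs_sub_comm] at *
    linarith
  have c1 := (tr_le h.toTr _).trans (mul_le_mul_of_nonneg_left ((le1 h.toTr _).trans
    (mul_le_mul_of_nonneg_right (norm_fn le bd) (norm_nonneg _))) (norm_nonneg _))
  have c2 := sI_le bd
  rw [h.n1, fn_eq sa] at c1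
  rw [fn_eq sa] at a1 b1 ⊢
  simp only [map_sub, map_add, map_smul, a1, b1] at c1 c2
  have := norm_sub_le_of_le c1 c2
  rw [sub_sub_sub_cancel_right] at this
  linarith

theorem Cre.sc [CompleteSpace H] {ϖ : A →⋆ₐ[ℂ] (H →L[ℂ] H)} (h : Std τ Λ ϖ) {ι : Type*}
    {l : ι → H →L[ℂ] H} {D : StarSubalgebra ℂ A} (c : Cre τ Λ ϖ l D) {x : A} {i : ι}
    (hx : ϖ x = l i + star (l i)) : Sc τ x :=
  sc_of h (fun ξ => by simpa [h.one] using c.ip1 i 1 (one_mem _) ξ) (c.vac i 1 (one_mem _)) hx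

end Vale.Agent.P086
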