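import Vale.Agent.P086.HF

/-! Splitting by a pair of anticommuting symmetries. -/

namespace Vale.Agent.P086

open Vale.Agent.P104 Vale.Agent.P085 Filter Topology Finset
open scoped InnerProductSpace CStarAlgebra
open Complex (I)

section Pauli

variable {R : Type*} [Ring R] [Algebra ℂ R] {σ ρ : R}

/-- The Pauli basis. -/
noncomputable def pb (σ ρ : R) : Fin 4 → R := ![1, σ, ρ, I • (σ * ρ)]

/-- The normalized Pauli coordinates. -/
noncomputable def ent (σ ρ : R) (k : Fin 4) (y : R) : R :=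
  (2⁻¹ : ℂ) • ∑ j, pb σ ρ j * (pb σ ρ k * y) * pb σ ρ j

theorem map_pb {R' F : Type*} [Ring R'] [Algebra ℂ R'] [FunLike F R R'] [AlgHomClass F ℂ R R']
    (φ : F) (k : Fin 4) : φ (pb σ ρ k) = pb (φ σ) (φ ρ) k := by
  fin_cases k <;> simp [pb]

theorem map_ent {R' F : Type*} [Ring R'] [Algebra ℂ R'] [FunLike F R R'] [AlgHomClass F ℂ R R']
    (φ : F) (k : Fin 4) (y : R) : φ (ent σ ρ k y) = ent (φ σ) (φ ρ) k (φ y) := by
  simp [ent, map_pb]

theorem ent_add (k : Fin 4) (y z : R) : ent σ ρ k (y + z) = ent σ ρ k y + ent σ ρ k z := by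
  simp [ent, mul_add, add_mul, sum_add_distrib]

theorem ent_sub (k : Fin 4) (y z : R) : ent σ ρ k (y - z) = ent σ ρ k y - ent σ ρ k z := by
  simp [ent, mul_sub, sub_mul, smul_sub]

variable [StarRing R]

/-- Anticommuting symmetries. -/
structure AC (σ ρ : R) : Prop where
  s1 : star σ = σ
  s2 : star ρ = ρ
  m1 : σ * σ = 1
  m2 : ρ * ρ = 1
  m3 : ρ * σ = -(σ * ρ)

omit [Algebra ℂ R] in
theorem AC.rel (h : AC σ ρ) (z : R) :
    σ * (σ * z) = z ∧ ρ * (ρ * z) = z ∧ ρ * (σ * z) = -(σ * (ρ * z)) := by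
  simp [← mul_assoc, h.m1, h.m2, h.m3]

theorem AC.comm (h : AC σ ρ) (k : Fin 4) (y : R) :
    σ * ent σ ρ k y = ent σ ρ k y * σ ∧ ρ * ent σ ρ k y = ent σ ρ k y * ρ := by
  rw [ent]
  generalize pb σ ρ k * y = z
  constructor <;>
  · simp [pb, Fin.sum_univ_four, mul_add, add_mul, mul_assoc, h.rel, h.m1, h.m2, h.m3, smul_smul]
    abel

theorem AC.sum (h : AC σ ρ) (y : R) : (2⁻¹ : ℂ) • ∑ k, pb σ ρ k * ent σ ρ k y = y := by
  simp [ent, pb, Fin.sum_univ_four, mul_add, mul_assoc, h.rel, smul_smul]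
  module

theorem AC.dbl (h : AC σ ρ) (ψ : R →ₗ[ℂ] ℂ) :
    ∑ j, ∑ k, ψ (pb σ ρ j * pb σ ρ k) • (pb σ ρ j * pb σ ρ k) = (4 * ψ 1) • (1 : R) := by
  simp [pb, Fin.sum_univ_four, mul_assoc, h.rel, h.m1, h.m2, h.m3, smul_smul]
  match_scalars <;> ring_nf <;> simp only [Complex.I_pow_four, Complex.I_sq] <;> ring

variable [StarModule ℂ R]

theorem AC.sa (h : AC σ ρ) (k : Fin 4) : star (pb σ ρ k) = pb σ ρ k := by
  fin_cases k <;> simp [pb, h.s1, h.s2, h.m3]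

theorem AC.star_ent (h : AC σ ρ) (k : Fin 4) (y : R) : star (ent σ ρ k y) = ent σ ρ k (star y) := by
  simp only [ent, star_smul, star_sum, star_mul, h.sa]
  fin_cases k <;>
  · simp [pb, Fin.sum_univ_four, mul_assoc, h.rel, h.m1, h.m2, h.m3, smul_smul]
    try abel

theorem pb_mem {P : StarSubalgebra ℂ R} (h1 : σ ∈ P) (h2 : ρ ∈ P) (k : Fin 4) : pb σ ρ k ∈ P := by
  fin_cases k
  exacts [one_mem P, h1, h2, P.smul_mem (mul_mem h1 h2) _]

theorem ent_mem {P : StarSubalgebra ℂ R} (h1 : σ ∈ P) (h2 : ρ ∈ P) (k : Fin 4) {y : R}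
    (hy : y ∈ P) : ent σ ρ k y ∈ P := P.smul_mem (sum_mem fun j _ =>
  mul_mem (mul_mem (pb_mem h1 h2 j) (mul_mem (pb_mem h1 h2 k) hy)) (pb_mem h1 h2 j)) _

omit [StarRing R] [StarModule ℂ R] in
theorem pb_comm {d : R} (h1 : σ * d = d * σ) (h2 : ρ * d = d * ρ) (k : Fin 4) :
    pb σ ρ k * d = d * pb σ ρ k := by
  fin_cases k
  · simp [pb]
  · exact h1
  · exact h2
  · simp [pb, mul_assoc, h2, ← mul_assoc σ, h1]

/-- The commutant of the pair in a subalgebra. -/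
def cm (D : StarSubalgebra ℂ R) (σ ρ : R) : StarSubalgebra ℂ R :=
  D ⊓ StarSubalgebra.centralizer ℂ {σ, ρ}

theorem AC.mem_cm (h : AC σ ρ) {D : StarSubalgebra ℂ R} {d : R} :
    d ∈ cm D σ ρ ↔ d ∈ D ∧ σ * d = d * σ ∧ ρ * d = d * ρ := by
  simp [cm, StarSubalgebra.mem_centralizer_iff, h.s1, h.s2]

end Pauli

variable {A H : Type*} [CStarAlgebra A] [NormedAddCommGroup H] [InnerProductSpace ℂ H]
  {τ : A →ₗ[ℂ] ℂ} {Λ : A →ₗ[ℂ] H} {σ ρ : A}

theorem AC.tr0 (h : AC σ ρ) (t : Tr τ Λ) {n : A} (h1 : σ * n = n * σ) (h2 : ρ * n = n * ρ) :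
    τ (σ * n) = 0 ∧ τ (ρ * n) = 0 ∧ τ (σ * (ρ * n)) = 0 := by
  have k : ∀ g y : A, g * g = 1 → g * y * g = -y → τ y = 0 := fun g y a b => by
    have := t.tr (g * y) g
    rwa [b, ← mul_assoc, a, one_mul, map_neg, neg_eq_self] at this
  refine ⟨k ρ _ h.m2 ?_, k σ _ h.m1 ?_, k σ _ h.m1 ?_⟩ <;> simp [mul_assoc, ← h1, ← h2, h.rel]

theorem AC.tr (h : AC σ ρ) (t : Tr τ Λ) {n : A} (h1 : σ * n = n * σ) (h2 : ρ * n = n * ρ)
    (k j : Fin 4) : τ (pb σ ρ k * (pb σ ρ j * n)) = if k = j then τ n else 0 := by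
  obtain ⟨a, b, c⟩ := h.tr0 t h1 h2
  fin_cases k <;> fin_cases j <;> simp [pb, mul_assoc, h.rel, a, b, c, smul_smul]

theorem AC.pars (h : AC σ ρ) (t : Tr τ Λ) {z : Fin 4 → A} {c : ℝ}
    (hz : ∀ k, σ * z k = z k * σ ∧ ρ * z k = z k * ρ) (hc : ∀ k, ‖Λ (z k)‖ < c) :
    ‖Λ ((2⁻¹ : ℂ) • ∑ k, pb σ ρ k * z k)‖ < c := by
  have c0 := (norm_nonneg _).trans_lt (hc 0)
  have e : ‖Λ (∑ k, pb σ ρ k * z k)‖ ^ 2 = ∑ k, ‖Λ (z k)‖ ^ 2 := by
    simp only [t.nsq]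
    simp only [star_sum, sum_mul_sum, map_sum, Complex.re_sum, star_mul, h.sa]
    refine sum_congr rfl fun k _ => ?_
    have s : ∀ g : A, star g = g → g * z k = z k * g → g * star (z k) = star (z k) * g :=
      fun g a b => by rw [← a, ← star_mul, ← b, star_mul, a]
    have : ∀ j, τ (star (z k) * pb σ ρ k * (pb σ ρ j * z j)) =
        if k = j then τ (z j * star (z k)) else 0 := fun j => by
      rw [mul_assoc, t.tr, mul_assoc, mul_assoc, h.tr t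
        (by rw [← mul_assoc, (hz j).1, mul_assoc, s σ h.s1 (hz k).1, mul_assoc])
        (by rw [← mul_assoc, (hz j).2, mul_assoc, s ρ h.s2 (hz k).2, mul_assoc])]
    simp [this, apply_ite Complex.re, t.tr (z k)]
  have := sum_lt_sum_of_nonempty univ_nonempty fun k (_ : k ∈ univ) =>
    pow_lt_pow_left₀ (hc k) (norm_nonneg _) two_ne_zero
  rw [← e] at this
  rw [map_smul, norm_smul]
  refine lt_of_pow_lt_pow_left₀ 2 c0.le ?_
  simp at this ⊢
  linarith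

theorem AC.prod (h : AC σ ρ) (t : Tr τ Λ) (t1 : τ 1 = 1) {n : A} (h1 : σ * n = n * σ)
    (h2 : ρ * n = n * ρ) {e : A} (he : e ∈ StarAlgebra.adjoin ℂ {σ, ρ}) :
    e * n = n * e ∧ τ (e * n) = τ e * τ n := by
  obtain ⟨a, b, c⟩ := h.tr0 t h1 h2
  obtain ⟨a', b', c'⟩ := h.tr0 t (n := 1) (by simp) (by simp)
  let Q : A → Prop := fun y => τ (y * n) = τ y * τ n
  let P : A → Prop := fun y => Q y ∧ Q (σ * y) ∧ Q (ρ * y) ∧ Q (σ * (ρ * y))
  have qn : ∀ y, Q (-y) ↔ Q y := fun y => by simp [Q]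
  constructor
  · refine adj_ind (P := fun e => e * n = n * e) ?_ (fun r => Algebra.commutes r n)
      (fun x y a b => by rw [add_mul, mul_add, a, b])
      (fun x y a b => by rw [mul_assoc, b, ← mul_assoc, a, mul_assoc]) he
    rintro _ (rfl | rfl) <;> simp [h.s1, h.s2, h1, h2]
  have := adj_ind (P := fun e => ∀ y, P y → P (e * y)) ?_ (fun r y p => by
      simp only [P, Q, ← Algebra.smul_def, mul_smul_comm, smul_mul_assoc, map_smul, smul_eq_mul,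
        mul_assoc r] at p ⊢
      simp [p])
    (fun x y a b z p => by
      have := a z p
      have := b z p
      simp only [P, Q, add_mul, mul_add, map_add] at *
      simp [*])
    (fun x y a b z p => by rw [mul_assoc]; exact a _ (b z p)) he 1
    (by simp only [P, Q, mul_one, mul_assoc] at a' b' c' ⊢; simp [a, b, c, a', b', c', t1])
  · simpa [Q] using this.1
  rintro _ (rfl | rfl) <;> simp only [h.s1, h.s2, and_self, P, h.rel, mul_neg, qn] <;> tauto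

variable [CompleteSpace H] {π : A →⋆ₐ[ℂ] (H →L[ℂ] H)}

/-- A semicircular family free from `D`. -/
def Fk (τ : A →ₗ[ℂ] ℂ) (Λ : A →ₗ[ℂ] H) (π : A →⋆ₐ[ℂ] (H →L[ℂ] H)) (D : StarSubalgebra ℂ A)
    {ι : Type*} (x : ι → A) : Prop := ∃ l, Cre τ Λ π l D ∧ ∀ i, π (x i) = l i + star (l i)

theorem Fk.up (h : Std τ Λ π) {ι κ : Type*} {D : StarSubalgebra ℂ A} {x : ι → A}
    (c : Fk τ Λ π D x) {K : Set ι} {e : κ → ι} (he : Function.Injective e) (hK : ∀ j, e j ∉ K) :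
    Fk τ Λ π (W h.toTr (D ∪ x '' K)) fun j => x (e j) :=
  c.elim fun _ c => ⟨_, c.1.up h (fun k _ => c.2 k) he hK, fun _ => c.2 _⟩

theorem Fk.comp {ι κ : Type*} {D : StarSubalgebra ℂ A} {x : ι → A}
    (c : Fk τ Λ π D x) {e : κ → ι} (he : Function.Injective e) : Fk τ Λ π D fun j => x (e j) :=
  c.elim fun l c => ⟨fun j => l (e j), ⟨fun _ => c.1.vac _, fun _ => c.1.ip1 _,
    fun _ _ g => c.1.ip0 _ _ (he.ne g)⟩, fun _ => c.2 _⟩

theorem Fk.sc (h : Std τ Λ π) {ι : Type*} {D : StarSubalgebra ℂ A} {x : ι → A}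
    (c : Fk τ Λ π D x) (i : ι) : Sc τ (x i) := c.elim fun _ c => c.1.sc h (c.2 i)

theorem Fk.split (h : Std τ Λ π) {ι : Type*} {D : StarSubalgebra ℂ A} {x : ι → A}
    (c : Fk τ Λ π D x) (a : AC σ ρ) (h1 : σ ∈ D) (h2 : ρ ∈ D) :
    Fk τ Λ π (cm D σ ρ) fun p : ι × Fin 4 => ent σ ρ p.2 (x p.1) := by
  obtain ⟨l, c, hx⟩ := c
  have a' : AC (π σ) (π ρ) := ⟨by rw [← map_star, a.s1], by rw [← map_star, a.s2],
    by rw [← map_mul, a.m1, map_one], by rw [← map_mul, a.m2, map_one],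
    by rw [← map_mul, a.m3, map_neg, map_mul]⟩
  have bD := pb_mem h1 h2
  have e1 : ∀ k (m : H →L[ℂ] H) ξ, star (ent (π σ) (π ρ) k m) ξ =
      (2⁻¹ : ℂ) • ∑ j, π (pb σ ρ j) (star m (π (pb σ ρ k * pb σ ρ j) ξ)) := fun k m ξ => by
    simp [ent, star_sum, a'.sa, map_pb]
  have e2 : ∀ k (m : H →L[ℂ] H) ξ, ent (π σ) (π ρ) k m ξ =
      (2⁻¹ : ℂ) • ∑ j, π (pb σ ρ j * pb σ ρ k) (m (π (pb σ ρ j) ξ)) := fun k m ξ => by
    simp [ent, map_pb]
  have key : ∀ (m m' : H →L[ℂ] H) (r : ℂ), (∀ d ∈ D, ∀ ξ, star m (π d (m' ξ)) = r • τ d • ξ) →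
      ∀ k k', ∀ d ∈ cm D σ ρ, ∀ ξ, star (ent (π σ) (π ρ) k m) (π d (ent (π σ) (π ρ) k' m' ξ)) =
        r • (if k = k' then τ d else 0) • ξ := fun m m' r hm k k' d hd ξ => by
    obtain ⟨d1, d2, d3⟩ := a.mem_cm.1 hd
    have : ∀ j j', star m (π (pb σ ρ k * pb σ ρ j * (d * (pb σ ρ j' * pb σ ρ k')))
        (m' (π (pb σ ρ j') ξ))) = r • τ (pb σ ρ k * (d * (pb σ ρ j * pb σ ρ j' * pb σ ρ k'))) •
          π (pb σ ρ j') ξ := fun j j' => by
      rw [hm _ (mul_mem (mul_mem (bD k) (bD j)) (mul_mem d1 (mul_mem (bD j') (bD k')))), mul_assoc,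
        ← mul_assoc _ d, pb_comm d2 d3, mul_assoc, mul_assoc]
    rw [← a.tr h.toTr d2 d3, pb_comm d2 d3 k']
    have z := congrArg (π · ξ) (a.dbl
      (τ ∘ₗ .mulLeft ℂ (pb σ ρ k) ∘ₗ .mulLeft ℂ d ∘ₗ .mulRight ℂ (pb σ ρ k')))
    simp only [map_sum, map_smul, ContinuousLinearMap.sum_apply, ContinuousLinearMap.smul_apply,
      LinearMap.comp_apply, LinearMap.mulLeft_apply, LinearMap.mulRight_apply, one_mul, map_one,
      ContinuousLinearMap.one_apply] at z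
    simp only [e1, e2, map_smul, map_sum, h.mul, this, ← smul_sum, z]
    module
  refine ⟨fun p => ent (π σ) (π ρ) p.2 (l p.1), ⟨fun i d hd => ?_, fun i d hd ξ => ?_,
    fun i j ij d hd ξ => ?_⟩, fun i => by rw [map_ent, hx, ent_add, a'.star_ent]⟩
  · simp only [e1, h.act, c.vac _ _ (mul_mem (mul_mem (bD _) (bD _)) hd.1), map_zero, sum_const_zero,
      smul_zero]
  · simpa using key _ _ 1 (by simpa using c.ip1 i.1) i.2 i.2 d hd ξ
  · by_cases e : i.1 = j.1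
    · rw [key _ _ 1 (by simpa [e] using c.ip1 j.1) i.2 j.2 d hd ξ,
        if_neg fun e' => ij (Prod.ext e e'), zero_smul, smul_zero]
    · rw [key _ _ 0 (by simpa using c.ip0 _ _ e) i.2 j.2 d hd ξ, zero_smul]

theorem W_cm (h : TA τ Λ) (a : AC σ ρ) {S : Set A} {D : StarSubalgebra ℂ A} (hD : W h.toTr S ≤ D)
    (hS : ∀ x ∈ S, σ * x = x * σ ∧ ρ * x = x * ρ) : W h.toTr S ≤ cm D σ ρ := fun _ hx =>
  a.mem_cm.2 ⟨hD hx, W_comm h a.s1 (fun x hx => (hS x hx).1) hx,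
    W_comm h a.s2 (fun x hx => (hS x hx).2) hx⟩

/-- The algebra contains three free semicircular elements. -/
def Div (h : Std τ Λ π) (D : StarSubalgebra ℂ A) : Prop :=
  ∃ (D0 : StarSubalgebra ℂ A) (x : Fin 3 → A), Fk τ Λ π D0 x ∧ W h.toTr (D0 ∪ Set.range x) ≤ D

theorem Cre.odd (h : Std τ Λ π) {D : StarSubalgebra ℂ A} {l : Unit → H →L[ℂ] H}
    (c : Cre τ Λ π l D) {x : A} (hx : π x = l () + star (l ())) (s1 : star σ = σ) (s2 : σ * σ = 1)
    (s3 : τ σ = 0) (s4 : σ ∈ D) : Sc τ ((((√2)⁻¹ : ℝ) : ℂ) • (x - σ * x * σ)) := by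
  have r2 : ((√2)⁻¹ : ℝ) * ((√2)⁻¹ : ℝ) * (2 : ℂ) = 1 := by
    norm_cast
    rw [← mul_inv, Real.mul_self_sqrt zero_le_two]
    norm_num
  generalize (√2)⁻¹ = r at *
  have p1 : star (π σ) = π σ := by rw [← map_star, s1]
  have p2 : ∀ ξ, π σ (π σ ξ) = ξ := fun ξ => by rw [h.mul, s2, map_one]; rfl
  have i1 : ∀ ξ, star (l ()) (l () ξ) = ξ := fun ξ => by
    simpa [h.one] using c.ip1 () 1 (one_mem _) ξ
  have i2 : ∀ ξ, star (l ()) (π σ (l () ξ)) = 0 := fun ξ => by rw [c.ip1 () σ s4, s3, zero_smul]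
  have e : star ((r : ℂ) • (l () - π σ * l () * π σ)) =
      (r : ℂ) • (star (l ()) - π σ * star (l ()) * π σ) := by
    simp only [star_smul, star_sub, star_mul, p1, Complex.star_def, Complex.conj_ofReal, mul_assoc]
  refine sc_of h (l := (r : ℂ) • (l () - π σ * l () * π σ)) (fun ξ => ?_) ?_ ?_
  · simp only [e, ContinuousLinearMap.smul_apply, ContinuousLinearMap.sub_apply, map_smul, map_sub,
      ContinuousLinearMap.mul_apply, p2, i1, i2, map_zero]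
    linear_combination (norm := module) r2 • ξ
  · simp only [e, ContinuousLinearMap.smul_apply, ContinuousLinearMap.sub_apply, h.act, mul_one,
      ContinuousLinearMap.mul_apply, c.vac () 1 (one_mem _), c.vac () σ s4, map_zero, sub_self,
      smul_zero]
  · simp only [e, map_smul, map_sub, map_mul, hx, mul_add, add_mul]
    module

theorem exists_AC (h : TA τ Λ) {x : A} {r : ℂ} (s1 : star σ = σ) (s2 : σ * σ = 1)
    (sc : Sc τ (r • (x - σ * x * σ))) : ∃ ρ ∈ W h.toTr {r • (x - σ * x * σ)}, AC σ ρ := by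
  obtain ⟨ρ, r0, r1, r2, -, r3⟩ := sc.sgn h
  have := r3 (Unitary.conjStarAlgAut ℂ A ⟨σ, by simp [Unitary.mem_iff, s1, s2]⟩)
    ⟨fun y => by simp [s1, h.tr _ σ, ← mul_assoc, s2], fun _ => False.elim⟩ (by
      simp [s1, mul_sub, sub_mul, mul_assoc, s2, ← mul_assoc σ σ, smul_sub])
  exact ⟨ρ, r0, s1, r1, s2, r2, by simpa [s1, ← mul_assoc, s2] using congrArg (σ * ·) this⟩

theorem Div.step {h : Std τ Λ π} {D : StarSubalgebra ℂ A} (c : Div h D) :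
    ∃ σ ∈ D, ∃ ρ ∈ D, AC σ ρ ∧ Div h (cm D σ ρ) := by
  obtain ⟨D0, x, f, le⟩ := c
  have le' : ∀ K, W h.toTr (D0 ∪ x '' K) ≤ D := fun K =>
    (W_mono (Set.union_subset_union_right _ (Set.image_subset_range _ _))).trans le
  obtain ⟨σ, s0, s1, s2, s3, -⟩ := (f.sc h 0).sgn h.toTA
  obtain ⟨l, c, hx⟩ := f.up h (K := {0}) (e := fun _ : Unit => 1) (fun _ _ _ => rfl) (by simp)
  obtain ⟨ρ, r0, a⟩ := exists_AC h.toTA s1 s2 (c.odd h (hx ()) s1 s2 s3 (W_mono (by simp) s0))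
  have s5 : σ ∈ W h.toTr (D0 ∪ x '' {0, 1}) := W_mono (by simp) s0
  have x1 : x 1 ∈ W h.toTr (D0 ∪ x '' {0, 1}) := sub_W (by simp)
  have r4 : ρ ∈ W h.toTr (D0 ∪ x '' {0, 1}) := W_sub (fun _ e => e ▸ StarSubalgebra.smul_mem _
    (sub_mem x1 (mul_mem (mul_mem s5 x1) s5)) _) r0
  have f2 := (f.up h (K := {0, 1}) (e := fun _ : Unit => 2) (fun _ _ _ => rfl)
    (by simp)).split h a s5 r4
  have m : W h.toTr (D0 ∪ x '' {0, 1}) ≤ W h.toTr (D0 ∪ Set.range x) :=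
    W_mono (Set.union_subset_union_right _ (Set.image_subset_range _ _))
  refine ⟨σ, le' _ s5, ρ, le' _ r4, a, _, _, f2.comp (e := fun i : Fin 3 => ((), i.succ))
    (fun i j e => by simpa using e), W_cm h.toTA a (le_trans (W_sub ?_) le) ?_⟩
  · rintro _ (hd | ⟨i, rfl⟩)
    exacts [m hd.1, ent_mem (m s5) (m r4) _ (sub_W (.inr ⟨2, rfl⟩))]
  · rintro _ (hd | ⟨i, rfl⟩)
    exacts [(a.mem_cm.1 hd).2, a.comm _ _]

/-- A model: a semicircular family free from `D` with extension of automorphisms. -/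
structure Mod (h : Std τ Λ π) (F : Set A) (D : StarSubalgebra ℂ A) {ι : Type*} (x : ι → A) :
    Prop where
  fk : Fk τ Λ π D x
  ext : Ext h.toTr F (W h.toTr (D ∪ Set.range x))

theorem Mod.split {h : Std τ Λ π} {F : Set A} {D : StarSubalgebra ℂ A} {ι : Type*} {x : ι → A}
    (m : Mod h F D x) (a : AC σ ρ) (h1 : σ ∈ D) (h2 : ρ ∈ D) :
    Mod h (F ∪ StarAlgebra.adjoin ℂ {σ, ρ}) (cm D σ ρ)
      fun p : ι × Fin 4 => ent σ ρ p.2 (x p.1) := by
  have s1 : σ ∈ W h.toTr (D ∪ Set.range x) := sub_W (.inl h1)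
  have s2 : ρ ∈ W h.toTr (D ∪ Set.range x) := sub_W (.inl h2)
  have le : W h.toTr (cm D σ ρ ∪ Set.range fun p : ι × Fin 4 => ent σ ρ p.2 (x p.1)) ≤
      cm (W h.toTr (D ∪ Set.range x)) σ ρ := by
    refine W_cm h.toTA a (W_sub ?_) ?_
    · rintro _ (hd | ⟨i, rfl⟩)
      exacts [sub_W (.inl hd.1), ent_mem s1 s2 _ (sub_W (by simp))]
    · rintro _ (hd | ⟨i, rfl⟩)
      exacts [(a.mem_cm.1 hd).2, a.comm _ _]
  refine ⟨m.fk.split h a h1 h2, m.ext.step (fun e he n hn => a.prod h.toTr h.one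
    (a.mem_cm.1 (le hn)).2.1 (a.mem_cm.1 (le hn)).2.2 he) (le_antisymm (W_sub ?_) (W_sub ?_))⟩
  · rintro y (hy | hy)
    · exact StarAlgebra.adjoin_le (by rintro _ (rfl | rfl) <;> assumption) hy
    · exact (le hy).1
  · intro y hy
    rw [← a.sum y]
    refine StarSubalgebra.smul_mem _ (sum_mem fun k _ => mul_mem (sub_W (.inl (pb_mem
      (StarAlgebra.subset_adjoin _ _ (by simp)) (StarAlgebra.subset_adjoin _ _ (by simp)) k)))
      (sub_W (.inr (sub_W ?_)))) _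
    rcases hy with hy | ⟨i, rfl⟩
    exacts [.inl (a.mem_cm.2 ⟨ent_mem h1 h2 k hy, a.comm k y⟩), .inr ⟨(i, k), rfl⟩]

end Vale.Agent.P086
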