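import Vale.Agent.P086.Model

/-! Capturing many Haar unitaries by a small perturbation. -/

namespace Vale.Agent.P086

open Vale.Agent.P104 Vale.Agent.P085 Filter Topology Finset
open scoped InnerProductSpace CStarAlgebra
open Complex (I)

theorem design {ι : Type*} [DecidableEq ι] {S T : Finset ι} {m B d : ℕ} (B0 : 0 < B)
    (hT : T.card ≤ m * B) (hS : d * (m + B * d) ≤ S.card) :
    ∃ (s : ι → ℕ → ι) (N : ι → Finset ι) (lay : ι → ℕ),
      (∀ σ, (N σ).card ≤ B ∧ ∀ p ∈ N σ, p ∈ T ∧ lay σ < d) ∧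
      (∀ t ∈ T, ∀ j < d, s t j ∈ S ∧ t ∈ N (s t j) ∧ lay (s t j) = j) ∧
      ∀ t ∈ T, ∀ j < d, ∀ k < j, ∀ p ∈ N (s t j), p ∈ N (s t k) → p = t := by
  classical
  obtain ⟨n, n1, n2⟩ : ∃ n : ι → ℕ, (∀ t ∈ T, n t < T.card) ∧ ∀ t ∈ T, ∀ p ∈ T, n t = n p → t = p :=
    ⟨fun t => if h : t ∈ T then T.equivFin ⟨t, h⟩ else 0, fun t h => by simp [h],
      fun t h p h' e => by simpa [h, h', Fin.val_inj] using e⟩
  obtain ⟨e, e1, e2⟩ : ∃ e : ι → ℕ → ι, (∀ t, ∀ k < S.card, e t k ∈ S) ∧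
      ∀ t p, ∀ k < S.card, ∀ j < S.card, e t k = e p j → k = j :=
    ⟨fun t k => if h : k < S.card then S.equivFin.symm ⟨k, h⟩ else t, fun t k h => by simp [h],
      fun t p k h j h' e => by simpa [h, h'] using e⟩
  set R := m + B * d with hR
  let c : ι → ℕ → ℕ := fun t j => n t / B + n t % B * j
  have c1 : ∀ t ∈ T, ∀ j < d, c t j < R := fun t ht j hj => by
    have a1 : n t / B < m := (Nat.div_lt_iff_lt_mul B0).2 ((n1 t ht).trans_le hT)
    have a2 : n t % B * j ≤ B * d := Nat.mul_le_mul (Nat.mod_lt _ B0).le hj.le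
    simp only [c]
    omega
  have c2 : ∀ t ∈ T, ∀ j < d, c t j + R * j < S.card := fun t ht j hj => by
    have := c1 t ht j hj
    have : R * (j + 1) ≤ R * d := Nat.mul_le_mul_left _ hj
    nlinarith
  let s : ι → ℕ → ι := fun t j => e t (c t j + R * j)
  have inj : ∀ t ∈ T, ∀ j < d, ∀ p ∈ T, ∀ k < d, s p k = s t j → k = j ∧ c p j = c t j := by
    intro t ht j hj p hp k hk h
    have a3 := e2 _ _ _ (c2 p hp k hk) _ (c2 t ht j hj) h
    have R0 : 0 < R := (Nat.zero_le _).trans_lt (c1 t ht j hj)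
    have a4 : k = j := by
      have := congrArg (· / R) a3
      simpa [Nat.add_mul_div_left _ _ R0, Nat.div_eq_of_lt (c1 t ht j hj),
        Nat.div_eq_of_lt (c1 p hp k hk)] using this
    subst a4
    exact ⟨rfl, by omega⟩
  have ext : ∀ p ∈ T, ∀ t ∈ T, ∀ j, c p j = c t j → n p % B = n t % B → p = t :=
    fun p hp t ht j h1 h2 => by
      simp only [c, h2] at h1
      refine n2 p hp t ht ?_
      rw [← Nat.div_add_mod (n p) B, ← Nat.div_add_mod (n t) B, h2, Nat.add_right_cancel h1]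
  refine ⟨s, fun σ => T.filter fun t => ∃ j < d, s t j = σ,
    fun σ => if h : ∃ j < d, ∃ t ∈ T, s t j = σ then h.choose else 0, fun σ => ⟨?_, fun p hp => ?_⟩,
    fun t ht j hj => ⟨e1 _ _ (c2 t ht j hj), mem_filter.2 ⟨ht, j, hj, rfl⟩, ?_⟩, ?_⟩
  · rw [← card_range B]
    refine card_le_card_of_injOn (fun t => n t % B) (fun t _ => by simpa using Nat.mod_lt _ B0) ?_
    intro p hp t ht h
    obtain ⟨hp', k, hk, rfl⟩ := mem_filter.1 hp
    obtain ⟨ht', j, hj, e⟩ := mem_filter.1 ht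
    exact ext p hp' t ht' k (inj p hp' k hk t ht' j hj e).2.symm h
  · obtain ⟨hp, k, hk, e⟩ := mem_filter.1 hp
    have h : ∃ j < d, ∃ t ∈ T, s t j = σ := ⟨k, hk, p, hp, e⟩
    beta_reduce
    rw [dif_pos h]
    exact ⟨hp, h.choose_spec.1⟩
  · have h : ∃ k < d, ∃ p ∈ T, s p k = s t j := ⟨j, hj, t, ht, rfl⟩
    beta_reduce
    rw [dif_pos h]
    obtain ⟨a, p, hp, b⟩ := h.choose_spec
    exact (inj t ht j hj p hp _ a b).1
  · intro t ht j hj k hk p h1 h2
    obtain ⟨hp, a, ha, e1⟩ := mem_filter.1 h1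
    obtain ⟨-, b, hb, e2⟩ := mem_filter.1 h2
    have a1 := (inj t ht j hj p hp a ha e1).2
    have a2 := (inj t ht k (by omega) p hp b hb e2).2
    refine ext p hp t ht j a1 ?_
    simp only [c] at a1 a2
    generalize n p % B = x at *
    generalize n t % B = y at *
    have : ((x : ℤ) - y) * ((j : ℤ) - k) = 0 := by
      zify at a1 a2
      linear_combination a1 - a2
    rcases mul_eq_zero.1 this with h | h <;> omega

variable {A H : Type*} [CStarAlgebra A]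

theorem map_pr (α : A ≃⋆ₐ[ℂ] A) (x : ℕ → A) (n : ℕ) : α (pr x n) = pr (fun j => α (x j)) n := by
  induction n with
  | zero => exact map_one α
  | succ n ih => rw [pr, pr, map_mul, ih]

theorem pr_near {w Φ : ℕ → A} {V : A} {β : ℝ} {d : ℕ} (hw : ∀ j, w j ∈ unitary A)
    (hV : V ∈ unitary A) (hΦ : ∀ j < d, ‖Φ j‖ ≤ 1)
    (h : ∀ j < d, ‖Φ j - star (pr w j) * V * pr w j‖ ≤ β) (n : ℕ) (hn : n ≤ d) :
    ‖pr (fun j => Φ j * w j) n - V ^ n * pr w n‖ ≤ n * β := by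
  induction n with
  | zero => simp [pr]
  | succ n ih =>
    have hp : pr w n ∈ unitary A := pr_mem fun j _ => hw j
    have e : pr (fun j => Φ j * w j) (n + 1) - V ^ (n + 1) * pr w (n + 1) =
        ((pr (fun j => Φ j * w j) n - V ^ n * pr w n) * Φ n +
          V ^ n * pr w n * (Φ n - star (pr w n) * V * pr w n)) * w n := by
      simp only [pr, mul_sub, sub_mul, add_mul, mul_assoc, ← mul_assoc (pr w n) (star _), hp.2,
        one_mul, pow_succ]
      abel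
    rw [e, CStarRing.norm_mul_mem_unitary _ (hw n)]
    exact (norm_add_le_of_le ((norm_mul_le _ _).trans (mul_le_mul (ih (by omega)) (hΦ n (by omega))
      (norm_nonneg _) ((norm_nonneg _).trans (ih (by omega)))))
      ((CStarRing.norm_mem_unitary_mul _ (mul_mem (pow_mem hV n) hp)).trans_le
        (h n (by omega)))).trans_eq (by push_cast; ring)

theorem steer2 [PartialOrder A] [StarOrderedRing A] {T : Type*} [Fintype T] [DecidableEq T]
    {N : ℕ → Finset T} {Y : ℕ → T → A} {w : ℕ → A} {d B : ℕ} {t : T} {y : A} {η : ℝ}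
    (hY : ∀ j p, star (Y j p) = Y j p ∧ ‖Y j p‖ ≤ 1) (hN : ∀ j, (N j).card ≤ B) (η0 : 0 ≤ η)
    (hB : B * η ≤ 1) (η1 : η ≤ 1) (hw : ∀ j, w j ∈ unitary A) (ht : ∀ j < d, t ∈ N j)
    (hs : ∀ j < d, ∀ k < j, ∀ p ∈ N j, p ∈ N k → p = t) (hy : star y = y ∧ ‖y‖ ≤ 1)
    (hYy : ∀ j < d, Y j t = star (pr w j) * y * pr w j) {W : Finset (T → Bool)}
    (hW : W = univ.filter fun a => a t = true) :
    ‖(W.card : ℝ)⁻¹ • ∑ ε ∈ W, pr (fun j => un (amp (N j) (Y j) η ε) * w j) d -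
      un (η • y) ^ d * pr w d‖ ≤ d * ((B + 1) * η ^ 2) := by
  have W0 : (0 : ℝ) < W.card := by
    exact_mod_cast card_pos.2 ⟨fun _ => true, by simp [hW]⟩
  have Wt : ∀ ε, ε ∈ W ↔ ε t = true := fun ε => by simp [hW]
  have pw : ∀ (S : Finset T), ∀ a ∈ W, ∀ c ∈ W, S.piecewise a c t = true := fun S a ha c hc => by
    by_cases h : t ∈ S <;> simp [h, (Wt _).1 ha, (Wt _).1 hc]
  have f : ∀ n ≤ d, ∑ ε ∈ W, pr (fun j => un (amp (N j) (Y j) η ε) * w j) n = (W.card : ℝ) •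
      pr (fun j => ((W.card : ℝ)⁻¹ • ∑ ε ∈ W, un (amp (N j) (Y j) η ε)) * w j) n := fun n hn => by
    induction n with
    | zero => simp [pr, Nat.cast_smul_eq_nsmul]
    | succ n ih =>
      have := sum_mul_indep W (N n) (fun a ha c hc => (Wt _).2 (pw _ a ha c hc))
        (fun ε => pr (fun j => un (amp (N j) (Y j) η ε) * w j) n)
        (fun ε => un (amp (N n) (Y n) η ε) * w n) (fun a ha c hc => pr_congr fun j hj => ?_)
        (fun a ha c hc => ?_)
      · simp only [pr]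
        rw [ih (by omega), ← Nat.cast_smul_eq_nsmul ℝ, ← inv_smul_eq_iff₀ W0.ne'] at this
        rw [← this, ← sum_mul]
        simp only [mul_smul_comm, smul_mul_assoc, smul_comm (W.card : ℝ)⁻¹ (W.card : ℝ)]
      · refine congrArg (fun z => un (η • z) * w j) (sum_congr rfl fun p hp => ?_)
        by_cases h : p ∈ N n
        · rw [hs n (by omega) j hj p h hp, pw _ a ha c hc, (Wt _).1 hc]
        · rw [piecewise_eq_of_notMem _ _ _ h]
      · exact congrArg (fun z => un (η • z) * w n) (sum_congr rfl fun p hp => by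
          rw [piecewise_eq_of_mem _ _ _ hp])
  have n1 : ‖η • y‖ ≤ η := by
    rw [norm_smul, Real.norm_of_nonneg η0]
    exact mul_le_of_le_one_right η0 hy.2
  obtain ⟨v1, v2, v3, -⟩ := un_spec (a := η • y) (by simp [hy.1]) (n1.trans η1)
  have v4 : ‖1 + I • η • y - un (η • y)‖ ≤ η ^ 2 :=
    (CStarAlgebra.norm_le_norm_of_nonneg_of_le v2 v3).trans ((norm_pow_le' _ two_pos).trans
      (pow_le_pow_left₀ (norm_nonneg _) n1 2))
  rw [f d le_rfl, inv_smul_smul₀ W0.ne']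
  refine pr_near hw v1 (fun j hj => (avg_un (hY j) (hN j) η0 hB (ht j hj) true hW).1)
    (fun j hj => ?_) d le_rfl
  have hp : pr w j ∈ unitary A := pr_mem fun j _ => hw j
  have a := (avg_un (hY j) (hN j) η0 hB (ht j hj) true hW).2
  rw [← CStarRing.norm_mem_unitary_mul _ (Unitary.star_mem hp),
    ← CStarRing.norm_mul_mem_unitary _ hp] at v4
  refine le_trans (le_of_eq (congrArg _ ?_)) ((norm_add_le_of_le a v4).trans_eq (by ring))
  simp only [hYy j hj, sg, if_true, mul_sub, mul_add, sub_mul, add_mul, mul_one, one_mul, hp.1,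
    mul_smul_comm, smul_mul_assoc, ← Complex.coe_smul η]
  module

variable [NormedAddCommGroup H] [InnerProductSpace ℂ H] {τ : A →ₗ[ℂ] ℂ} {Λ : A →ₗ[ℂ] H}

theorem Au.fix (h : TA τ Λ) {F S : Set A} {α : A ≃⋆ₐ[ℂ] A} (hα : Au τ F α) (hS : ∀ x ∈ S, α x = x)
    {x : A} (hx : x ∈ W h.toTr S) : α x = x := fix_W h hα.1 hS hx

theorem multi (h : TA τ Λ) {ι : Type*} [DecidableEq ι] {F D : Set A} {x y v : ι → A} {T : Finset ι}
    (rk : ι → ℕ) (hy : ∀ s, y s ∈ W h.toTr {x s})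
    (hv : ∀ s ∈ T, v s ∈ W h.toTr (D ∪ x '' {j | j = s ∨ j ∉ T ∨ rk j < rk s}))
    (hα : ∀ s ∈ T, ∃ α, Au τ (F ∪ D) α ∧ (∀ j, j ≠ s → α (x j) = x j) ∧ α (y s) = v s) :
    ∃ β, Au τ (F ∪ D) β ∧ (∀ j, j ∉ T → β (x j) = x j) ∧ ∀ s ∈ T, β (y s) = v s := by
  have : ∀ T' ⊆ T, ∃ β, Au τ (F ∪ D) β ∧ (∀ j, j ∉ T' → β (x j) = x j) ∧
      ∀ s ∈ T', β (y s) = v s := fun T' => by
    induction T' using induction_on_max_value rk with
    | empty => exact fun _ => ⟨_, .refl _, fun _ _ => rfl, by simp⟩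
    | insert s T' hs hr ih =>
      intro hT
      obtain ⟨β, b1, b2, b3⟩ := ih ((subset_insert _ _).trans hT)
      obtain ⟨α, a1, a2, a3⟩ := hα s (hT (mem_insert_self _ _))
      refine ⟨_, b1.trans a1, fun j hj => ?_, fun j hj => ?_⟩
      · rw [mem_insert, not_or] at hj
        rw [StarAlgEquiv.trans_apply, b2 j hj.2, a2 j hj.1]
      rw [StarAlgEquiv.trans_apply]
      rcases mem_insert.1 hj with rfl | hj'
      · rw [b1.fix h (by rintro _ rfl; exact b2 j hs) (hy j), a3]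
      · rw [b3 j hj']
        refine a1.fix h ?_ (hv j (hT hj))
        rintro _ (hd | ⟨k, hk, rfl⟩)
        · exact a1.2 _ (.inr hd)
        refine a2 k ?_
        rintro rfl
        rcases hk with rfl | hk | hk
        exacts [hs hj', hk (hT (mem_insert_self _ _)), (hr j hj').not_gt hk]
  exact this T subset_rfl

theorem G_mem (h : Tr τ Λ) {S : Set A} {x : A} (hx : x ∈ S) : G x ∈ W h S :=
  fn_mem inferInstance _ (sub_W hx)

variable [CompleteSpace H] {π : A →⋆ₐ[ℂ] (H →L[ℂ] H)} {h : Std τ Λ π} {F : Set A}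
  {D : StarSubalgebra ℂ A} {ι : Type*} {x : ι → A}

theorem Fk.hf (h : Std τ Λ π) (m : Fk τ Λ π D x) (i : ι) :
    HF τ (G (x i)) (W h.toTr (D ∪ x '' {i}ᶜ)) :=
  (m.up h (e := fun _ : Unit => i) (fun _ _ _ => rfl) (by simp)).elim fun _ c => c.1.hf h (c.2 ())

theorem Mod.mv (m : Mod h F D x) (i : ι) {u : A} (hu : HF τ u (W h.toTr (D ∪ x '' {i}ᶜ)))
    (h1 : u ∈ W h.toTr (D ∪ Set.range x))
    (h2 : G (x i) ∈ W h.toTr (W h.toTr (D ∪ x '' {i}ᶜ) ∪ {u})) :
    ∃ α, Au τ (F ∪ D) α ∧ (∀ j, j ≠ i → α (x j) = x j) ∧ α (G (x i)) = u := by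
  have p0 := m.fk.hf h i
  have p1 : ∀ d ∈ D, d ∈ W h.toTr (D ∪ x '' {i}ᶜ) := fun d hd => sub_W (.inl hd)
  have p2 : ∀ j, j ≠ i → x j ∈ W h.toTr (D ∪ x '' {i}ᶜ) := fun j hj => sub_W (.inr ⟨j, hj, rfl⟩)
  have p3 : W h.toTr (D ∪ x '' {i}ᶜ) ≤ W h.toTr (D ∪ Set.range x) :=
    W_mono (Set.union_subset_union_right _ (Set.image_subset_range _ _))
  generalize W h.toTr (D ∪ x '' {i}ᶜ) = P at *
  have e : ∀ u ∈ W h.toTr (D ∪ Set.range x), G (x i) ∈ W h.toTr (P ∪ {u}) →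
      W h.toTr (P ∪ {u}) = W h.toTr (D ∪ Set.range x) := fun u h1 h2 => by
    refine le_antisymm (W_sub ?_) (W_sub ?_)
    · rintro _ (hd | rfl)
      exacts [p3 hd, h1]
    · rintro _ (hd | ⟨j, rfl⟩)
      · exact sub_W (.inl (p1 _ hd))
      rcases eq_or_ne j i with rfl | ji
      · exact W_sub (by rintro _ rfl; exact h2) ((m.fk.sc h j).mem_W h.toTr)
      · exact sub_W (.inl (p2 j ji))
  obtain ⟨α, a1, a2⟩ := m.ext _ (p0.gr h.one hu)
    (by rw [← e _ (G_mem _ (.inr ⟨i, rfl⟩)) (sub_W (.inr rfl))]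
        simp only [Set.image_union, Set.image_image, Set.image_singleton, Set.image_id'])
    (by rw [← e _ h1 h2]
        simp only [Set.image_union, Set.image_image, Set.image_singleton, Set.image_id'])
  exact ⟨α, ⟨a1.1, fun d hd => hd.elim (a1.2 d) fun hd => a2 (d, d) (.inl ⟨d, p1 d hd, rfl⟩)⟩,
    fun j hj => a2 (_, _) (.inl ⟨_, p2 j hj, rfl⟩), a2 (_, _) (.inr rfl)⟩

theorem Mod.mvR (m : Mod h F D x) (i : ι) {w : A} (hw : w ∈ unitary A)
    (h1 : w ∈ W h.toTr (D ∪ x '' {i}ᶜ)) :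
    ∃ α, Au τ (F ∪ D) α ∧ (∀ j, j ≠ i → α (x j) = x j) ∧ α (G (x i)) = G (x i) * w :=
  m.mv i ((m.fk.hf h i).mul h.toTr hw h1) (mul_mem (G_mem _ (by simp))
    (W_mono (Set.union_subset_union_right _ (Set.image_subset_range _ _)) h1)) (by
      have := mul_mem (sub_W (h := h.toTr) (S := W h.toTr (D ∪ x '' {i}ᶜ) ∪ {G (x i) * w}) (.inr rfl))
        (sub_W (.inl (star_mem h1)))
      rwa [mul_assoc, hw.2, mul_one] at this)

theorem Mod.mvL (m : Mod h F D x) (i : ι) {w : A} (hw : w ∈ unitary A)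
    (h1 : w ∈ W h.toTr (D ∪ x '' {i}ᶜ)) :
    ∃ α, Au τ (F ∪ D) α ∧ (∀ j, j ≠ i → α (x j) = x j) ∧ α (G (x i)) = w * G (x i) :=
  m.mv i ((m.fk.hf h i).mul' h.toTr hw h1) (mul_mem
    (W_mono (Set.union_subset_union_right _ (Set.image_subset_range _ _)) h1) (G_mem _ (by simp))) (by
      have := mul_mem (sub_W (.inl (star_mem h1)))
        (sub_W (h := h.toTr) (S := W h.toTr (D ∪ x '' {i}ᶜ) ∪ {w * G (x i)}) (.inr rfl))
      rwa [← mul_assoc, hw.1, one_mul] at this)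

theorem Mod.mvS (m : Mod h F D x) (i : ι) :
    ∃ α, Au τ (F ∪ D) α ∧ (∀ j, j ≠ i → α (x j) = x j) ∧ α (x i) = -x i := by
  have sc := m.fk.sc h i
  obtain ⟨α, a1, a2, a3⟩ := m.mv i (m.fk.hf h i).star (star_mem (G_mem _ (by simp))) (by
    simpa using star_mem
      (sub_W (h := h.toTr) (S := W h.toTr (D ∪ x '' {i}ᶜ) ∪ {star (G (x i))}) (.inr rfl)))
  exact ⟨α, a1, a2, G_inj h.toTA (sc.map a1) sc.neg (by rw [G_neg sc.sa, ← a3, G, G, map_fn α _ sc.sa])⟩

end Vale.Agent.P086
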