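import Vale.Agent.P086.Shot

/-! The perturbation step. -/

namespace Vale.Agent.P086

open Vale.Agent.P104 Vale.Agent.P085 Filter Topology Finset
open scoped InnerProductSpace CStarAlgebra
open Complex (I)

variable {A H : Type*} [CStarAlgebra A] [NormedAddCommGroup H] [InnerProductSpace ℂ H]
  {τ : A →ₗ[ℂ] ℂ} {Λ : A →ₗ[ℂ] H}

theorem map_rsmul (α : A ≃⋆ₐ[ℂ] A) (r : ℝ) (x : A) : α (r • x) = r • α x := by
  rw [← Complex.coe_smul, map_smul, Complex.coe_smul]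

theorem TA.unit (h : TA τ Λ) {u : A} (hu : u ∈ unitary A) : ‖Λ u‖ = 1 := by
  simpa [h.n1] using h.toTr.norm_ul hu 1

theorem avg_dist (h : TA τ Λ) {Ω : Type*} {W : Finset Ω} (W0 : W.Nonempty) {z q : A} {Q : Ω → A}
    (hz : z ∈ unitary A) (hq : q ∈ unitary A) (hQ : ∀ ε ∈ W, τ (star z * Q ε) = τ (star z * q))
    {c : ℝ} (hc : ‖(W.card : ℝ)⁻¹ • ∑ ε ∈ W, Q ε - z‖ ≤ c) : ‖Λ (z - q)‖ ^ 2 ≤ 2 * c := by
  have W1 : (W.card : ℂ) ≠ 0 := by exact_mod_cast W0.card_pos.ne'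
  have a := (tr_le h.toTr _).trans (mul_le_mul_of_nonneg_left ((le1 h.toTr _).trans
    (mul_le_mul_of_nonneg_right ((CStarRing.norm_mem_unitary_mul _ (Unitary.star_mem hz)).trans_le hc)
      (norm_nonneg _))) (norm_nonneg _))
  rw [mul_sub, hz.1, ← Complex.coe_smul, mul_smul_comm, mul_sum, map_sub, map_smul, map_sum,
    sum_congr rfl hQ, sum_const, nsmul_eq_mul, smul_eq_mul, Complex.ofReal_inv, Complex.ofReal_natCast,
    inv_mul_cancel_left₀ W1, h.one, h.n1] at a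
  have b := (abs_le.1 ((Complex.abs_re_le_norm _).trans a)).1
  rw [map_sub, @norm_sub_sq ℂ, h.unit hz, h.unit hq, h.inner]
  simp at b ⊢
  linarith

variable [CompleteSpace H] {π : A →⋆ₐ[ℂ] (H →L[ℂ] H)} {h : Std τ Λ π} {F : Set A}
  {D : StarSubalgebra ℂ A} {ι : Type*} {x : ι → A}

theorem Mod.signs [DecidableEq ι] (m : Mod h F D x) (T : Finset ι) (d : ℕ) (ε : ι → Bool) :
    ∃ γ, Au τ (F ∪ D) γ ∧ (∀ j, j ∉ T ∨ ε j = true → γ (G (x j)) = G (x j)) ∧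
      ∀ t ∈ T, γ (fn (rt d) (x t)) = sg (ε t) • fn (rt d) (x t) := by
  obtain ⟨γ, g1, g2, g3⟩ := multi h.toTA (F := F) (D := D) (x := x) (y := x) (T := T)
    (v := fun t => sg (ε t) • x t) (fun _ => 0) (fun _ => sub_W rfl)
    (fun t _ => rsmul_mem _ (sub_W (.inr ⟨t, .inl rfl, rfl⟩))) fun t _ => by
      cases ε t
      · simpa [sg] using m.mvS t
      · exact ⟨_, .refl _, fun _ _ => rfl, by simp [sg]⟩
  refine ⟨γ, g1, fun j hj => ?_, fun t ht => ?_⟩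
  · rw [G, map_fn γ _ (m.fk.sc h j).sa]
    by_cases c : j ∈ T
    · simp [g3 j c, hj.resolve_left (not_not.2 c), sg]
    · rw [g2 j c]
  · rw [map_fn γ _ (m.fk.sc h t).sa, g3 t ht]
    cases ε t <;> simp [sg, rt_neg d (m.fk.sc h t).sa]

theorem Mod.shot [Fintype ι] [DecidableEq ι] (m : Mod h F D x) {S T : Finset ι}
    (hST : Disjoint S T) {k B d : ℕ} (B0 : 0 < B) (hT : T.card ≤ k * B)
    (hS : d * (k + B * d) ≤ S.card) (hd : 2 ≤ d) {η : ℝ} (hη : η = Real.pi / d) (hB : B * η ≤ 1) :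
    ∃ β, Au τ (F ∪ D) β ∧ (∀ j, j ∉ S → j ∉ T → β (x j) = x j) ∧
      (∀ σ ∈ S, ‖Λ (β (G (x σ)) - G (x σ))‖ ^ 2 ≤ 2 * (B * η ^ 2)) ∧
      ∀ t ∈ T, ∃ p ∈ unitary A, p ∈ W h.toTr ((fun i => β (x i)) '' S) ∧
        ‖Λ (G (x t) - p)‖ ^ 2 ≤ 2 * (d * ((B + 1) * η ^ 2)) := by
  let _ := CStarAlgebra.spectralOrder A
  have := CStarAlgebra.spectralOrderedRing A
  obtain ⟨s, N, lay, d1, d2, d3⟩ := design B0 hT hS
  have sc := m.fk.sc h
  have au : ∀ i, G (x i) ∈ unitary A := fun i => ex_unit 1 (sc i).sa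
  have η0 : 0 ≤ η := hη ▸ by positivity
  have η1 : η ≤ 1 := le_trans (le_mul_of_one_le_left η0 (by exact_mod_cast B0)) hB
  have ST : ∀ i ∈ S, i ∉ T := fun i hi => disjoint_left.1 hST hi
  obtain ⟨ω, hω⟩ : ∃ ω : ι → ℕ → A, ∀ t n, ω t n = pr (fun j => G (x (s t j))) n := ⟨_, fun _ _ => rfl⟩
  have ωu : ∀ t n, ω t n ∈ unitary A := fun t n => hω t n ▸ pr_mem fun j _ => au _
  obtain ⟨Y, hY⟩ : ∃ Y : ι → ι → A, ∀ σ p,
    Y σ p = star (ω p (lay σ)) * fn (rt d) (x p) * ω p (lay σ) := ⟨_, fun _ _ => rfl⟩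
  have y1 := fun p => rt_spec (d := d) (by omega) (sc p)
  have Y1 : ∀ σ p, star (Y σ p) = Y σ p ∧ ‖Y σ p‖ ≤ 1 := fun σ p => by
    refine ⟨by rw [hY, star_mul, star_mul, star_star, (y1 p).1, mul_assoc], ?_⟩
    rw [hY, CStarRing.norm_mul_mem_unitary _ (ωu _ _),
      CStarRing.norm_mem_unitary_mul _ (Unitary.star_mem (ωu _ _))]
    exact (y1 p).2
  have am := fun σ => amp_spec (Y1 σ) (d1 σ).1 η0 hB
  obtain ⟨U, hU⟩ : ∃ U : (ι → Bool) → ι → A, ∀ ε σ, U ε σ = un (amp (N σ) (Y σ) η ε) :=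
    ⟨_, fun _ _ => rfl⟩
  have Uu : ∀ ε σ, U ε σ ∈ unitary A := fun ε σ => hU ε σ ▸ (un_spec (am σ ε).1 (am σ ε).2).1
  choose γ g1 g2 g3 using m.signs T d
  have g4 : ∀ ε, ∀ t ∈ T, ∀ n ≤ d, γ ε (ω t n) = ω t n := fun ε t ht n hn => by
    rw [hω, map_pr]
    exact pr_congr fun j hj => g2 ε _ (.inl (ST _ (d2 t ht j (by omega)).1))
  have g5 : ∀ ε σ, γ ε (U (fun _ => true) σ) = U ε σ := fun ε σ => by
    rw [hU, hU, map_un _ (am σ _).1 (am σ _).2, amp, amp, map_rsmul, map_sum]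
    refine congrArg (fun z => un (η • z)) (sum_congr rfl fun p hp => ?_)
    obtain ⟨p1, p2⟩ := (d1 σ).2 p hp
    simp [sg, hY, map_star, g4 ε p p1 _ p2.le, g3 ε p p1]
  have Um : ∀ σ, U (fun _ => true) σ ∈ W h.toTr (D ∪ x '' {j | j ∉ S ∨ lay j < lay σ}) := fun σ => by
    rw [hU]
    refine un_mem inferInstance (am σ _).1 (am σ _).2 (rsmul_mem _ (sum_mem fun p hp =>
      rsmul_mem _ ?_))
    obtain ⟨p1, p2⟩ := (d1 σ).2 p hp
    have : ω p (lay σ) ∈ W h.toTr (D ∪ x '' {j | j ∉ S ∨ lay j < lay σ}) := hω p _ ▸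
      pr_mem fun j hj => G_mem _ (.inr ⟨_, .inr ((d2 p p1 j (by omega)).2.2.trans_lt hj), rfl⟩)
    exact hY σ p ▸ mul_mem (mul_mem (star_mem this) (fn_mem inferInstance _
      (sub_W (.inr ⟨p, .inl fun c => ST p c p1, rfl⟩)))) this
  obtain ⟨β, b1, b2, b3⟩ := multi h.toTA (F := F) (D := D) (x := x) (T := S) lay
    (fun _ => G_mem _ rfl) (fun σ _ => mul_mem (W_mono (Set.union_subset_union_right _
      (Set.image_mono fun _ => .inr)) (Um σ)) (G_mem _ (.inr ⟨σ, .inl rfl, rfl⟩)))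
    fun σ hσ => m.mvL σ (Uu _ σ) (W_mono (Set.union_subset_union_right _ (Set.image_mono (by
      rintro j (hj | hj) rfl
      exacts [hj hσ, hj.false]))) (Um σ))
  have ωm : ∀ t ∈ T, star (ω t d) ∈ W h.toTr (D ∪ x '' {j | j ∉ T}) := fun t ht => hω t d ▸
    star_mem (pr_mem fun j hj => G_mem _ (.inr ⟨_, ST _ (d2 t ht j hj).1, rfl⟩))
  obtain ⟨α, a1, a2, a3⟩ := multi h.toTA (F := F) (D := D) (x := x) (T := T) (fun _ => 0)
    (fun _ => G_mem _ rfl) (fun t ht => mul_mem (G_mem _ (.inr ⟨t, .inl rfl, rfl⟩))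
      (W_mono (Set.union_subset_union_right _ (Set.image_mono fun _ c => .inr (.inl c))) (ωm t ht)))
    fun t ht => m.mvR t (Unitary.star_mem (ωu t d)) (W_mono (Set.union_subset_union_right _
      (Set.image_mono (by rintro j hj rfl; exact hj ht))) (ωm t ht))
  have a4 : ∀ σ ∈ S, α (G (x σ)) = G (x σ) := fun σ hσ => by
    rw [G, map_fn α _ (sc σ).sa, a2 σ (ST σ hσ)]
  refine ⟨β.trans α, b1.trans a1, fun j c1 c2 => by rw [StarAlgEquiv.trans_apply, b2 j c1, a2 j c2],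
    fun σ hσ => ?_, fun t ht => ⟨α (pr (fun j => U (fun _ => true) (s t j) * G (x (s t j))) d),
      Unitary.map_mem α (pr_mem fun j _ => mul_mem (Uu _ _) (au _)), ?_, ?_⟩⟩
  · have c := cost_un h.toTr (Y1 σ) (d1 σ).1 η0 hB (G (x σ))
    have e : ∀ ε, ‖Λ ((un (amp (N σ) (Y σ) η ε) - 1) * G (x σ))‖ =
        ‖Λ ((β.trans α) (G (x σ)) - G (x σ))‖ := fun ε => by
      rw [← hU, ← g5, ← g2 ε σ (.inl (ST σ hσ)), ← map_one (γ ε), ← map_sub, ← map_mul,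
        (g1 ε).norm h.toTr, g2 ε σ (.inl (ST σ hσ)), ← a1.norm h.toTr, sub_mul, one_mul, map_sub α,
        a4 σ hσ, StarAlgEquiv.trans_apply, b3 σ hσ]
    simp only [e, sum_const, card_univ, nsmul_eq_mul, h.unit (au σ), one_pow, mul_one] at c
    exact le_of_mul_le_mul_left c (by exact_mod_cast Fintype.card_pos)
  · rw [map_pr]
    refine pr_mem fun j hj => ?_
    rw [← b3 _ (d2 t ht j hj).1, ← StarAlgEquiv.trans_apply, G, map_fn _ _ (sc _).sa]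
    exact G_mem _ ⟨_, (d2 t ht j hj).1, rfl⟩
  · have st := steer2 (N := fun j => N (s t j)) (Y := fun j => Y (s t j))
      (w := fun j => G (x (s t j))) (d := d) (t := t) (fun j => Y1 _) (fun j => (d1 _).1) η0 hB η1
      (fun j => au _) (fun j hj => (d2 t ht j hj).2.1) (d3 t ht) (y1 t)
      (fun j hj => by rw [hY, (d2 t ht j hj).2.2, hω]) rfl
    have e : un (η • fn (rt d) (x t)) ^ d = G (x t) := by
      rw [hη, un_rt hd (sc t).sa, G, fn_eq (sc t).sa, fn_eq (sc t).sa, ← map_pow, ex_pow,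
        mul_inv_cancel₀ (by exact_mod_cast (by omega : d ≠ 0))]
    rw [e, ← hω] at st
    have e2 : α (G (x t) * ω t d) = G (x t) := by
      rw [map_mul, a3 t ht, hω, map_pr, pr_congr fun j hj => a4 _ (d2 t ht j hj).1, ← hω, mul_assoc,
        (ωu t d).1, mul_one]
    rw [← e2, ← map_sub α, a1.norm h.toTr]
    refine avg_dist h.toTA ⟨fun _ => true, by simp⟩ (mul_mem (au t) (ωu t d))
      (pr_mem fun j _ => mul_mem (Uu _ _) (au _)) (fun ε hε => ?_) st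
    rw [← (g1 ε).1 (_ * pr (fun j => U _ _ * _) d), map_mul (γ ε), map_star (γ ε), map_mul (γ ε),
      g4 ε t ht d le_rfl,
      g2 ε t (.inr (by simpa using hε)), map_pr]
    congr 2
    exact pr_congr fun j hj => by rw [map_mul, g5, g2 ε _ (.inl (ST _ (d2 t ht j hj).1)), hU]

end Vale.Agent.P086
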