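import Vale.Agent.P085.Generic

/-! Closure in the norm of a trace and the transfer principle. -/

namespace Vale.Agent.P086

open Vale.Agent.P104 Vale.Agent.P085 Filter Topology
open scoped InnerProductSpace CStarAlgebra

theorem adj_ind {C : Type*} [Ring C] [StarRing C] [Algebra ℂ C] [StarModule ℂ C] {S : Set C}
    {P : C → Prop} (hs : ∀ s ∈ S, P s ∧ P (star s)) (h1 : ∀ r : ℂ, P (algebraMap ℂ C r))
    (ha : ∀ x y, P x → P y → P (x + y)) (hm : ∀ x y, P x → P y → P (x * y)) {x : C}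
    (hx : x ∈ StarAlgebra.adjoin ℂ S) : P x := by
  refine (StarAlgebra.adjoin_induction (p := fun x _ => P x ∧ P (star x)) hs
    (fun r => ⟨h1 r, ?_⟩) (fun x y _ _ a b => ⟨ha _ _ a.1 b.1, star_add x y ▸ ha _ _ a.2 b.2⟩)
    (fun x y _ _ a b => ⟨hm _ _ a.1 b.1, star_mul x y ▸ hm _ _ b.2 a.2⟩)
    (fun x _ a => ⟨a.2, (star_star x).symm ▸ a.1⟩) hx).1
  rw [← algebraMap_star_comm]
  exact h1 _

variable {A E : Type*} [CStarAlgebra A] [NormedAddCommGroup E] [InnerProductSpace ℂ E]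
  {τ : A →ₗ[ℂ] ℂ} {Λ : A →ₗ[ℂ] E}

theorem ml (h : Tr τ Λ) (x y : A) : ‖Λ (x * y)‖ ≤ ‖x‖ * ‖Λ y‖ := by
  let _ := CStarAlgebra.spectralOrder A
  have := CStarAlgebra.spectralOrderedRing A
  exact h.mul_l x y

theorem mr (h : Tr τ Λ) (x y : A) : ‖Λ (x * y)‖ ≤ ‖Λ x‖ * ‖y‖ := by
  let _ := CStarAlgebra.spectralOrder A
  have := CStarAlgebra.spectralOrderedRing A
  exact h.mul_r x y

theorem le1 (h : Tr τ Λ) (x : A) : ‖Λ x‖ ≤ ‖x‖ * ‖Λ 1‖ := by simpa using ml h x 1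

theorem tr_le (h : Tr τ Λ) (x : A) : ‖τ x‖ ≤ ‖Λ 1‖ * ‖Λ x‖ := by
  simpa [h.inner] using norm_inner_le_norm (𝕜 := ℂ) (Λ 1) (Λ x)

theorem tri (Λ : A →ₗ[ℂ] E) (x y z : A) : ‖Λ (x - z)‖ ≤ ‖Λ (x - y)‖ + ‖Λ (y - z)‖ := by
  rw [← sub_add_sub_cancel x y z, map_add]
  exact norm_add_le _ _

theorem sym (Λ : A →ₗ[ℂ] E) (x y : A) : ‖Λ (x - y)‖ = ‖Λ (y - x)‖ := by
  rw [← neg_sub, map_neg, norm_neg]

theorem Cl_le {S : Set A} {P : StarSubalgebra ℂ A} (hP : IsClosed (P : Set A)) (h : S ⊆ P) :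
    Cl S ≤ P := StarSubalgebra.topologicalClosure_minimal (StarAlgebra.adjoin_le h) hP

theorem bdd_approx (h : Tr τ Λ) {S : Set A} (x : A) {p : A} (hp : p ∈ Cl S) :
    ∃ q ∈ Cl S, ‖q‖ ≤ 2 * ‖x‖ ∧ ‖Λ (x - q)‖ ≤ 2 * ‖Λ (x - p)‖ := by
  let _ := CStarAlgebra.spectralOrder A
  have := CStarAlgebra.spectralOrderedRing A
  have key : ∀ x p : A, p ∈ Cl S → ∃ q ∈ Cl S, ‖q‖ ≤ ‖x‖ ∧
      ‖Λ ((2 : ℝ)⁻¹ • (x + star x) - q)‖ ≤ ‖Λ (x - p)‖ := fun x p hp => by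
    rcases eq_or_ne x 0 with rfl | x0
    · exact ⟨0, zero_mem _, by simp⟩
    have n0 : 0 < ‖x‖ := norm_pos_iff.2 x0
    obtain ⟨q, q1, q2, q3⟩ := contr_approx h (v := ‖x‖⁻¹ • (2 : ℝ)⁻¹ • (x + star x))
      (by simp [add_comm]) (by
        rw [norm_smul, norm_smul, norm_inv, norm_norm, inv_mul_le_iff₀ n0]
        have := norm_add_le x (star x)
        rw [norm_star] at this
        norm_num
        linarith) (rsmul_mem ‖x‖⁻¹ (rsmul_mem 2⁻¹ (add_mem hp (star_mem hp))))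
    refine ⟨‖x‖ • q, rsmul_mem _ q1, ?_, ?_⟩
    · rw [norm_smul, norm_norm]
      exact mul_le_of_le_one_right n0.le q2
    · have := mul_le_mul_of_nonneg_left q3 n0.le
      rw [← norm_norm x, ← norm_smul, ← norm_smul, norm_norm, ← LinearMap.map_smul_of_tower,
        ← LinearMap.map_smul_of_tower, smul_sub, smul_sub, smul_inv_smul₀ n0.ne',
        smul_inv_smul₀ n0.ne', ← smul_sub, add_sub_add_comm, ← star_sub] at this
      exact this.trans (h.norm_re _)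
  obtain ⟨a, a1, a2, a3⟩ := key x p hp
  obtain ⟨b, b1, b2, b3⟩ := key (-Complex.I • x) _ ((Cl S).smul_mem hp (-Complex.I))
  rw [← smul_sub, map_smul, norm_smul] at b3
  rw [norm_smul] at b2
  simp only [norm_neg, Complex.norm_I, one_mul] at b2 b3
  refine ⟨a + Complex.I • b, add_mem a1 ((Cl S).smul_mem b1 _), ?_, ?_⟩
  · refine (norm_add_le _ _).trans ?_
    rw [norm_smul, Complex.norm_I]
    linarith
  · have : x - (a + Complex.I • b) = ((2 : ℝ)⁻¹ • (x + star x) - a) +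
        Complex.I • ((2 : ℝ)⁻¹ • (-Complex.I • x + star (-Complex.I • x)) - b) := by
      simp only [star_smul, star_neg, Complex.star_def, Complex.conj_I, ← Complex.coe_smul]
      match_scalars
      · push_cast; linear_combination (2⁻¹ : ℂ) * Complex.I_mul_I
      · ring
      · ring
      · push_cast; linear_combination (-2⁻¹ : ℂ) * Complex.I_mul_I
    rw [this, map_add, map_smul]
    refine (norm_add_le _ _).trans ?_
    rw [norm_smul, Complex.norm_I]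
    linarith

/-- Elements asymptotically in the algebras generated by the sets `P n`. -/
def Lim (h : Tr τ Λ) {ι : Type*} (l : Filter ι) (P : ι → Set A) : StarSubalgebra ℂ A where
  carrier := {x | ∀ ε > 0, ∀ᶠ n in l, ∃ p ∈ Cl (P n), ‖Λ (x - p)‖ < ε}
  mul_mem' {x y} hx hy ε hε := by
    filter_upwards [hx (ε / 2 / (2 * ‖y‖ + 1)) (by positivity),
      hy (ε / 2 / (2 * ‖x‖ + 1)) (by positivity)] with n ⟨p0, p1, p2⟩ ⟨q, q1, q2⟩
    obtain ⟨p, p3, p4, p5⟩ := bdd_approx h x p1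
    refine ⟨p * q, mul_mem p3 q1, ?_⟩
    rw [show x * y - p * q = (x - p) * y + p * (y - q) by noncomm_ring, map_add]
    rw [lt_div_iff₀ (by positivity)] at p2 q2
    have a := mul_le_mul_of_nonneg_right p5 (norm_nonneg y)
    have b := mul_le_mul_of_nonneg_right p4 (norm_nonneg (Λ (y - q)))
    nlinarith [norm_add_le (Λ ((x - p) * y)) (Λ (p * (y - q))), mr h (x - p) y, ml h p (y - q),
      norm_nonneg (Λ (x - p0)), norm_nonneg (Λ (y - q))]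
  add_mem' {x y} hx hy ε hε := by
    filter_upwards [hx _ (half_pos hε), hy _ (half_pos hε)] with n ⟨p, p1, p2⟩ ⟨q, q1, q2⟩
    refine ⟨p + q, add_mem p1 q1, ?_⟩
    rw [add_sub_add_comm, map_add]
    linarith [norm_add_le (Λ (x - p)) (Λ (y - q))]
  algebraMap_mem' r ε hε := .of_forall fun n => ⟨_, algebraMap_mem _ r, by simpa using hε⟩
  star_mem' {x} hx ε hε := (hx ε hε).mono fun n ⟨p, p1, p2⟩ =>
    ⟨star p, star_mem p1, by rwa [← star_sub, h.norm_star]⟩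

/-- The subalgebra is closed in the norm of the trace. -/
def LC (Λ : A →ₗ[ℂ] E) (P : Set A) : Prop := ∀ x, (∀ ε > 0, ∃ y ∈ P, ‖Λ (x - y)‖ < ε) → x ∈ P

theorem Lim_lc (h : Tr τ Λ) {ι : Type*} (l : Filter ι) (P : ι → Set A) : LC Λ (Lim h l P) :=
  fun x hx ε hε => by
  obtain ⟨y, y1, y2⟩ := hx _ (half_pos hε)
  exact (y1 _ (half_pos hε)).mono fun n ⟨p, p1, p2⟩ => ⟨p, p1, by linarith [tri Λ x y p]⟩

theorem LC.isClosed (h : Tr τ Λ) {P : Set A} (hP : LC Λ P) : IsClosed P :=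
  isClosed_of_closure_subset fun x hx => hP x fun ε hε => by
    obtain ⟨y, y1, y2⟩ := Metric.mem_closure_iff.1 hx (ε / (‖Λ 1‖ + 1)) (by positivity)
    rw [dist_eq_norm, lt_div_iff₀ (by positivity)] at y2
    exact ⟨y, y1, by nlinarith [le1 h (x - y), norm_nonneg (x - y)]⟩

/-- The closure in the norm of the trace of the algebra generated by `S`. -/
def W (h : Tr τ Λ) (S : Set A) : StarSubalgebra ℂ A := Lim h (pure ()) fun _ => S

theorem mem_W {h : Tr τ Λ} {S : Set A} {x : A} :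
    x ∈ W h S ↔ ∀ ε > 0, ∃ p ∈ Cl S, ‖Λ (x - p)‖ < ε := Iff.rfl

theorem W_lc (h : Tr τ Λ) (S : Set A) : LC Λ (W h S) := Lim_lc h _ _

instance W_closed (h : Tr τ Λ) (S : Set A) : IsClosed (W h S : Set A) := (W_lc h S).isClosed h

theorem Cl_W {h : Tr τ Λ} {S : Set A} {x : A} (hx : x ∈ Cl S) : x ∈ W h S :=
  fun ε hε => ⟨x, hx, by simpa using hε⟩

theorem sub_W {h : Tr τ Λ} {S : Set A} {x : A} (hx : x ∈ S) : x ∈ W h S := Cl_W (mem_Cl hx)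

theorem W_le {h : Tr τ Λ} {S : Set A} {P : StarSubalgebra ℂ A} (hP : LC Λ P) (hS : S ⊆ P) :
    W h S ≤ P := fun x hx => hP x fun ε hε =>
  (hx ε hε).imp fun _ hp => ⟨Cl_le (hP.isClosed h) hS hp.1, hp.2⟩

theorem W_sub {h : Tr τ Λ} {S T : Set A} (hS : ∀ x ∈ S, x ∈ W h T) : W h S ≤ W h T :=
  W_le (W_lc h T) hS

theorem W_mono {h : Tr τ Λ} {S T : Set A} (hS : S ⊆ T) : W h S ≤ W h T :=
  W_sub fun _ hx => sub_W (hS hx)

theorem mem_W' {h : Tr τ Λ} {S : Set A} {x : A} (hx : x ∈ W h S) {ε : ℝ} (hε : 0 < ε) :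
    ∃ p ∈ StarAlgebra.adjoin ℂ S, ‖Λ (x - p)‖ < ε := by
  obtain ⟨p, p1, p2⟩ := hx _ (half_pos hε)
  obtain ⟨y, y1, y2⟩ := Metric.mem_closure_iff.1 p1 (ε / 2 / (‖Λ 1‖ + 1)) (by positivity)
  rw [dist_eq_norm, lt_div_iff₀ (by positivity)] at y2
  exact ⟨y, y1, by nlinarith [le1 h (p - y), norm_nonneg (p - y), tri Λ x p y]⟩

theorem lim_of_tendsto (h : Tr τ Λ) {ι : Type*} {l : Filter ι} {P : ι → Set A} {x : A} {y : ι → A}
    (h1 : ∀ n, y n ∈ W h (P n)) (h2 : Tendsto (fun n => ‖Λ (x - y n)‖) l (𝓝 0)) :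
    x ∈ Lim h l P := fun ε hε => (h2.eventually (gt_mem_nhds (half_pos hε))).mono fun n hn => by
  obtain ⟨p, p1, p2⟩ := h1 n _ (half_pos hε)
  exact ⟨p, p1, by linarith [tri Λ x (y n) p]⟩

theorem seq_W {h : Tr τ Λ} {S : Set A} {x : A} (hx : x ∈ W h S) : ∃ p : ℕ → A,
    (∀ n, p n ∈ Cl S ∧ ‖p n‖ ≤ 2 * ‖x‖) ∧ Tendsto (fun n => ‖Λ (x - p n)‖) atTop (𝓝 0) := by
  choose p p1 p2 using fun n : ℕ => hx _ (Nat.one_div_pos_of_nat (n := n))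
  choose q q1 q2 q3 using fun n => bdd_approx h x (p1 n)
  refine ⟨q, fun n => ⟨q1 n, q2 n⟩, squeeze_zero (fun _ => norm_nonneg _)
    (fun n => (q3 n).trans (mul_le_mul_of_nonneg_left (p2 n).le zero_le_two)) ?_⟩
  simpa using tendsto_one_div_add_atTop_nhds_zero_nat.const_mul (2 : ℝ)

/-- A faithful normalized trace with complete unit ball. -/
structure TA (τ : A →ₗ[ℂ] ℂ) (Λ : A →ₗ[ℂ] E) : Prop extends Tr τ Λ where
  inj : ∀ x, Λ x = 0 → x = 0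
  one : τ 1 = 1
  cpl : ∀ (u : ℕ → A) (C : ℝ), (∀ n, ‖u n‖ ≤ C) → CauchySeq (fun n => Λ (u n)) →
    ∃ a, ‖a‖ ≤ C ∧ Tendsto (fun n => ‖Λ (a - u n)‖) atTop (𝓝 0)

theorem TA.n1 (h : TA τ Λ) : ‖Λ 1‖ = 1 := by
  rw [← sq_eq_sq₀ (norm_nonneg _) zero_le_one, h.toTr.nsq]
  simp [h.one]

theorem TA.eq_of (h : TA τ Λ) {x y : A} (hx : ∀ ε > 0, ‖Λ (x - y)‖ < ε) : x = y :=
  sub_eq_zero.1 (h.inj _ (norm_le_zero_iff.1 (le_of_forall_pos_le_add fun ε hε => by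
    simpa using (hx ε hε).le)))

variable {A' E' : Type*} [CStarAlgebra A'] [NormedAddCommGroup E'] [InnerProductSpace ℂ E']
  {τ' : A' →ₗ[ℂ] ℂ} {Λ' : A' →ₗ[ℂ] E'}

theorem W_map (h : Tr τ Λ) (h' : Tr τ' Λ') {F : Type*} [FunLike F A A'] [AlgHomClass F ℂ A A']
    [StarHomClass F A A'] (α : F) (hα : ∀ x, ‖Λ' (α x)‖ ≤ ‖Λ x‖) {S : Set A} {T : Set A'}
    (hS : ∀ x ∈ S, α x ∈ W h' T) {x : A} (hx : x ∈ W h S) : α x ∈ W h' T :=
  W_le (P := (W h' T).comap (α : A →⋆ₐ[ℂ] A')) (fun x hx => W_lc h' T _ fun ε hε => by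
    obtain ⟨y, y1, y2⟩ := hx ε hε
    exact ⟨α y, y1, by
      change ‖Λ' (α x - α y)‖ < ε
      rw [← map_sub]
      exact (hα _).trans_lt y2⟩) hS hx

theorem norm_of_tr (h : Tr τ Λ) (h' : Tr τ' Λ') {x : A} {y : A'}
    (e : τ (star x * x) = τ' (star y * y)) : ‖Λ x‖ = ‖Λ' y‖ :=
  (sq_eq_sq₀ (norm_nonneg _) (norm_nonneg _)).1 (by rw [h.nsq, h'.nsq, e])

theorem norm_hom (h : Tr τ Λ) (h' : Tr τ' Λ') {F : Type*} [FunLike F A A'] [AlgHomClass F ℂ A A']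
    [StarHomClass F A A'] {α : F} (hα : ∀ x, τ' (α x) = τ x) (x : A) : ‖Λ' (α x)‖ = ‖Λ x‖ :=
  norm_of_tr h' h (by rw [← map_star, ← map_mul, hα])

theorem fix_W (h : TA τ Λ) {α : A ≃⋆ₐ[ℂ] A} (hα : ∀ x, τ (α x) = τ x) {S : Set A}
    (hS : ∀ x ∈ S, α x = x) {x : A} (hx : x ∈ W h.toTr S) : α x = x :=
  W_le (P := StarAlgHom.equalizer (α : A →⋆ₐ[ℂ] A) (StarAlgHom.id ℂ A)) (fun x hx =>
    h.eq_of fun ε hε => by
      obtain ⟨y, y1, y2⟩ := hx _ (half_pos hε)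
      have y3 : α y = y := y1
      have := norm_hom h.toTr h.toTr hα (x - y)
      rw [map_sub, y3] at this
      have t := tri Λ (α x) y x
      rw [sym Λ y] at t
      change ‖Λ (α x - x)‖ < ε
      linarith) hS hx

/-- The sum of two traces. -/
noncomputable def pτ (τ : A →ₗ[ℂ] ℂ) (τ' : A' →ₗ[ℂ] ℂ) : A × A' →ₗ[ℂ] ℂ := τ.coprod τ'

/-- The direct sum of two embeddings. -/
noncomputable def pΛ (Λ : A →ₗ[ℂ] E) (Λ' : A' →ₗ[ℂ] E') : A × A' →ₗ[ℂ] WithLp 2 (E × E') :=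
  (WithLp.linearEquiv 2 ℂ (E × E')).symm.toLinearMap ∘ₗ Λ.prodMap Λ'

theorem pTr (h : Tr τ Λ) (h' : Tr τ' Λ') : Tr (pτ τ τ') (pΛ Λ Λ') :=
  ⟨fun x y => by simp [pτ, h.tr x.1, h'.tr x.2], fun x y => by simp [pτ, pΛ, h.inner, h'.inner]⟩

theorem pΛ_fst (z : A × A') : ‖Λ z.1‖ ≤ ‖pΛ Λ Λ' z‖ := WithLp.norm_fst_le _ (pΛ Λ Λ' z)

theorem pΛ_snd (z : A × A') : ‖Λ' z.2‖ ≤ ‖pΛ Λ Λ' z‖ := WithLp.norm_snd_le _ (pΛ Λ Λ' z)

theorem pΛ_le (z : A × A') : ‖pΛ Λ Λ' z‖ ≤ ‖Λ z.1‖ + ‖Λ' z.2‖ := by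
  refine (pow_le_pow_iff_left₀ (norm_nonneg _) (by positivity) two_ne_zero).1 ?_
  rw [WithLp.prod_norm_sq_eq_of_L2]
  change ‖Λ z.1‖ ^ 2 + ‖Λ' z.2‖ ^ 2 ≤ _
  nlinarith [norm_nonneg (Λ z.1), norm_nonneg (Λ' z.2)]

/-- The two traces agree on the set. -/
def Gr (τ : A →ₗ[ℂ] ℂ) (τ' : A' →ₗ[ℂ] ℂ) (R : Set (A × A')) : Prop := ∀ z ∈ R, τ z.1 = τ' z.2

theorem Gr.lim (h : Tr τ Λ) (h' : Tr τ' Λ') {ι : Type*} {l : Filter ι} [l.NeBot]
    {P : ι → Set (A × A')} (hP : ∀ n, Gr τ τ' (StarAlgebra.adjoin ℂ (P n))) :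
    Gr τ τ' (Lim (pTr h h') l P) := fun z hz => by
  have c : ∀ x y : A × A', τ y.1 = τ' y.2 →
      ‖τ x.1 - τ' x.2‖ ≤ (‖Λ 1‖ + ‖Λ' 1‖) * ‖pΛ Λ Λ' (x - y)‖ := fun x y e => by
    have a := (tr_le h _).trans (mul_le_mul_of_nonneg_left (pΛ_fst (Λ' := Λ') (x - y)) (norm_nonneg _))
    have b := (tr_le h' _).trans (mul_le_mul_of_nonneg_left (pΛ_snd (Λ := Λ) (x - y)) (norm_nonneg _))
    rw [Prod.fst_sub, map_sub] at a
    rw [Prod.snd_sub, map_sub, ← e] at b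
    rw [← sub_sub_sub_cancel_right _ _ (τ y.1), add_mul]
    exact norm_sub_le_of_le a b
  refine sub_eq_zero.1 (norm_le_zero_iff.1 (le_of_forall_pos_le_add fun ε hε => ?_))
  have K0 : 0 < ‖Λ 1‖ + ‖Λ' 1‖ + 1 := by positivity
  obtain ⟨n, p, p1, p2⟩ := (hz _ (half_pos (div_pos hε K0))).exists
  obtain ⟨q, q1, q2⟩ := mem_W' (Cl_W (h := pTr h h') p1) (half_pos (div_pos hε K0))
  have t := (tri (pΛ Λ Λ') z p q).trans_lt (add_lt_add p2 q2)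
  rw [add_halves, lt_div_iff₀ K0] at t
  nlinarith [c z q (hP n q q1), norm_nonneg (pΛ Λ Λ' (z - q))]

theorem Gr.W (h : Tr τ Λ) (h' : Tr τ' Λ') {S : Set (A × A')}
    (hS : Gr τ τ' (StarAlgebra.adjoin ℂ S)) : Gr τ τ' (W (pTr h h') S) :=
  Gr.lim h h' fun _ => hS

theorem Gr.norm (h : Tr τ Λ) (h' : Tr τ' Λ') {R : StarSubalgebra ℂ (A × A')} (hR : Gr τ τ' R)
    {z : A × A'} (hz : z ∈ R) : ‖Λ z.1‖ = ‖Λ' z.2‖ :=
  norm_of_tr h h' (hR _ (mul_mem (star_mem hz) hz))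

theorem Gr.total (h : Tr τ Λ) (h' : TA τ' Λ') {S : Set (A × A')}
    (hS : Gr τ τ' (StarAlgebra.adjoin ℂ S)) {T : Set A}
    (hT : ∀ x ∈ T, ∃ y, (x, y) ∈ P086.W (pTr h h'.toTr) S) {x : A} (hx : x ∈ P086.W h T) :
    ∃ y, (x, y) ∈ P086.W (pTr h h'.toTr) S := by
  have g := hS.W h h'.toTr
  set R := P086.W (pTr h h'.toTr) S
  let φ : R →⋆ₐ[ℂ] A := (StarAlgHom.fst ℂ A A').comp R.subtype
  have inj : Function.Injective φ := (injective_iff_map_eq_zero φ).2 fun z hz => by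
    have z1 : z.1.1 = 0 := hz
    have := g.norm h h'.toTr z.2
    rw [z1, map_zero, norm_zero, eq_comm, norm_eq_zero] at this
    exact Subtype.ext (Prod.ext z1 (h'.inj _ this))
  have cl : IsClosed (φ.range : Set A) :=
    (NonUnitalStarAlgHom.isometry φ inj).isClosedEmbedding.isClosed_range
  obtain ⟨p, p1, p2⟩ := seq_W hx
  choose z hz using fun n => Cl_le cl (fun x hx => (hT x hx).elim fun y hy => ⟨⟨_, hy⟩, rfl⟩) (p1 n).1
  have z1 : ∀ n, (z n).1.1 = p n := hz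
  have c : CauchySeq fun n => Λ (p n) := Tendsto.cauchySeq (x := Λ x) (by
    rw [tendsto_iff_norm_sub_tendsto_zero]
    simpa only [← map_sub, sym Λ (p _)] using p2)
  obtain ⟨y, -, hy⟩ := h'.cpl (fun n => (z n).1.2) (2 * ‖x‖) (fun n => by
    refine (norm_snd_le _).trans (le_of_eq_of_le ?_ (p1 n).2)
    rw [← z1]
    exact (NonUnitalStarAlgHom.norm_map φ inj (z n)).symm) (by
      rw [Metric.cauchySeq_iff] at c ⊢
      intro ε hε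
      obtain ⟨N, hN⟩ := c ε hε
      refine ⟨N, fun m hm n hn => ?_⟩
      have a := g.norm h h'.toTr (sub_mem (z m).2 (z n).2)
      have b := hN m hm n hn
      rw [dist_eq_norm, ← map_sub] at b ⊢
      rw [Prod.fst_sub, Prod.snd_sub, z1, z1] at a
      exact a ▸ b)
  refine ⟨y, W_lc _ _ _ fun ε hε => ?_⟩
  obtain ⟨n, hn⟩ := ((p2.add hy).eventually (gt_mem_nhds (by simpa using hε))).exists
  exact ⟨_, (z n).2, (pΛ_le _).trans_lt (by simpa [z1] using hn)⟩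

theorem Gr.total' (h : TA τ Λ) (h' : Tr τ' Λ') {S : Set (A × A')}
    (hS : Gr τ τ' (StarAlgebra.adjoin ℂ S)) {T : Set A'}
    (hT : ∀ y ∈ T, ∃ x, (x, y) ∈ P086.W (pTr h.toTr h') S) {y : A'} (hy : y ∈ P086.W h' T) :
    ∃ x, (x, y) ∈ P086.W (pTr h.toTr h') S := by
  let σ := (StarAlgHom.snd ℂ A A').prod (StarAlgHom.fst ℂ A A')
  let σ' := (StarAlgHom.snd ℂ A' A).prod (StarAlgHom.fst ℂ A' A)
  have a := norm_hom (pTr h.toTr h') (pTr h' h.toTr) (α := σ) fun z => by simp [σ, pτ, add_comm]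
  have b := norm_hom (pTr h' h.toTr) (pTr h.toTr h') (α := σ') fun z => by simp [σ', pτ, add_comm]
  have g : Gr τ' τ (StarAlgebra.adjoin ℂ (σ '' S)) := by
    rw [← StarAlgHom.map_adjoin]
    rintro _ ⟨z, hz, rfl⟩
    exact (hS z hz).symm
  have m1 : ∀ z ∈ P086.W (pTr h.toTr h') S, σ z ∈ P086.W (pTr h' h.toTr) (σ '' S) := fun z hz =>
    W_map (pTr h.toTr h') (pTr h' h.toTr) σ (fun z => (a z).le)
      (fun z hz => sub_W (Set.mem_image_of_mem σ hz)) hz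
  have m2 : ∀ z ∈ P086.W (pTr h' h.toTr) (σ '' S), σ' z ∈ P086.W (pTr h.toTr h') S := fun z hz =>
    W_map (pTr h' h.toTr) (pTr h.toTr h') σ' (fun z => (b z).le)
      (by rintro _ ⟨z, hz, rfl⟩; exact sub_W hz) hz
  obtain ⟨x, hx⟩ := Gr.total h' h g (fun y hy => (hT y hy).imp fun x hx => m1 (x, y) hx) hy
  exact ⟨x, m2 (y, x) hx⟩

theorem exists_equiv (h : TA τ Λ) (h' : TA τ' Λ') {S : Set (A × A')}
    (hS : Gr τ τ' (StarAlgebra.adjoin ℂ S)) (h1 : ∀ x, x ∈ W h.toTr (Prod.fst '' S))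
    (h2 : ∀ y, y ∈ W h'.toTr (Prod.snd '' S)) :
    ∃ α : A ≃⋆ₐ[ℂ] A', (∀ x, τ' (α x) = τ x) ∧ ∀ z ∈ S, α z.1 = z.2 := by
  have g := hS.W h.toTr h'.toTr
  have t1 := fun x => hS.total h.toTr h' (by rintro _ ⟨z, hz, rfl⟩; exact ⟨_, sub_W hz⟩) (h1 x)
  have t2 := fun y => hS.total' h h'.toTr (by rintro _ ⟨z, hz, rfl⟩; exact ⟨_, sub_W hz⟩) (h2 y)
  have hs : ∀ z ∈ S, z ∈ W (pTr h.toTr h'.toTr) S := fun z => sub_W
  generalize W (pTr h.toTr h'.toTr) S = R at *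
  let φ : R →⋆ₐ[ℂ] A := (StarAlgHom.fst ℂ A A').comp R.subtype
  let ψ : R →⋆ₐ[ℂ] A' := (StarAlgHom.snd ℂ A A').comp R.subtype
  have z : ∀ z : R, z.1.1 = 0 ↔ z.1.2 = 0 := fun z => by
    have := g.norm h.toTr h'.toTr z.2
    exact ⟨fun c => h'.inj _ (by rw [← norm_eq_zero, ← this, c]; simp),
      fun c => h.inj _ (by rw [← norm_eq_zero, this, c]; simp)⟩
  have b1 : Function.Bijective φ := ⟨(injective_iff_map_eq_zero φ).2 fun w hw =>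
    Subtype.ext (Prod.ext hw ((z w).1 hw)), fun x => (t1 x).elim fun y hy => ⟨⟨_, hy⟩, rfl⟩⟩
  have b2 : Function.Bijective ψ := ⟨(injective_iff_map_eq_zero ψ).2 fun w hw =>
    Subtype.ext (Prod.ext ((z w).2 hw) hw), fun y => (t2 y).elim fun x hx => ⟨⟨_, hx⟩, rfl⟩⟩
  have e : ∀ w : R, ((StarAlgEquiv.ofBijective φ b1).symm.trans (StarAlgEquiv.ofBijective ψ b2))
      w.1.1 = w.1.2 := fun w => by
    have : (StarAlgEquiv.ofBijective φ b1).symm w.1.1 = w :=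
      (StarAlgEquiv.ofBijective φ b1).symm_apply_apply w
    rw [StarAlgEquiv.trans_apply, this]
    rfl
  refine ⟨_, fun x => ?_, fun w hw => e ⟨w, hs w hw⟩⟩
  obtain ⟨y, hy⟩ := t1 x
  exact (congrArg τ' (e ⟨_, hy⟩)).trans (g _ hy).symm

theorem Gr.ext {B N : StarSubalgebra ℂ A}
    (hB : ∀ e ∈ B, ∀ x ∈ N, e * x = x * e ∧ τ (e * x) = τ e * τ x) {S : Set (A × A)}
    (hS : Gr τ τ (StarAlgebra.adjoin ℂ S)) (s1 : ∀ z ∈ S, z.1 ∈ N ∧ z.2 ∈ N) :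
    Gr τ τ (StarAlgebra.adjoin ℂ ((fun e => (e, e)) '' B ∪ S)) := fun z hz => by
  have s2 : ∀ z ∈ StarAlgebra.adjoin ℂ S, z.1 ∈ N ∧ z.2 ∈ N := fun z hz =>
    StarAlgebra.adjoin_le (S := N.comap (StarAlgHom.fst ℂ A A) ⊓ N.comap (StarAlgHom.snd ℂ A A)) s1 hz
  let V := Submodule.span ℂ {w : A × A | ∃ e ∈ B, ∃ y ∈ StarAlgebra.adjoin ℂ S, w = (e, e) * y}
  have k : ∀ s : A × A, (∀ e ∈ B, ∀ y ∈ StarAlgebra.adjoin ℂ S, s * ((e, e) * y) ∈ V) →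
      ∀ v ∈ V, s * v ∈ V := fun s hs v hv =>
    Submodule.span_le (p := V.comap (LinearMap.mulLeft ℂ s)).2
      (by rintro _ ⟨e, he, y, hy, rfl⟩; exact hs e he y hy) hv
  have k1 : ∀ b ∈ B, ∀ v ∈ V, (b, b) * v ∈ V := fun b hb => k _ fun e he y hy =>
    Submodule.subset_span ⟨b * e, mul_mem hb he, y, hy, by rw [← mul_assoc]; rfl⟩
  have k2 : ∀ s ∈ StarAlgebra.adjoin ℂ S, ∀ v ∈ V, s * v ∈ V := fun s hs => k _ fun e he y hy =>
    Submodule.subset_span ⟨e, he, s * y, mul_mem hs hy, by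
      rw [← mul_assoc, ← mul_assoc]
      congr 1
      exact Prod.ext (hB e he _ (s2 s hs).1).1.symm (hB e he _ (s2 s hs).2).1.symm⟩
  have m : ∀ v ∈ V, z * v ∈ V := by
    refine adj_ind (P := fun z => ∀ v ∈ V, z * v ∈ V) ?_
      (fun r v hv => by rw [← Algebra.smul_def]; exact V.smul_mem r hv)
      (fun x y a b v hv => by rw [add_mul]; exact add_mem (a v hv) (b v hv))
      (fun x y a b v hv => by rw [mul_assoc]; exact a _ (b v hv)) hz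
    rintro s (⟨b, hb, rfl⟩ | hs)
    · exact ⟨k1 b hb, k1 _ (star_mem hb)⟩
    · have := StarAlgebra.subset_adjoin ℂ S hs
      exact ⟨k2 s this, k2 _ (star_mem this)⟩
  have m1 := m 1 (Submodule.subset_span ⟨1, one_mem _, 1, one_mem _, (mul_one _).symm⟩)
  rw [mul_one] at m1
  refine Submodule.span_le (p := LinearMap.eqLocus (τ ∘ₗ .fst ℂ A A) (τ ∘ₗ .snd ℂ A A)).2 ?_ m1
  rintro _ ⟨e, he, y, hy, rfl⟩
  change τ (e * y.1) = τ (e * y.2)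
  rw [(hB e he _ (s2 y hy).1).2, (hB e he _ (s2 y hy).2).2, hS y hy]

/-- A trace preserving automorphism fixing a set. -/
def Au (τ : A →ₗ[ℂ] ℂ) (F : Set A) (α : A ≃⋆ₐ[ℂ] A) : Prop := (∀ x, τ (α x) = τ x) ∧ ∀ e ∈ F, α e = e

/-- Automorphisms of `N` extend to automorphisms fixing `F`. -/
def Ext (h : Tr τ Λ) (F : Set A) (N : StarSubalgebra ℂ A) : Prop :=
  ∀ S : Set (A × A), Gr τ τ (StarAlgebra.adjoin ℂ S) → W h (Prod.fst '' S) = N →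
    W h (Prod.snd '' S) = N → ∃ α, Au τ F α ∧ ∀ z ∈ S, α z.1 = z.2

theorem Ext.top (h : TA τ Λ) : Ext h.toTr ∅ ⊤ := fun S hS h1 h2 => by
  obtain ⟨α, a1, a2⟩ := exists_equiv h h hS (fun x => h1 ▸ trivial) (fun x => h2 ▸ trivial)
  exact ⟨α, ⟨a1, fun _ => False.elim⟩, a2⟩

theorem W_union (h : Tr τ Λ) (S T : Set A) : W h (S ∪ W h T) = W h (S ∪ T) :=
  le_antisymm (W_sub (by
    rintro x (hx | hx)
    exacts [sub_W (.inl hx), W_mono Set.subset_union_right hx]))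
    (W_mono (Set.union_subset_union_right _ fun _ => sub_W))

theorem Ext.step {h : Tr τ Λ} {F : Set A} {B N N' : StarSubalgebra ℂ A} (hN : Ext h F N)
    (hB : ∀ e ∈ B, ∀ x ∈ N', e * x = x * e ∧ τ (e * x) = τ e * τ x) (e : W h (B ∪ N') = N) :
    Ext h (F ∪ B) N' := fun S hS h1 h2 => by
  obtain ⟨α, a1, a2⟩ := hN _ (hS.ext hB fun z hz =>
    ⟨h1 ▸ sub_W ⟨z, hz, rfl⟩, h2 ▸ sub_W ⟨z, hz, rfl⟩⟩)
    (by simp [Set.image_union, Set.image_image, ← e, ← h1, W_union])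
    (by simp [Set.image_union, Set.image_image, ← e, ← h2, W_union])
  exact ⟨α, ⟨a1.1, fun b hb => hb.elim (a1.2 b) fun hb => a2 (b, b) (.inl ⟨b, hb, rfl⟩)⟩,
    fun z hz => a2 z (.inr hz)⟩

theorem Au.norm (h : Tr τ Λ) {F : Set A} {α : A ≃⋆ₐ[ℂ] A} (hα : Au τ F α) (x : A) :
    ‖Λ (α x)‖ = ‖Λ x‖ := norm_hom h h hα.1 x

theorem Au.refl (F : Set A) : Au τ F (.refl ℂ A) := ⟨fun _ => rfl, fun _ _ => rfl⟩

theorem Au.trans {F : Set A} {α β : A ≃⋆ₐ[ℂ] A} (hα : Au τ F α) (hβ : Au τ F β) :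
    Au τ F (α.trans β) :=
  ⟨fun x => (hβ.1 _).trans (hα.1 x), fun e he => by
    rw [StarAlgEquiv.trans_apply, hα.2 e he, hβ.2 e he]⟩

theorem Au.map_W (h : Tr τ Λ) {F : Set A} {α : A ≃⋆ₐ[ℂ] A} (hα : Au τ F α) {S T : Set A}
    (hS : ∀ x ∈ S, α x ∈ W h T) {x : A} (hx : x ∈ W h S) : α x ∈ W h T :=
  W_map h h α (fun x => (hα.norm h x).le) hS hx

theorem W_comm (h : TA τ Λ) {S : Set A} {g : A} (hg : star g = g) (hS : ∀ x ∈ S, g * x = x * g)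
    {x : A} (hx : x ∈ W h.toTr S) : g * x = x * g := by
  have e : ∀ x, x ∈ StarSubalgebra.centralizer ℂ {g} ↔ g * x = x * g := fun x => by
    simp [StarSubalgebra.mem_centralizer_iff, hg]
  refine (e x).1 (W_le (fun x hx => (e x).2 (h.eq_of fun ε hε => ?_)) (fun x hx => (e x).2 (hS x hx)) hx)
  obtain ⟨y, y1, y2⟩ := hx (ε / (2 * ‖g‖ + 1)) (by positivity)
  rw [show g * x - x * g = g * (x - y) - (x - y) * g by rw [mul_sub, sub_mul, (e y).1 y1]; abel, map_sub]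
  rw [lt_div_iff₀ (by positivity)] at y2
  nlinarith [norm_sub_le (Λ (g * (x - y))) (Λ ((x - y) * g)), ml h.toTr g (x - y),
    mr h.toTr (x - y) g, norm_nonneg (Λ (x - y))]

end Vale.Agent.P086
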